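import Crest.Agent.R258.Data

/-!
# Row 258 — the Laurent ring `ℂ[x^±, y^±]`, supports, evaluation
-/

set_option autoImplicit false

noncomputable section

namespace Crest.Agent.R258

/-- Laurent polynomials in `x, y`. -/
abbrev A : Type := AddMonoidAlgebra ℂ (ℤ × ℤ)

/-- the monomial `x ^ m * y ^ n` -/
def mon (m n : ℤ) : A := AddMonoidAlgebra.single (m, n) 1

theorem mon_mul (m n m' n' : ℤ) : mon m n * mon m' n' = mon (m + m') (n + n') := by
  simp [mon, AddMonoidAlgebra.single_mul_single]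

@[simp] theorem mon_zero : mon 0 0 = 1 := rfl

theorem mon_pow (m n : ℤ) (k : ℕ) : mon m n ^ k = mon (k * m) (k * n) := by
  induction k with
  | zero => simp
  | succ k ih => rw [pow_succ, ih, mon_mul]; congr 1 <;> push_cast <;> ring

theorem mon_mul_neg (m n : ℤ) : mon m n * mon (-m) (-n) = 1 := by
  rw [mon_mul]; simp

theorem mon_congr {m n m' n' : ℤ} (h1 : m = m') (h2 : n = n') : mon m n = mon m' n' := by
  rw [h1, h2]

theorem single_eq_smul_mon (mn : ℤ × ℤ) (c : ℂ) :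
    (AddMonoidAlgebra.single mn c : A) = c • mon mn.1 mn.2 := by
  simp [mon]

/-- Laurent polynomials supported in `S`. -/
def sup (S : Set (ℤ × ℤ)) : Submodule ℂ A := AddMonoidAlgebra.supported ℂ ℂ S

theorem mem_sup {S : Set (ℤ × ℤ)} {f : A} : f ∈ sup S ↔ ∀ mn ∉ S, f.coeff mn = 0 :=
  AddMonoidAlgebra.mem_supported'

theorem sup_eq_span (S : Set (ℤ × ℤ)) :
    sup S = Submodule.span ℂ ((fun mn : ℤ × ℤ => mon mn.1 mn.2) '' S) :=
  AddMonoidAlgebra.supported_eq_span_single ℂ S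

theorem mon_mem_sup {S : Set (ℤ × ℤ)} {m n : ℤ} (h : (m, n) ∈ S) : mon m n ∈ sup S := by
  rw [sup_eq_span]; exact Submodule.subset_span ⟨(m, n), h, rfl⟩

theorem sup_mono {S T : Set (ℤ × ℤ)} (h : S ⊆ T) : sup S ≤ sup T :=
  AddMonoidAlgebra.supported_mono h

theorem mem_sup_univ (f : A) : f ∈ sup Set.univ := by simp [mem_sup]

/-- induction over `sup S` -/
theorem sup_induction {S : Set (ℤ × ℤ)} {P : A → Prop} (h0 : P 0)
    (hadd : ∀ f g, P f → P g → P (f + g)) (hsmul : ∀ (c : ℂ) f, P f → P (c • f))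
    (hmon : ∀ m n, (m, n) ∈ S → P (mon m n)) {f : A} (hf : f ∈ sup S) : P f := by
  rw [sup_eq_span] at hf
  induction hf using Submodule.span_induction with
  | mem x hx => obtain ⟨mn, h, rfl⟩ := hx; exact hmon _ _ h
  | zero => exact h0
  | add x y _ _ hx hy => exact hadd _ _ hx hy
  | smul c x _ hx => exact hsmul _ _ hx

theorem A_induction {P : A → Prop} (h0 : P 0)
    (hadd : ∀ f g, P f → P g → P (f + g)) (hsmul : ∀ (c : ℂ) f, P f → P (c • f))
    (hmon : ∀ m n, P (mon m n)) (f : A) : P f :=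
  sup_induction h0 hadd hsmul (fun m n _ => hmon m n) (mem_sup_univ f)

theorem mul_mem_sup {S T U : Set (ℤ × ℤ)}
    (h : ∀ m n m' n', (m, n) ∈ S → (m', n') ∈ T → (m + m', n + n') ∈ U) {f g : A}
    (hf : f ∈ sup S) (hg : g ∈ sup T) : f * g ∈ sup U := by
  refine sup_induction (P := fun f => f * g ∈ sup U) (by simp) ?_ ?_ ?_ hf
  · intro f1 f2 h1 h2; rw [add_mul]; exact add_mem h1 h2
  · intro c f1 h1; rw [smul_mul_assoc]; exact Submodule.smul_mem _ _ h1
  · intro m n hmn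
    refine sup_induction (P := fun g => mon m n * g ∈ sup U) (by simp) ?_ ?_ ?_ hg
    · intro f1 f2 h1 h2; rw [mul_add]; exact add_mem h1 h2
    · intro c f1 h1; rw [mul_smul_comm]; exact Submodule.smul_mem _ _ h1
    · intro m' n' h'; rw [mon_mul]; exact mon_mem_sup (h _ _ _ _ hmn h')

theorem sup_inter (S T : Set (ℤ × ℤ)) : sup (S ∩ T) = sup S ⊓ sup T := by
  ext f
  simp only [mem_sup, Submodule.mem_inf, Set.mem_inter_iff]
  constructor
  · intro h; exact ⟨fun mn hm => h mn fun h' => hm h'.1, fun mn hm => h mn fun h' => hm h'.2⟩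
  · rintro ⟨h1, h2⟩ mn hm
    by_cases hS : mn ∈ S
    · exact h2 mn fun hT => hm ⟨hS, hT⟩
    · exact h1 mn hS

theorem sup_union (S T : Set (ℤ × ℤ)) : sup (S ∪ T) = sup S ⊔ sup T := by
  simp only [sup_eq_span, Set.image_union, Submodule.span_union]

/-- `sup S` as a subalgebra when `S` is a submonoid. -/
def supAlg (S : Set (ℤ × ℤ)) (h0 : (0, 0) ∈ S)
    (h : ∀ m n m' n', (m, n) ∈ S → (m', n') ∈ S → (m + m', n + n') ∈ S) : Subalgebra ℂ A :=
  (sup S).toSubalgebra (by rw [← mon_zero]; exact mon_mem_sup h0)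
    (fun _ _ hf hg => mul_mem_sup h hf hg)

theorem mem_supAlg {S : Set (ℤ × ℤ)} {h0 h} {f : A} : f ∈ supAlg S h0 h ↔ f ∈ sup S := Iff.rfl

/-- evaluation at an arbitrary point of `ℂ²` as a linear map (integer powers) -/
def evl (p : Fin 2 → ℂ) : A →ₗ[ℂ] ℂ :=
  (Finsupp.linearCombination ℂ (fun mn : ℤ × ℤ => p 0 ^ mn.1 * p 1 ^ mn.2)) ∘ₗ
    (AddMonoidAlgebra.coeffLinearEquiv ℂ).toLinearMap

@[simp] theorem evl_mon (p : Fin 2 → ℂ) (m n : ℤ) : evl p (mon m n) = p 0 ^ m * p 1 ^ n := by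
  simp [evl, mon]

@[simp] theorem evl_one (p : Fin 2 → ℂ) : evl p 1 = 1 := by
  rw [← mon_zero, evl_mon]; simp

theorem evl_mul {p : Fin 2 → ℂ} (h0 : p 0 ≠ 0) (h1 : p 1 ≠ 0) (f g : A) :
    evl p (f * g) = evl p f * evl p g := by
  induction f using A_induction with
  | h0 => simp
  | hadd f1 f2 h1 h2 => simp [add_mul, h1, h2]
  | hsmul c f h => simp [h, mul_assoc]
  | hmon m n =>
    induction g using A_induction with
    | h0 => simp
    | hadd f1 f2 h1 h2 => simp only [mul_add, map_add, h1, h2]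
    | hsmul c f h => simp only [mul_smul_comm, map_smul, h]
    | hmon m' n' => simp only [mon_mul, evl_mon, zpow_add₀ h0, zpow_add₀ h1]; ring

/-- evaluation at a torus point as an algebra homomorphism -/
def ev (p : Fin 2 → ℂ) (h0 : p 0 ≠ 0) (h1 : p 1 ≠ 0) : A →ₐ[ℂ] ℂ :=
  AlgHom.ofLinearMap (evl p) (evl_one p) (evl_mul h0 h1)

@[simp] theorem ev_apply (p : Fin 2 → ℂ) (h0 : p 0 ≠ 0) (h1 : p 1 ≠ 0) (f : A) :
    ev p h0 h1 f = evl p f := rfl

/-- the torus `(ℂˣ)²` -/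
def torus : Set (Fin 2 → ℂ) := {p | p 0 ≠ 0 ∧ p 1 ≠ 0}

theorem isOpen_torus : IsOpen torus := by
  have h0 : IsOpen {p : Fin 2 → ℂ | p 0 ≠ 0} := isOpen_ne_fun (continuous_apply 0) continuous_const
  have h1 : IsOpen {p : Fin 2 → ℂ | p 1 ≠ 0} := isOpen_ne_fun (continuous_apply 1) continuous_const
  exact h0.inter h1

/-- the image of `ω` -/
def omA : A := algebraMap ℂ A om

theorem omA_sq : omA ^ 2 = omA - 1 := algebraMap_om_sq A

@[simp] theorem evl_algebraMap (p : Fin 2 → ℂ) (c : ℂ) : evl p (algebraMap ℂ A c) = c := by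
  rw [Algebra.algebraMap_eq_smul_one, map_smul, evl_one, smul_eq_mul, mul_one]

@[simp] theorem evl_omA (p : Fin 2 → ℂ) : evl p omA = om := evl_algebraMap p om

/-- the data in the chart `(0,0)` -/
def FA : A := Fh omA 1 (mon 1 0) 1 (mon 0 1)
def PhiA : A := A0h omA 1 (mon 1 0) 1 (mon 0 1)
def Phi1A : A := A1h omA 1 (mon 1 0) 1 (mon 0 1)
def PsiA : A := Psih omA 1 (mon 1 0) 1 (mon 0 1)

theorem FA_mul_PsiA : FA * PsiA = Phi1A - PhiA * mon 0 8 := by
  have h := idA omA_sq (1 : A) (mon 1 0) 1 (mon 0 1)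
  rw [mon_pow] at h
  simp only [one_pow, mul_one] at h
  rw [FA, PsiA, ← h, Phi1A, PhiA]; norm_num

def Xp : Submodule ℂ A := sup {mn | 0 ≤ mn.1}
def Xm : Submodule ℂ A := sup {mn | mn.1 ≤ 0}
def Yp : Submodule ℂ A := sup {mn | 0 ≤ mn.2}
def Ym : Submodule ℂ A := sup {mn | mn.2 ≤ 0}

end Crest.Agent.R258

end
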