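import Crest.Prelude.Def_QuadricBundle
import Crest.Agent.R258.Lau

/-!
# Row 258 — the bundle `E` (transition data `g0`), pull-backs, generalised sections
-/

set_option autoImplicit false

noncomputable section

namespace Crest.Agent.R258

open Crest.AlgGeometry.QuadricBundle

/-- off-diagonal entry of the transition matrix -/
def off (α β : Chart) (p : Fin 2 → ℂ) : ℂ :=
  if α.2 = β.2 then 0
  else (if α.2 = 0 then 1 else -1) * Psich α om (p 0) (p 1) * (p 1) ^ (-2 : ℤ)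

/-- The bundle `E`, an extension `0 → O(3,-3) → E → O(0,6) → 0`. -/
def g0 : Transition 2 := fun α β p =>
  !![lineTrans 0 6 α β p, 0; off α β p, lineTrans 3 (-3) α β p]

/-- the power map `(w₀, w₁) ↦ (w₀ ^ k, w₁ ^ k)` -/
def pw (k : ℕ) (w : Fin 2 → ℂ) : Fin 2 → ℂ := fun i => w i ^ k

/-- `π_k^* E ⊗ O(1,1)` -/
def pull (k : ℕ) (g : Transition 2) : Transition 2 := fun α β w =>
  lineTrans 1 1 α β w • g α β (pw k w)

/-- global sections of `Symⁿ E ⊗ O(a,b)` -/
def IsSec (g : Transition 2) (n : ℕ) (a b : ℤ)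
    (Q : Chart → (Fin 2 → ℂ) → MvPolynomial (Fin 2) ℂ) : Prop :=
  (∀ α p, (Q α p).IsHomogeneous n) ∧
  (∀ α (m : Fin 2 →₀ ℕ), Differentiable ℂ (fun p => MvPolynomial.coeff m (Q α p))) ∧
  ∀ α β, ∀ p ∈ overlap α β,
    Q α p = lineTrans a b α β p • frameSubst (g α β p) (Q β (tau α β p))

/-- `Symⁿ E ⊗ O(a,b)` is globally generated for every `n`. -/
def GG (g : Transition 2) (a b : ℤ) : Prop :=
  ∀ (n : ℕ) (α : Chart) (p : Fin 2 → ℂ) (R : MvPolynomial (Fin 2) ℂ), R.IsHomogeneous n →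
    ∃ Q : Chart → (Fin 2 → ℂ) → MvPolynomial (Fin 2) ℂ, IsSec g n a b Q ∧ Q α p = R

end Crest.Agent.R258

end
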