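import Mathlib

/-!
# Row 258 — abstract Čech data on the four charts and the extension lemma

`F a b`: sections on the chart `(a,b)`; `X a`: sections on (chart `a`) × `ℂˣ`;
`Y b`: sections on `ℂˣ` × (chart `b`); `N`: sections on the base chart vanishing at the base point.
-/

set_option autoImplicit false

namespace Crest.Agent.R258

inductive Idx : Type
  | F (a b : Fin 2)
  | X (a : Fin 2)
  | Y (b : Fin 2)
  | N

/-- the chart whose frame is used for the index (base chart `α`) -/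
def Idx.ch (α : Fin 2 × Fin 2) : Idx → Fin 2 × Fin 2
  | .F a b => (a, b)
  | .X a => (a, 0)
  | .Y b => (0, b)
  | .N => α

structure Incl {M : Type*} [AddCommGroup M] [Module ℂ M] (α : Fin 2 × Fin 2)
    (D : Idx → Submodule ℂ M) : Prop where
  FX : ∀ a b, D (.F a b) ≤ D (.X a)
  FY : ∀ a b, D (.F a b) ≤ D (.Y b)
  NF : D .N ≤ D (.F α.1 α.2)

/-- vanishing of `H¹` (in two steps) and global generation at the base point -/
structure Good {M : Type*} [AddCommGroup M] [Module ℂ M] (α : Fin 2 × Fin 2)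
    (D : Idx → Submodule ℂ M) : Prop extends Incl α D where
  h1 : ∀ a, D (.X a) ≤ D (.F a 0) ⊔ D (.F a 1)
  h2 : D (.Y 0) ⊓ D (.Y 1) ≤ (D (.F 0 0) ⊓ D (.F 0 1)) ⊔ (D (.F 1 0) ⊓ D (.F 1 1))
  gg : ∀ f ∈ D (.F α.1 α.2), ∃ γ, (∀ a b, γ ∈ D (.F a b)) ∧ f - γ ∈ D .N

variable {M' M M'' : Type*} [AddCommGroup M'] [Module ℂ M'] [AddCommGroup M] [Module ℂ M]
  [AddCommGroup M''] [Module ℂ M'']

/-- the four exactness conditions for one index -/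
structure Exact (ι : M' →ₗ[ℂ] M) (φ : M →ₗ[ℂ] M'') (S' : Submodule ℂ M') (S : Submodule ℂ M)
    (S'' : Submodule ℂ M'') : Prop where
  mem : ∀ m ∈ S', ι m ∈ S
  ker : ∀ m ∈ S, φ m = 0 → ∃ m' ∈ S', ι m' = m
  map : ∀ m ∈ S, φ m ∈ S''
  surj : ∀ m'' ∈ S'', ∃ m ∈ S, φ m = m''

theorem Good.ext' {α : Fin 2 × Fin 2} {D' : Idx → Submodule ℂ M'} {D : Idx → Submodule ℂ M}
    {D'' : Idx → Submodule ℂ M''} (ι : M' →ₗ[ℂ] M) (φ : M →ₗ[ℂ] M'')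
    (hι : Function.Injective ι) (hφι : ∀ m, φ (ι m) = 0) (h' : Good α D') (h'' : Good α D'')
    (hD : Incl α D) (hE : ∀ σ, Exact ι φ (D' σ) (D σ) (D'' σ)) : Good α D := by
  -- lifting on `G a = F a 0 ⊓ F a 1`
  have hG : ∀ a, ∀ g'' ∈ D'' (.F a 0) ⊓ D'' (.F a 1), ∃ g ∈ D (.F a 0) ⊓ D (.F a 1), φ g = g'' := by
    intro a g'' ⟨h0, h1⟩
    obtain ⟨f0, hf0, e0⟩ := (hE _).surj _ h0
    obtain ⟨f1, hf1, e1⟩ := (hE _).surj _ h1
    obtain ⟨m', hm', e⟩ := (hE (.X a)).ker (f1 - f0)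
      (sub_mem (hD.FX _ _ hf1) (hD.FX _ _ hf0)) (by rw [map_sub, e0, e1, sub_self])
    obtain ⟨u0, hu0, u1, hu1, eu⟩ := Submodule.mem_sup.1 (h'.h1 a hm')
    have key : f0 + ι u0 = f1 - ι u1 := by
      rw [← eu, map_add] at e
      rw [eq_sub_iff_add_eq, add_assoc, e]; abel
    refine ⟨f0 + ι u0, ⟨add_mem hf0 ((hE _).mem _ hu0), ?_⟩, by rw [map_add, e0, hφι, add_zero]⟩
    rw [key]; exact sub_mem hf1 ((hE _).mem _ hu1)
  -- kernel on `Y 0 ⊓ Y 1`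
  have hY : ∀ m ∈ D (.Y 0) ⊓ D (.Y 1), φ m = 0 →
      ∃ g0 ∈ D' (.F 0 0) ⊓ D' (.F 0 1), ∃ g1 ∈ D' (.F 1 0) ⊓ D' (.F 1 1), ι g0 + ι g1 = m := by
    intro m ⟨h0, h1⟩ hm
    obtain ⟨y0, hy0, e0⟩ := (hE _).ker _ h0 hm
    obtain ⟨y1, hy1, e1⟩ := (hE _).ker _ h1 hm
    have : y1 = y0 := hι (by rw [e0, e1])
    subst this
    obtain ⟨g0, hg0, g1, hg1, e⟩ := Submodule.mem_sup.1 (h'.h2 ⟨hy0, hy1⟩)
    exact ⟨g0, hg0, g1, hg1, by rw [← map_add, e, e0]⟩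
  have hιG : ∀ a, ∀ g ∈ D' (.F a 0) ⊓ D' (.F a 1), ι g ∈ D (.F a 0) ⊓ D (.F a 1) :=
    fun a g hg => ⟨(hE _).mem _ hg.1, (hE _).mem _ hg.2⟩
  have hGY : ∀ a, ∀ g ∈ D (.F a 0) ⊓ D (.F a 1), g ∈ D (.Y 0) ⊓ D (.Y 1) :=
    fun a g hg => ⟨hD.FY _ _ hg.1, hD.FY _ _ hg.2⟩
  have hall : ∀ γ : M, γ ∈ D (.F 0 0) ⊓ D (.F 0 1) → γ ∈ D (.F 1 0) ⊓ D (.F 1 1) →
      ∀ a b, γ ∈ D (.F a b) := by
    intro γ h0 h1 a b
    fin_cases a <;> fin_cases b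
    exacts [h0.1, h0.2, h1.1, h1.2]
  refine { hD with h1 := ?_, h2 := ?_, gg := ?_ }
  · intro a m hm
    obtain ⟨u0, hu0, u1, hu1, eu⟩ := Submodule.mem_sup.1 (h''.h1 a ((hE _).map _ hm))
    obtain ⟨f0, hf0, e0⟩ := (hE _).surj _ hu0
    obtain ⟨f1, hf1, e1⟩ := (hE _).surj _ hu1
    obtain ⟨m', hm', e⟩ := (hE (.X a)).ker (m - (f0 + f1))
      (sub_mem hm (add_mem (hD.FX _ _ hf0) (hD.FX _ _ hf1)))
      (by rw [map_sub, map_add, e0, e1, eu, sub_self])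
    obtain ⟨v0, hv0, v1, hv1, ev⟩ := Submodule.mem_sup.1 (h'.h1 a hm')
    refine Submodule.mem_sup.2 ⟨f0 + ι v0, add_mem hf0 ((hE _).mem _ hv0), f1 + ι v1,
      add_mem hf1 ((hE _).mem _ hv1), ?_⟩
    rw [← ev, map_add] at e
    rw [add_add_add_comm, e]; abel
  · intro m hm
    obtain ⟨u0, hu0, u1, hu1, eu⟩ := Submodule.mem_sup.1
      (h''.h2 ⟨(hE _).map _ hm.1, (hE _).map _ hm.2⟩)
    obtain ⟨f0, hf0, e0⟩ := hG _ _ hu0
    obtain ⟨f1, hf1, e1⟩ := hG _ _ hu1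
    obtain ⟨g0, hg0, g1, hg1, e⟩ := hY (m - (f0 + f1))
      (sub_mem hm (add_mem (hGY _ _ hf0) (hGY _ _ hf1)))
      (by rw [map_sub, map_add, e0, e1, eu, sub_self])
    refine Submodule.mem_sup.2 ⟨f0 + ι g0, add_mem hf0 (hιG _ _ hg0), f1 + ι g1,
      add_mem hf1 (hιG _ _ hg1), ?_⟩
    rw [add_add_add_comm, e]; abel
  · intro f hf
    obtain ⟨γ'', hγ'', hn''⟩ := h''.gg _ ((hE _).map _ hf)
    obtain ⟨f0, hf0, e0⟩ := hG 0 γ'' ⟨hγ'' _ _, hγ'' _ _⟩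
    obtain ⟨f1, hf1, e1⟩ := hG 1 γ'' ⟨hγ'' _ _, hγ'' _ _⟩
    obtain ⟨g0, hg0, g1, hg1, e⟩ := hY (f1 - f0) (sub_mem (hGY _ _ hf1) (hGY _ _ hf0))
      (by rw [map_sub, e0, e1, sub_self])
    have key : f0 + ι g0 = f1 - ι g1 := by
      rw [eq_sub_iff_add_eq, add_assoc, e]; abel
    have hγ : ∀ a b, f0 + ι g0 ∈ D (.F a b) :=
      hall _ (add_mem hf0 (hιG _ _ hg0)) (by rw [key]; exact sub_mem hf1 (hιG _ _ hg1))
    obtain ⟨n, hn, en⟩ := (hE .N).surj _ hn''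
    obtain ⟨m', hm', em⟩ := (hE (.F α.1 α.2)).ker (f - (f0 + ι g0) - n)
      (sub_mem (sub_mem hf (hγ _ _)) (hD.NF hn))
      (by rw [map_sub, map_sub, map_add, e0, hφι, add_zero, en, sub_self])
    obtain ⟨γ', hγ', hn'⟩ := h'.gg _ hm'
    refine ⟨f0 + ι g0 + ι γ', fun a b => add_mem (hγ a b) ((hE _).mem _ (hγ' a b)), ?_⟩
    have : f - (f0 + ι g0 + ι γ') = n + ι (m' - γ') := by rw [map_sub, em]; abel
    rw [this]; exact add_mem hn ((hE .N).mem _ hn')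

theorem Good.map {α : Fin 2 × Fin 2} {D' : Idx → Submodule ℂ M'} (ι : M' →ₗ[ℂ] M)
    (hι : Function.Injective ι) (h' : Good α D') : Good α (fun σ => (D' σ).map ι) := by
  have h0 : Good α (fun _ : Idx => (⊤ : Submodule ℂ PUnit.{1})) :=
    { FX := fun _ _ => le_rfl, FY := fun _ _ => le_rfl, NF := le_rfl
      h1 := fun _ => le_sup_left, h2 := by simp
      gg := fun f _ => ⟨0, fun _ _ => trivial, trivial⟩ }
  refine Good.ext' ι (0 : M →ₗ[ℂ] PUnit.{1}) hι (fun _ => rfl) h' h0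
    ⟨fun a b => Submodule.map_mono (h'.FX a b), fun a b => Submodule.map_mono (h'.FY a b),
      Submodule.map_mono h'.NF⟩ fun σ => ⟨fun m hm => ⟨m, hm, rfl⟩, fun m hm _ => hm,
      fun _ _ => trivial, fun _ _ => ⟨0, zero_mem _, rfl⟩⟩

end Crest.Agent.R258
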