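import Mathlib

/-!
# Row 258 — circle means of subharmonic functions are convex in `log r`
-/

set_option autoImplicit false

noncomputable section

namespace Crest.Agent.R258

open Complex Set Filter Topology MeasureTheory

/-- differentiation under the interval integral for jointly continuous data -/
theorem circ_hasDerivAt_integral {K K' : ℝ → ℝ → ℝ} (hK : Continuous (Function.uncurry K))
    (hK' : Continuous (Function.uncurry K'))
    (hd : ∀ s θ, HasDerivAt (fun s => K s θ) (K' s θ) s) (a b s : ℝ) :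
    HasDerivAt (fun s => ∫ θ in a..b, K s θ) (∫ θ in a..b, K' s θ) s := by
  have hc : IsCompact (Metric.closedBall s 1 ×ˢ uIcc a b) :=
    (isCompact_closedBall s 1).prod isCompact_uIcc
  obtain ⟨C, hC⟩ := hc.exists_bound_of_continuousOn hK'.continuousOn
  have hKs : ∀ x, Continuous (K x) := fun x => hK.comp (Continuous.prodMk_right x)
  have hK's : ∀ x, Continuous (K' x) := fun x => hK'.comp (Continuous.prodMk_right x)
  refine (intervalIntegral.hasDerivAt_integral_of_dominated_loc_of_deriv_le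
    (μ := volume) (F := K) (F' := K') (bound := fun _ => C) (Metric.closedBall_mem_nhds s one_pos)
    (Eventually.of_forall fun x => (hKs x).aestronglyMeasurable)
    ((hKs s).intervalIntegrable a b) (hK's s).aestronglyMeasurable
    (Eventually.of_forall fun θ hθ x hx => ?_) intervalIntegrable_const
    (Eventually.of_forall fun θ _ x _ => hd x θ)).2
  exact hC (x, θ) ⟨hx, uIoc_subset_uIcc hθ⟩

theorem circ_open : IsOpen {z : ℂ | z ≠ 0} := isOpen_ne

section
variable {f : ℂ → ℝ} (hf : ContDiffOn ℝ 2 f {z | z ≠ 0})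
include hf

theorem circ_at {z : ℂ} (hz : z ≠ 0) : ContDiffAt ℝ 2 f z :=
  hf.contDiffAt (circ_open.mem_nhds hz)

theorem circ_fderiv_on : ContDiffOn ℝ 1 (fderiv ℝ f) {z | z ≠ 0} :=
  hf.fderiv_of_isOpen circ_open (by norm_num)

theorem circ_fderiv2_cont : ContinuousOn (fderiv ℝ (fderiv ℝ f)) {z | z ≠ 0} :=
  (circ_fderiv_on hf).continuousOn_fderiv_of_isOpen circ_open le_rfl

theorem circ_d1 {c : ℝ → ℂ} {c' : ℂ} {t : ℝ} (hc : HasDerivAt c c' t) (h0 : c t ≠ 0) :
    HasDerivAt (fun t => f (c t)) (fderiv ℝ f (c t) c') t :=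
  ((circ_at hf h0).differentiableAt (by norm_num)).hasFDerivAt.comp_hasDerivAt t hc

theorem circ_d2 {c v : ℝ → ℂ} {c' v' : ℂ} {t : ℝ} (hc : HasDerivAt c c' t)
    (hv : HasDerivAt v v' t) (h0 : c t ≠ 0) :
    HasDerivAt (fun t => fderiv ℝ f (c t) (v t))
      (fderiv ℝ (fderiv ℝ f) (c t) c' (v t) + fderiv ℝ f (c t) v') t := by
  have h1 : DifferentiableAt ℝ (fderiv ℝ f) (c t) :=
    ((circ_fderiv_on hf).contDiffAt (circ_open.mem_nhds h0)).differentiableAt (by norm_num)
  have h2 : HasDerivAt (fun t => fderiv ℝ f (c t)) (fderiv ℝ (fderiv ℝ f) (c t) c') t :=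
    h1.hasFDerivAt.comp_hasDerivAt t hc
  exact h2.clm_apply hv

theorem circ_line (z : ℂ) (hz : z ≠ 0) (d : ℂ) :
    deriv (deriv fun t : ℝ => f (z + t * d)) 0 = fderiv ℝ (fderiv ℝ f) z d d := by
  have hc : ∀ t : ℝ, HasDerivAt (fun t : ℝ => z + t * d) d t := fun t => by
    simpa using ((Complex.ofRealCLM.hasDerivAt (x := t)).mul_const d).const_add z
  have hcont : Continuous (fun t : ℝ => z + t * d) := by fun_prop
  have hev : ∀ᶠ t : ℝ in 𝓝 0, z + t * d ≠ 0 := by
    have : (fun t : ℝ => z + t * d) ⁻¹' {w | w ≠ 0} ∈ 𝓝 (0 : ℝ) :=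
      hcont.continuousAt.preimage_mem_nhds (circ_open.mem_nhds (by simpa using hz))
    exact this
  have h1 : (deriv fun t : ℝ => f (z + t * d)) =ᶠ[𝓝 0]
      fun t : ℝ => fderiv ℝ f (z + t * d) d :=
    hev.mono fun t ht => (circ_d1 hf (hc t) ht).deriv
  rw [h1.deriv_eq]
  have h2 := circ_d2 hf (hc 0) (hasDerivAt_const (0 : ℝ) d) (by simpa using hz)
  simpa using h2.deriv

end

theorem circ_exp_s (s θ : ℝ) :
    HasDerivAt (fun s : ℝ => Complex.exp (s + θ * I)) (Complex.exp (s + θ * I)) s := by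
  have h : HasDerivAt (fun s : ℝ => (s : ℂ) + θ * I) 1 s := by
    simpa using (Complex.ofRealCLM.hasDerivAt (x := s)).add_const (θ * I)
  simpa using h.cexp

theorem circ_exp_θ (s θ : ℝ) :
    HasDerivAt (fun θ : ℝ => Complex.exp (s + θ * I)) (I * Complex.exp (s + θ * I)) θ := by
  have h : HasDerivAt (fun θ : ℝ => (s : ℂ) + θ * I) I θ := by
    simpa using ((Complex.ofRealCLM.hasDerivAt (x := θ)).mul_const I).const_add (s : ℂ)
  simpa [mul_comm] using h.cexp

theorem circle_convex (f : ℂ → ℝ) (hf : ContDiffOn ℝ 2 f {z | z ≠ 0})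
    (hL : ∀ z : ℂ, z ≠ 0 → ∀ d : ℂ, d ≠ 0 →
      0 ≤ deriv (deriv fun t : ℝ => f (z + t * d)) 0 +
        deriv (deriv fun t : ℝ => f (z + t * (I * d))) 0) :
    ConvexOn ℝ Set.univ
      (fun s : ℝ => ∫ θ in (0 : ℝ)..(2 * Real.pi), f (Complex.exp (s + θ * I))) := by
  set e : ℝ → ℝ → ℂ := fun s θ => Complex.exp (s + θ * I) with he
  have hne : ∀ s θ, e s θ ≠ 0 := fun s θ => Complex.exp_ne_zero _
  have hec : Continuous (fun p : ℝ × ℝ => e p.1 p.2) := by
    simp only [he]; fun_prop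
  have hf0 : Continuous (fun p : ℝ × ℝ => f (e p.1 p.2)) :=
    hf.continuousOn.comp_continuous hec fun p => hne _ _
  have hf1 : Continuous (fun p : ℝ × ℝ => fderiv ℝ f (e p.1 p.2)) :=
    (circ_fderiv_on hf).continuousOn.comp_continuous hec fun p => hne _ _
  have hf2 : Continuous (fun p : ℝ × ℝ => fderiv ℝ (fderiv ℝ f) (e p.1 p.2)) :=
    (circ_fderiv2_cont hf).comp_continuous hec fun p => hne _ _
  set P : ℝ → ℝ → ℝ := fun s θ => fderiv ℝ f (e s θ) (e s θ) with hP
  set P' : ℝ → ℝ → ℝ := fun s θ =>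
    fderiv ℝ (fderiv ℝ f) (e s θ) (e s θ) (e s θ) + fderiv ℝ f (e s θ) (e s θ) with hP'
  set Q' : ℝ → ℝ → ℝ := fun s θ =>
    fderiv ℝ (fderiv ℝ f) (e s θ) (I * e s θ) (I * e s θ) +
      fderiv ℝ f (e s θ) (I * (I * e s θ)) with hQ'
  have hPc : Continuous (Function.uncurry P) := hf1.clm_apply hec
  have hP'c : Continuous (Function.uncurry P') :=
    ((hf2.clm_apply hec).clm_apply hec).add (hf1.clm_apply hec)
  have hIe : Continuous (fun p : ℝ × ℝ => I * e p.1 p.2) := continuous_const.mul hec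
  have hQ'c : Continuous (Function.uncurry Q') :=
    ((hf2.clm_apply hIe).clm_apply hIe).add (hf1.clm_apply (continuous_const.mul hIe))
  have hd1 : ∀ s, HasDerivAt (fun s : ℝ => ∫ θ in (0 : ℝ)..(2 * Real.pi), f (e s θ))
      (∫ θ in (0 : ℝ)..(2 * Real.pi), P s θ) s := fun s =>
    circ_hasDerivAt_integral (K := fun s θ => f (e s θ)) hf0 hPc
      (fun s θ => circ_d1 hf (circ_exp_s s θ) (hne s θ)) _ _ s
  have hd2 : ∀ s, HasDerivAt (fun s : ℝ => ∫ θ in (0 : ℝ)..(2 * Real.pi), P s θ)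
      (∫ θ in (0 : ℝ)..(2 * Real.pi), P' s θ) s := fun s =>
    circ_hasDerivAt_integral hPc hP'c
      (fun s θ => circ_d2 hf (circ_exp_s s θ) (circ_exp_s s θ) (hne s θ)) _ _ s
  have hQ0 : ∀ s, ∫ θ in (0 : ℝ)..(2 * Real.pi), Q' s θ = 0 := fun s => by
    have hQs : Continuous (Q' s) := hQ'c.comp (Continuous.prodMk_right s)
    rw [intervalIntegral.integral_eq_sub_of_hasDerivAt
      (f := fun θ => fderiv ℝ f (e s θ) (I * e s θ))
      (fun θ _ => circ_d2 hf (circ_exp_θ s θ) ((circ_exp_θ s θ).const_mul I) (hne s θ))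
      (hQs.intervalIntegrable _ _)]
    have : e s (2 * Real.pi) = e s 0 := by
      simp only [he]
      rw [Complex.exp_add, Complex.exp_add]
      simp
    rw [this, sub_self]
  have hnn : ∀ s, 0 ≤ ∫ θ in (0 : ℝ)..(2 * Real.pi), P' s θ := fun s => by
    have hQs : Continuous (Q' s) := hQ'c.comp (Continuous.prodMk_right s)
    have hPs : Continuous (P' s) := hP'c.comp (Continuous.prodMk_right s)
    have h1 : ∫ θ in (0 : ℝ)..(2 * Real.pi), P' s θ =
        ∫ θ in (0 : ℝ)..(2 * Real.pi), (P' s θ + Q' s θ) := by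
      rw [intervalIntegral.integral_add (hPs.intervalIntegrable _ _) (hQs.intervalIntegrable _ _),
        hQ0, add_zero]
    rw [h1]
    refine intervalIntegral.integral_nonneg (by positivity) fun θ _ => ?_
    have h2 := hL (e s θ) (hne s θ) (e s θ) (hne s θ)
    rw [circ_line hf _ (hne s θ), circ_line hf _ (hne s θ)] at h2
    have h3 : I * (I * e s θ) = -e s θ := by
      rw [← mul_assoc, I_mul_I]; ring
    simp only [hP', hQ', h3, map_neg]
    linarith
  have hder : deriv (fun s : ℝ => ∫ θ in (0 : ℝ)..(2 * Real.pi), f (e s θ)) =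
      fun s => ∫ θ in (0 : ℝ)..(2 * Real.pi), P s θ := funext fun s => (hd1 s).deriv
  refine Monotone.convexOn_univ_of_deriv (fun s => (hd1 s).differentiableAt) ?_
  rw [hder]
  exact monotone_of_deriv_nonneg (fun s => (hd2 s).differentiableAt)
    fun s => by rw [(hd2 s).deriv]; exact hnn s

theorem monotone_of_convex_bdd {f : ℝ → ℝ} (hf : ConvexOn ℝ Set.univ f) {C : ℝ}
    (hC : ∀ s ≤ 0, f s ≤ C) : Monotone f := by
  intro x y hxy
  by_contra hlt
  push Not at hlt
  have hxy' : x < y := lt_of_le_of_ne hxy (by rintro rfl; exact lt_irrefl _ hlt)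
  set δ := f x - f y with hδ
  have hδ0 : 0 < δ := by linarith
  set L := y - x with hL
  have hL0 : 0 < L := by linarith
  -- the point `z = x - n L`
  obtain ⟨n, hn⟩ : ∃ n : ℝ, 0 < n ∧ x - n * L ≤ 0 ∧ C < f x + n * δ := by
    refine ⟨|x| / L + |C - f x| / δ + 1, by positivity, ?_, ?_⟩
    · have h1 : (|x| / L + |C - f x| / δ + 1) * L = |x| + (|C - f x| / δ + 1) * L := by
        field_simp; ring
      have h2 : 0 ≤ (|C - f x| / δ + 1) * L := by positivity
      have := le_abs_self x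
      linarith
    · have h1 : (|x| / L + |C - f x| / δ + 1) * δ = |C - f x| + (|x| / L + 1) * δ := by
        field_simp; ring
      have h2 : 0 < (|x| / L + 1) * δ := by positivity
      have := le_abs_self (C - f x)
      linarith
  obtain ⟨hn0, hz, hCn⟩ := hn
  have hcv := hf.2 (mem_univ (x - n * L)) (mem_univ y) (show 0 ≤ 1 / (n + 1) by positivity)
    (show 0 ≤ n / (n + 1) by positivity) (by field_simp; ring)
  have hpt : (1 / (n + 1)) • (x - n * L) + (n / (n + 1)) • y = x := by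
    simp only [smul_eq_mul, hL]; field_simp; ring
  rw [hpt] at hcv
  simp only [smul_eq_mul] at hcv
  have h1 := hC _ hz
  have h2 : (n + 1) * f x ≤ f (x - n * L) + n * f y := by
    have := mul_le_mul_of_nonneg_left hcv (show 0 ≤ n + 1 by positivity)
    calc (n + 1) * f x ≤ _ := this
      _ = _ := by field_simp
  simp only [hδ] at hCn
  nlinarith

theorem antitone_of_convex_bdd {f : ℝ → ℝ} (hf : ConvexOn ℝ Set.univ f) {C : ℝ}
    (hC : ∀ s ≥ 0, f s ≤ C) : Antitone f := by
  have hg : ConvexOn ℝ Set.univ (fun s => f (-s)) := by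
    refine ⟨convex_univ, fun x _ y _ a b ha hb hab => ?_⟩
    have := hf.2 (mem_univ (-x)) (mem_univ (-y)) ha hb hab
    simp only [smul_eq_mul] at this ⊢
    convert this using 2
    ring
  have hm := monotone_of_convex_bdd hg (C := C) fun s hs => hC _ (by linarith)
  intro x y hxy
  simpa using hm (neg_le_neg hxy)

end Crest.Agent.R258

end
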