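import Crest.Agent.R258.BundleDef

/-!
# Row 258 — cocycle identities
-/

set_option autoImplicit false

noncomputable section

namespace Crest.Agent.R258

open Crest.AlgGeometry.QuadricBundle

theorem isOpen_overlap (α β : Chart) : IsOpen (overlap α β) := by
  have h : ∀ (P : Prop) (i : Fin 2), IsOpen {p : Fin 2 → ℂ | P → p i ≠ 0} := fun P i => by
    by_cases hP : P
    · simpa only [hP, forall_const] using isOpen_ne_fun (continuous_apply i) continuous_const
    · simp [hP]
  exact (h _ 0).inter (h _ 1)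

theorem coc_one (r : ℤ) (a b c : Fin 2) (x : ℂ) (hx : a ≠ b → x ≠ 0) :
    (if a = b then 1 else x ^ r) * (if b = c then 1 else (if a = b then x else x⁻¹) ^ r) =
      if a = c then 1 else x ^ r := by
  fin_cases a <;> fin_cases b <;> fin_cases c <;> simp at hx ⊢ <;>
    exact mul_inv_cancel₀ (zpow_ne_zero _ hx)

theorem coc_tau_tau (α β γ : Chart) (p : Fin 2 → ℂ) : tau β γ (tau α β p) = tau α γ p := by
  have h : ∀ (a b c : Fin 2) (x : ℂ), (if b = c then (if a = b then x else x⁻¹)
      else (if a = b then x else x⁻¹)⁻¹) = if a = c then x else x⁻¹ := fun a b c x => by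
    fin_cases a <;> fin_cases b <;> fin_cases c <;> simp
  simp only [tau, Matrix.cons_val_zero, Matrix.cons_val_one, h]

theorem coc_tau_self (α : Chart) (p : Fin 2 → ℂ) : tau α α p = p := by
  funext i; fin_cases i <;> simp [tau]

theorem coc_pw_tau (k : ℕ) (α β : Chart) (p : Fin 2 → ℂ) : pw k (tau α β p) = tau α β (pw k p) := by
  funext i; fin_cases i <;> simp [tau, pw]

theorem coc_pw_mem (k : ℕ) {α β : Chart} {p : Fin 2 → ℂ} (hp : p ∈ overlap α β) :
    pw k p ∈ overlap α β :=
  ⟨fun h => pow_ne_zero _ (hp.1 h), fun h => pow_ne_zero _ (hp.2 h)⟩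

theorem coc_pw_diff (k : ℕ) : Differentiable ℂ (pw k) := by
  unfold pw; fun_prop

theorem coc_lineTrans_self (r t : ℤ) (α : Chart) (p : Fin 2 → ℂ) : lineTrans r t α α p = 1 := by
  simp [lineTrans]

theorem lineTrans_cocycle (r t : ℤ) (α β γ : Chart) (p : Fin 2 → ℂ) (hp : p ∈ overlap α β) :
    lineTrans r t α β p * lineTrans r t β γ (tau α β p) = lineTrans r t α γ p := by
  simp only [lineTrans, tau, Matrix.cons_val_zero, Matrix.cons_val_one]
  rw [mul_mul_mul_comm, coc_one r _ _ _ _ hp.1, coc_one t _ _ _ _ hp.2]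

theorem lineTrans_differentiableOn (r t : ℤ) (α β : Chart) :
    DifferentiableOn ℂ (lineTrans r t α β) (overlap α β) := by
  have h : ∀ (a b i : Fin 2) (r : ℤ), (∀ p ∈ overlap α β, a ≠ b → p i ≠ 0) →
      DifferentiableOn ℂ (fun p : Fin 2 → ℂ => if a = b then 1 else p i ^ r) (overlap α β) := by
    intro a b i r h
    split_ifs with hab
    · fun_prop
    · exact (differentiable_apply i).differentiableOn.zpow (.inl fun p hp => h p hp hab)
  exact (h _ _ 0 r fun p hp => hp.1).mul (h _ _ 1 t fun p hp => hp.2)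

theorem coc_Psich (α β : Chart) (p : Fin 2 → ℂ) (hp : p ∈ overlap α β) :
    Psich α om (p 0) (p 1) = lineTrans 3 7 α β p * Psich β om (tau α β p 0) (tau α β p 1) := by
  have h : ∀ (a b : Fin 2) (x : ℂ), (a ≠ b → x ≠ 0) →
      hc0 a x = (if a = b then 1 else x) * hc0 b (if a = b then x else x⁻¹) ∧
      hc1 a x = (if a = b then 1 else x) * hc1 b (if a = b then x else x⁻¹) := fun a b x hx => by
    fin_cases a <;> fin_cases b <;> simp [hc0, hc1] at hx ⊢ <;> exact (mul_inv_cancel₀ hx).symm
  rw [Psich, (h _ _ _ hp.1).1, (h _ _ _ hp.1).2, (h _ _ _ hp.2).1, (h _ _ _ hp.2).2, Psih_hom]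
  simp [lineTrans, Psich, tau]

theorem g0_cocycle : IsHoloCocycle g0 := by
  refine ⟨fun α p => ?_, fun α β i j => ?_, fun α β γ p hp => ?_⟩
  · simp [g0, off, coc_lineTrans_self, Matrix.one_fin_two]
  · fin_cases i <;> fin_cases j
    · exact lineTrans_differentiableOn _ _ _ _
    · exact differentiableOn_const 0
    · change DifferentiableOn ℂ (off α β) _
      unfold off
      by_cases h : α.2 = β.2
      · simp only [h, if_true]; fun_prop
      · simp only [h, if_false]
        refine DifferentiableOn.mul (Differentiable.differentiableOn ?_)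
          ((differentiable_apply 1).differentiableOn.zpow (.inl fun p hp => hp.2 h))
        have h0 : ∀ a i : Fin 2, Differentiable ℂ fun p : Fin 2 → ℂ => hc0 a (p i) := fun a i => by
          unfold hc0; split_ifs <;> fun_prop
        have h1 : ∀ a i : Fin 2, Differentiable ℂ fun p : Fin 2 → ℂ => hc1 a (p i) := fun a i => by
          unfold hc1; split_ifs <;> fun_prop
        simp only [Psich, Psih]
        fun_prop
    · exact lineTrans_differentiableOn _ _ _ _
  · have h : off α β p * lineTrans 0 6 β γ (tau α β p) +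
        lineTrans 3 (-3) α β p * off β γ (tau α β p) = off α γ p := by
      have h1 := coc_Psich α β p hp.1
      have h2 := hp.1.2
      obtain ⟨a, a'⟩ := α
      obtain ⟨b, b'⟩ := β
      obtain ⟨c, c'⟩ := γ
      simp only [off, h1]
      generalize Psich (b, b') om _ _ = Ψ
      fin_cases a' <;> fin_cases b' <;> fin_cases c' <;> simp [lineTrans, tau] at h2 ⊢ <;>
        split_ifs <;> field_simp <;> ring
    simp only [g0, Matrix.mul_fin_two, lineTrans_cocycle _ _ _ _ _ _ hp.1, h, zero_mul, mul_zero,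
      add_zero, zero_add]

theorem pull_cocycle {g : Transition 2} (hg : IsHoloCocycle g) {k : ℕ} (hk : 1 ≤ k) :
    IsHoloCocycle (pull k g) := by
  refine ⟨fun α p => ?_, fun α β i j => ?_, fun α β γ p hp => ?_⟩
  · simp [pull, coc_lineTrans_self, hg.refl]
  · exact (lineTrans_differentiableOn _ _ _ _).mul
      ((hg.holo α β i j).comp (coc_pw_diff k).differentiableOn fun p hp => coc_pw_mem k hp)
  · simp only [pull, smul_mul_smul_comm, lineTrans_cocycle _ _ _ _ _ _ hp.1, coc_pw_tau,
      hg.cocycle α β γ _ ⟨coc_pw_mem k hp.1, coc_pw_mem k hp.2⟩]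

end Crest.Agent.R258

end
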