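import Crest.Agent.R258.Lau
import Crest.Agent.R258.Cech

/-!
# Row 258 — Čech data of the line bundles `O(a,b)` inside the Laurent ring
-/

set_option autoImplicit false

noncomputable section

namespace Crest.Agent.R258

/-- affine coordinates of the charts -/
def cx (a : Fin 2) : A := if a = 0 then mon 1 0 else mon (-1) 0
def cy (b : Fin 2) : A := if b = 0 then mon 0 1 else mon 0 (-1)

/-- the coordinate ring of the chart `α` inside the Laurent ring -/
def iota (α : Fin 2 × Fin 2) : MvPolynomial (Fin 2) ℂ →ₐ[ℂ] A :=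
  MvPolynomial.aeval ![cx α.1, cy α.2]

/-- the frame of `O(a,b)` on the chart `α` -/
def tw (α : Fin 2 × Fin 2) (a b : ℤ) : A :=
  mon (if α.1 = 0 then 0 else a) (if α.2 = 0 then 0 else b)

theorem tw_mul (α : Fin 2 × Fin 2) (a b r t : ℤ) : tw α a b * tw α r t = tw α (a + r) (b + t) := by
  simp only [tw, mon_mul]; congr 1 <;> split_ifs <;> simp

@[simp] theorem tw_zero (α : Fin 2 × Fin 2) : tw α 0 0 = 1 := by
  simp [tw]

theorem tw_pow (α : Fin 2 × Fin 2) (a b : ℤ) (k : ℕ) : tw α a b ^ k = tw α (k * a) (k * b) := by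
  simp only [tw, mon_pow]; congr 1 <;> split_ifs <;> simp

def cond (c : Fin 2) (r m : ℤ) : Prop := if c = 0 then 0 ≤ m else m ≤ r

/-- sections of `O(a,b)`; base chart `α`, base point `p` -/
def Cf (α : Fin 2 × Fin 2) (p : Fin 2 → ℂ) (a b : ℤ) : Idx → Submodule ℂ A
  | .F c d => sup {mn | cond c a mn.1 ∧ cond d b mn.2}
  | .X c => sup {mn | cond c a mn.1}
  | .Y d => sup {mn | cond d b mn.2}
  | .N => (LinearMap.ker (MvPolynomial.aeval (R := ℂ) p).toLinearMap).map
      (LinearMap.mulLeft ℂ (tw α a b) ∘ₗ (iota α).toLinearMap)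

variable {α : Fin 2 × Fin 2} {p : Fin 2 → ℂ} {a b : ℤ}

theorem mem_Cf_N {f : A} :
    f ∈ Cf α p a b .N ↔ ∃ q, MvPolynomial.eval p q = 0 ∧ f = tw α a b * iota α q := by
  simp only [Cf, Submodule.mem_map, LinearMap.mem_ker, AlgHom.toLinearMap_apply,
    LinearMap.comp_apply, LinearMap.mulLeft_apply, MvPolynomial.coe_aeval_eq_eval]
  constructor
  · rintro ⟨q, h1, h2⟩; exact ⟨q, h1, h2.symm⟩
  · rintro ⟨q, h1, h2⟩; exact ⟨q, h1, h2.symm⟩

theorem cond_add {c : Fin 2} {r r' m m' : ℤ} (h : cond c r m) (h' : cond c r' m') :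
    cond c (r + r') (m + m') := by
  unfold cond at *; split_ifs at * <;> omega

theorem cond_zero (c : Fin 2) : cond c 0 0 := by
  unfold cond; split_ifs <;> omega

theorem cond_tw (c : Fin 2) (r : ℤ) : cond c r (if c = 0 then 0 else r) := by
  unfold cond; split_ifs <;> omega

theorem tw_mem_quad (β : Fin 2 × Fin 2) (r t : ℤ) :
    tw β r t ∈ sup {mn | cond β.1 r mn.1 ∧ cond β.2 t mn.2} :=
  mon_mem_sup ⟨cond_tw _ _, cond_tw _ _⟩

theorem iota_mem_quad (β : Fin 2 × Fin 2) (q : MvPolynomial (Fin 2) ℂ) :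
    iota β q ∈ sup {mn | cond β.1 0 mn.1 ∧ cond β.2 0 mn.2} := by
  let S : Subalgebra ℂ A := supAlg {mn | cond β.1 0 mn.1 ∧ cond β.2 0 mn.2}
    ⟨cond_zero _, cond_zero _⟩ (fun _ _ _ _ h h' =>
      ⟨by simpa using cond_add h.1 h'.1, by simpa using cond_add h.2 h'.2⟩)
  change iota β q ∈ S
  induction q using MvPolynomial.induction_on with
  | C c => rw [← MvPolynomial.algebraMap_eq, AlgHom.commutes]; exact S.algebraMap_mem c
  | add f g hf hg => rw [map_add]; exact add_mem hf hg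
  | mul_X f i hf =>
    rw [map_mul]
    refine mul_mem hf ?_
    fin_cases i
    · simp only [iota, MvPolynomial.aeval_X, cx]
      change (if β.1 = 0 then mon 1 0 else mon (-1) 0) ∈ sup _
      split_ifs with h
      · exact mon_mem_sup ⟨by simp [cond, h], cond_zero _⟩
      · exact mon_mem_sup ⟨by simp [cond, h], cond_zero _⟩
    · simp only [iota, MvPolynomial.aeval_X, cy]
      change (if β.2 = 0 then mon 0 1 else mon 0 (-1)) ∈ sup _
      split_ifs with h
      · exact mon_mem_sup ⟨cond_zero _, by simp [cond, h]⟩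
      · exact mon_mem_sup ⟨cond_zero _, by simp [cond, h]⟩

theorem cx_pow (c : Fin 2) (i : ℕ) : cx c ^ i = mon (if c = 0 then i else -i) 0 := by
  unfold cx; split_ifs <;> simp [mon_pow]

theorem cy_pow (c : Fin 2) (i : ℕ) : cy c ^ i = mon 0 (if c = 0 then i else -i) := by
  unfold cy; split_ifs <;> simp [mon_pow]

theorem cond_exists {c : Fin 2} {r m : ℤ} (h : cond c r m) :
    ∃ i : ℕ, m = (if c = 0 then 0 else r) + (if c = 0 then (i : ℤ) else -i) := by
  unfold cond at h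
  split_ifs at h ⊢
  · exact ⟨m.toNat, by omega⟩
  · exact ⟨(r - m).toNat, by omega⟩

theorem mem_Cf_F {c d : Fin 2} {f : A} :
    f ∈ Cf α p a b (.F c d) ↔ ∃ q, f = tw (c, d) a b * iota (c, d) q := by
  constructor
  · intro hf
    refine sup_induction (P := fun f => ∃ q, f = tw (c, d) a b * iota (c, d) q) ⟨0, by simp⟩
      ?_ ?_ ?_ hf
    · rintro _ _ ⟨q, rfl⟩ ⟨q', rfl⟩; exact ⟨q + q', by rw [map_add, mul_add]⟩
    · rintro e _ ⟨q, rfl⟩; exact ⟨e • q, by rw [map_smul, mul_smul_comm]⟩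
    · rintro m n ⟨h1, h2⟩
      obtain ⟨i, hi⟩ := cond_exists h1
      obtain ⟨k, hk⟩ := cond_exists h2
      refine ⟨MvPolynomial.X 0 ^ i * MvPolynomial.X 1 ^ k, ?_⟩
      simp only [iota, map_mul, map_pow, MvPolynomial.aeval_X, Matrix.cons_val_zero,
        Matrix.cons_val_one, cx_pow, cy_pow, tw, mon_mul]
      exact mon_congr (by simpa using hi) (by simpa using hk)
  · rintro ⟨q, rfl⟩
    exact mul_mem_sup (fun _ _ _ _ h h' =>
      And.intro (by simpa using cond_add h.1 h'.1) (by simpa using cond_add h.2 h'.2))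
      (tw_mem_quad (c, d) a b) (iota_mem_quad (c, d) q)

theorem Cf_iota {σ : Idx} {f : A} (hf : f ∈ Cf α p a b σ) (q : MvPolynomial (Fin 2) ℂ) :
    iota (σ.ch α) q * f ∈ Cf α p a b σ := by
  cases σ with
  | F c d =>
    exact mul_mem_sup (fun _ _ _ _ h h' =>
      And.intro (by simpa using cond_add h.1 h'.1) (by simpa using cond_add h.2 h'.2))
      (iota_mem_quad (c, d) q) hf
  | X c =>
    exact mul_mem_sup (fun _ _ _ _ h h' => by simpa using cond_add h.1 h')
      (iota_mem_quad (c, 0) q) hf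
  | Y d =>
    exact mul_mem_sup (fun _ _ _ _ h h' => by simpa using cond_add h.2 h')
      (iota_mem_quad (0, d) q) hf
  | N =>
    obtain ⟨q', h0, rfl⟩ := mem_Cf_N.1 hf
    exact mem_Cf_N.2 ⟨q * q', by rw [map_mul, h0, mul_zero], by
      rw [map_mul]; simp only [Idx.ch]; ring⟩

theorem Cf_shift {σ : Idx} {f : A} (hf : f ∈ Cf α p a b σ) (r t : ℤ) :
    tw (σ.ch α) r t * f ∈ Cf α p (a + r) (b + t) σ := by
  cases σ with
  | F c d =>
    exact mul_mem_sup (fun _ _ _ _ h h' =>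
      And.intro (by simpa [add_comm] using cond_add h.1 h'.1)
        (by simpa [add_comm] using cond_add h.2 h'.2))
      (tw_mem_quad (c, d) r t) hf
  | X c =>
    exact mul_mem_sup (fun _ _ _ _ h h' => by simpa [add_comm] using cond_add h.1 h')
      (tw_mem_quad (c, 0) r t) hf
  | Y d =>
    exact mul_mem_sup (fun _ _ _ _ h h' => by simpa [add_comm] using cond_add h.2 h')
      (tw_mem_quad (0, d) r t) hf
  | N =>
    obtain ⟨q', h0, rfl⟩ := mem_Cf_N.1 hf
    exact mem_Cf_N.2 ⟨q', h0, by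
      simp only [Idx.ch]; rw [← mul_assoc, tw_mul, add_comm r, add_comm t]⟩

theorem Cf_X_mon {c : Fin 2} {f : A} (hf : f ∈ Cf α p a b (.X c)) (n : ℤ) :
    mon 0 n * f ∈ Cf α p a b (.X c) :=
  mul_mem_sup (S := {mn | mn.1 = 0}) (fun _ _ _ _ h h' => by
    simp only [Set.mem_ofPred_eq] at h h' ⊢; rwa [h, zero_add]) (mon_mem_sup rfl) hf

theorem Cf_Y_mon {d : Fin 2} {f : A} (hf : f ∈ Cf α p a b (.Y d)) (m : ℤ) :
    mon m 0 * f ∈ Cf α p a b (.Y d) :=
  mul_mem_sup (S := {mn | mn.2 = 0}) (fun _ _ _ _ h h' => by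
    simp only [Set.mem_ofPred_eq] at h h' ⊢; rwa [h, zero_add]) (mon_mem_sup rfl) hf

theorem incl_line (α : Fin 2 × Fin 2) (p : Fin 2 → ℂ) (a b : ℤ) : Incl α (Cf α p a b) := by
  refine ⟨fun c d => sup_mono fun _ h => h.1, fun c d => sup_mono fun _ h => h.2, fun f hf => ?_⟩
  obtain ⟨q, -, rfl⟩ := mem_Cf_N.1 hf
  exact mem_Cf_F.2 ⟨q, rfl⟩

theorem good_line (α : Fin 2 × Fin 2) (p : Fin 2 → ℂ) {a b : ℤ} (ha : 0 ≤ a) (hb : 0 ≤ b) :
    Good α (Cf α p a b) := by
  refine { incl_line α p a b with h1 := fun c => ?_, h2 := ?_, gg := fun f hf => ?_ }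
  · simp only [Cf, ← sup_union]
    refine sup_mono fun mn h => ?_
    simp only [Set.mem_union, Set.mem_ofPred_eq] at h ⊢
    by_cases h0 : 0 ≤ mn.2
    · exact Or.inl ⟨h, by simpa [cond] using h0⟩
    · exact Or.inr ⟨h, by simp [cond]; omega⟩
  · simp only [Cf, ← sup_inter, ← sup_union]
    refine sup_mono fun mn h => ?_
    simp only [Set.mem_union, Set.mem_inter_iff, Set.mem_ofPred_eq] at h ⊢
    by_cases h0 : 0 ≤ mn.1
    · have : cond 0 a mn.1 := by simpa [cond] using h0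
      exact Or.inl ⟨⟨this, h.1⟩, this, h.2⟩
    · have : cond 1 a mn.1 := by simp [cond]; omega
      exact Or.inr ⟨⟨this, h.1⟩, this, h.2⟩
  · obtain ⟨q, rfl⟩ := mem_Cf_F.1 hf
    refine ⟨MvPolynomial.eval p q • tw α a b, fun c d => Submodule.smul_mem _ _ ?_, ?_⟩
    · refine mon_mem_sup ⟨?_, ?_⟩
      · simp only [cond]; split_ifs <;> omega
      · simp only [cond]; split_ifs <;> omega
    · refine mem_Cf_N.2 ⟨q - MvPolynomial.C (MvPolynomial.eval p q), by simp, ?_⟩
      rw [map_sub, ← MvPolynomial.algebraMap_eq, AlgHom.commutes, mul_sub, Algebra.smul_def,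
        mul_comm (algebraMap _ _ _)]

end Crest.Agent.R258

end
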