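import Crest.Agent.R258.Reg

/-!
# Row 258 — elementary properties of a `Form`
-/

set_option autoImplicit false

noncomputable section

namespace Crest.Agent.R258

open scoped ComplexConjugate

namespace Form

variable {ε : ℝ} (T : Form ε) (s t : ℝ)

theorem add_right (ξ η η' : NN) : T.B s t ξ (η + η') = T.B s t ξ η + T.B s t ξ η' := by
  rw [T.herm s t (η + η'), T.add_left, map_add, ← T.herm, ← T.herm]

theorem smul_right (c : ℂ) (ξ η : NN) : T.B s t ξ (c • η) = conj c * T.B s t ξ η := by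
  rw [T.herm s t (c • η), T.smul_left, map_mul, ← T.herm]

theorem zero_left (η : NN) : T.B s t 0 η = 0 := (T.lin s t η).map_zero

theorem N_nonneg (ξ : NN) : 0 ≤ T.N s t ξ := T.psd s t ξ

theorem B_self (ξ : NN) : T.B s t ξ ξ = (T.N s t ξ : ℂ) := by
  have h := T.herm s t ξ ξ
  exact (Complex.conj_eq_iff_re.1 h.symm).symm

theorem N_add_smul (c : ℂ) (ξ η : NN) :
    T.N s t (ξ + c • η) = T.N s t ξ + 2 * (c * T.B s t η ξ).re + ‖c‖ ^ 2 * T.N s t η := by
  have h1 : T.B s t ξ (c • η) = conj (c * T.B s t η ξ) := by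
    rw [T.smul_right, T.herm s t η ξ, map_mul]
  have h2 : T.B s t (c • η) (c • η) = ((‖c‖ ^ 2 * T.N s t η : ℝ) : ℂ) := by
    rw [T.smul_left, T.smul_right, T.B_self, ← mul_assoc, Complex.mul_conj,
      Complex.normSq_eq_norm_sq]
    push_cast; ring
  rw [N, T.add_left, T.add_right, T.add_right, h1, h2, T.smul_left]
  simp only [Complex.add_re, Complex.conj_re, Complex.ofReal_re, N]
  ring

theorem N_smul (c : ℂ) (ξ : NN) : T.N s t (c • ξ) = ‖c‖ ^ 2 * T.N s t ξ := by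
  have h := T.N_add_smul s t c 0 ξ
  have h0 : T.B s t ξ 0 = 0 := by rw [T.herm, T.zero_left, map_zero]
  have h1 : T.N s t 0 = 0 := by rw [N, T.zero_left]; rfl
  rw [zero_add, h0, h1] at h
  simpa using h

theorem N_mon (m n : ℤ) (ξ : NN) :
    T.N s t (mon m n • ξ) = Real.exp (2 * m * s + 2 * n * t) * T.N s t ξ := by
  rw [N, T.mul_mon, Complex.re_ofReal_mul, N]

end Form

/-- If `a + 2 Re (c Δ) + |c|² K ≥ 0` for all complex `c` then `|Δ|² ≤ a K`. -/
theorem normSq_le_of_quad {a K : ℝ} {Δ : ℂ}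
    (h : ∀ c : ℂ, 0 ≤ a + 2 * (c * Δ).re + ‖c‖ ^ 2 * K) : ‖Δ‖ ^ 2 ≤ a * K := by
  have h' : ∀ x : ℝ, 0 ≤ (K * ‖Δ‖ ^ 2) * (x * x) + (2 * ‖Δ‖ ^ 2) * x + a := by
    intro x
    have := h (x * conj Δ)
    have e1 : ((x : ℂ) * conj Δ * Δ).re = x * ‖Δ‖ ^ 2 := by
      rw [mul_assoc, mul_comm (conj Δ), Complex.mul_conj, Complex.normSq_eq_norm_sq,
        ← Complex.ofReal_mul, Complex.ofReal_re]
    have e2 : ‖(x : ℂ) * conj Δ‖ ^ 2 = x * x * ‖Δ‖ ^ 2 := by
      rw [norm_mul, Complex.norm_conj, Complex.norm_real, mul_pow, Real.norm_eq_abs, sq_abs]; ring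
    rw [e1, e2] at this
    nlinarith
  have hd := discrim_le_zero h'
  rw [discrim] at hd
  by_cases h0 : ‖Δ‖ = 0
  · have ha : 0 ≤ a := by simpa using h 0
    have hK : 0 ≤ K := by
      by_contra hK
      push Not at hK
      have hΔ : Δ = 0 := norm_eq_zero.1 h0
      have := h ((Real.sqrt ((a + 1) / (-K)) : ℝ) : ℂ)
      rw [hΔ, Complex.norm_real, Real.norm_eq_abs, sq_abs,
        Real.sq_sqrt (div_nonneg (by linarith) (by linarith))] at this
      have e : (a + 1) / (-K) * K = -(a + 1) := by field_simp [hK.ne]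
      simp only [mul_zero, Complex.zero_re, add_zero] at this
      linarith
    rw [h0]; simpa using mul_nonneg ha hK
  · have hp : 0 < ‖Δ‖ ^ 2 := by positivity
    nlinarith

/-- If `2 Re (c Δ) + |c|² K ≥ 0` for all complex `c` then `Δ = 0`. -/
theorem eq_zero_of_quad {K : ℝ} {Δ : ℂ} (h : ∀ c : ℂ, 0 ≤ 2 * (c * Δ).re + ‖c‖ ^ 2 * K) :
    Δ = 0 := by
  have := normSq_le_of_quad (a := 0) (K := K) (Δ := Δ) (fun c => by simpa using h c)
  rw [zero_mul] at this
  have h2 : ‖Δ‖ ^ 2 = 0 := le_antisymm this (by positivity)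
  simpa using h2

namespace Form

variable {ε : ℝ} (T : Form ε) (s t : ℝ)

/-- Cauchy–Schwarz -/
theorem cs (ξ η : NN) : ‖T.B s t ξ η‖ ^ 2 ≤ T.N s t η * T.N s t ξ :=
  normSq_le_of_quad fun c => by rw [← T.N_add_smul]; exact T.N_nonneg s t _

theorem B_eq_zero_of_left {ξ : NN} (h : T.N s t ξ = 0) (η : NN) : T.B s t ξ η = 0 := by
  have := T.cs s t ξ η
  rw [h, mul_zero] at this
  have h2 : ‖T.B s t ξ η‖ ^ 2 = 0 := le_antisymm this (by positivity)
  simpa using h2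

theorem B_eq_zero_of_right {η : NN} (h : T.N s t η = 0) (ξ : NN) : T.B s t ξ η = 0 := by
  rw [T.herm, T.B_eq_zero_of_left s t h, map_zero]

theorem N_add_le (ξ η : NN) : T.N s t (ξ + η) ≤ 2 * T.N s t ξ + 2 * T.N s t η := by
  have h1 := T.N_add_smul s t 1 ξ η
  have h2 := T.N_add_smul s t (-1) ξ η
  have h3 := T.N_nonneg s t (ξ + (-1 : ℂ) • η)
  simp only [one_smul, one_mul, norm_one, one_pow, neg_mul, Complex.neg_re, norm_neg] at h1 h2
  linarith

/-- the null space is an `A`-submodule -/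
theorem N_smul_eq_zero {ξ : NN} (h : T.N s t ξ = 0) (f : A) : T.N s t (f • ξ) = 0 := by
  induction f using A_induction with
  | h0 => rw [zero_smul, N, T.zero_left]; rfl
  | hadd f g hf hg =>
    have := T.N_add_le s t (f • ξ) (g • ξ)
    rw [add_smul]; exact le_antisymm (by linarith) (T.N_nonneg _ _ _)
  | hsmul c f hf => rw [smul_assoc, T.N_smul, hf, mul_zero]
  | hmon m n => rw [T.N_mon, h, mul_zero]

/-- the seminorm -/
def nrm (ξ : NN) : ℝ := Real.sqrt (T.N s t ξ)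

theorem nrm_nonneg (ξ : NN) : 0 ≤ T.nrm s t ξ := Real.sqrt_nonneg _

theorem nrm_sq (ξ : NN) : T.nrm s t ξ ^ 2 = T.N s t ξ := Real.sq_sqrt (T.N_nonneg s t ξ)

theorem nrm_eq_zero {ξ : NN} : T.nrm s t ξ = 0 ↔ T.N s t ξ = 0 :=
  Real.sqrt_eq_zero (T.N_nonneg s t ξ)

theorem nrm_smul (c : ℂ) (ξ : NN) : T.nrm s t (c • ξ) = ‖c‖ * T.nrm s t ξ := by
  rw [nrm, T.N_smul, Real.sqrt_mul (by positivity), Real.sqrt_sq (norm_nonneg _), nrm]

theorem nrm_mon (m n : ℤ) (ξ : NN) :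
    T.nrm s t (mon m n • ξ) = Real.exp (m * s + n * t) * T.nrm s t ξ := by
  have : Real.exp (2 * m * s + 2 * n * t) = Real.exp (m * s + n * t) ^ 2 := by
    rw [← Real.exp_nat_mul]; congr 1; push_cast; ring
  rw [nrm, T.N_mon, this, Real.sqrt_mul (by positivity), Real.sqrt_sq (Real.exp_pos _).le, nrm]

theorem nrm_add_le (ξ η : NN) : T.nrm s t (ξ + η) ≤ T.nrm s t ξ + T.nrm s t η := by
  have h1 := T.N_add_smul s t 1 ξ η
  simp only [one_smul, one_mul, norm_one, one_pow] at h1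
  have h2 : ‖T.B s t η ξ‖ ≤ T.nrm s t ξ * T.nrm s t η := by
    have := T.cs s t η ξ
    rw [← T.nrm_sq, ← T.nrm_sq, ← mul_pow] at this
    exact le_of_sq_le_sq (by simpa using this) (mul_nonneg (T.nrm_nonneg _ _ _) (T.nrm_nonneg _ _ _))
  have h3 := Complex.re_le_norm (T.B s t η ξ)
  apply Real.sqrt_le_iff.2
  refine ⟨add_nonneg (T.nrm_nonneg _ _ _) (T.nrm_nonneg _ _ _), ?_⟩
  rw [h1, add_sq, T.nrm_sq, T.nrm_sq]; linarith

end Form

end Crest.Agent.R258

end
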