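import Crest.Agent.R258.Lau

/-!
# Row 258 — torus-averaged Hermitian forms on Laurent sections of the dual bundle

`NN` is the module of Laurent sections of `E^*` in the dual frame of the chart `(0,0)`.
`RX0`, `RX1`, `RY0`, `RY1`: sections regular along `x = 0`, `x = ∞`, `y = 0`, `y = ∞`.
-/

set_option autoImplicit false

noncomputable section

namespace Crest.Agent.R258

open scoped ComplexConjugate

abbrev NN : Type := A × A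

def e1 : NN := (PhiA, FA)
def e2 : NN := (1, 0)
def uu : NN := (0, 1)

theorem FA_smul_uu : FA • uu = e1 - PhiA • e2 := by
  simp [e1, e2, uu]

theorem eq_smul_e2_add_smul_uu (ξ : NN) : ξ = ξ.1 • e2 + ξ.2 • uu := by
  simp [e2, uu]

def RX0 : Submodule ℂ NN := Xp.prod Xp
def RX1 : Submodule ℂ NN := Xm.prod (Xm.comap (LinearMap.mulLeft ℂ (mon 3 0)))
def RY0 : Submodule ℂ NN := Yp.prod Yp
def RY1 : Submodule ℂ NN :=
  Ym.comap (LinearMap.mulLeft ℂ (mon 0 6) ∘ₗ LinearMap.fst ℂ A A +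
      LinearMap.mulLeft ℂ (PsiA * mon 0 (-2)) ∘ₗ LinearMap.snd ℂ A A) ⊓
    Ym.comap (LinearMap.mulLeft ℂ (mon 0 (-3)) ∘ₗ LinearMap.snd ℂ A A)

theorem mem_RX0 {ξ : NN} : ξ ∈ RX0 ↔ ξ.1 ∈ Xp ∧ ξ.2 ∈ Xp := Iff.rfl
theorem mem_RX1 {ξ : NN} : ξ ∈ RX1 ↔ ξ.1 ∈ Xm ∧ mon 3 0 * ξ.2 ∈ Xm := Iff.rfl
theorem mem_RY0 {ξ : NN} : ξ ∈ RY0 ↔ ξ.1 ∈ Yp ∧ ξ.2 ∈ Yp := Iff.rfl
theorem mem_RY1 {ξ : NN} : ξ ∈ RY1 ↔
    mon 0 6 * ξ.1 + PsiA * mon 0 (-2) * ξ.2 ∈ Ym ∧ mon 0 (-3) * ξ.2 ∈ Ym := Iff.rfl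

/-- A family of positive semidefinite Hermitian forms `B s t` (mean over the torus
`|x| = e^s, |y| = e^t` of a dual metric), with convexity and monotonicity properties. -/
structure Form (ε : ℝ) where
  B : ℝ → ℝ → NN → NN → ℂ
  add_left : ∀ s t ξ ξ' η, B s t (ξ + ξ') η = B s t ξ η + B s t ξ' η
  smul_left : ∀ s t (c : ℂ) ξ η, B s t (c • ξ) η = c * B s t ξ η
  herm : ∀ s t ξ η, B s t η ξ = conj (B s t ξ η)
  psd : ∀ s t ξ, 0 ≤ (B s t ξ ξ).re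
  mul_mon : ∀ s t (m n : ℤ) ξ η,
    B s t (mon m n • ξ) (mon m n • η) = (Real.exp (2 * m * s + 2 * n * t) : ℝ) * B s t ξ η
  convx : ∀ t ξ, ConvexOn ℝ Set.univ (fun s => (B s t ξ ξ).re)
  monox0 : ∀ t, ∀ ξ ∈ RX0, Monotone (fun s => (B s t ξ ξ).re)
  monox1 : ∀ t, ∀ ξ ∈ RX1, Antitone (fun s => Real.exp (-2 * ε * s) * (B s t ξ ξ).re)
  monoy0 : ∀ s, ∀ ξ ∈ RY0, Monotone (fun t => (B s t ξ ξ).re)
  monoy1 : ∀ s, ∀ ξ ∈ RY1, Antitone (fun t => Real.exp (-2 * ε * t) * (B s t ξ ξ).re)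
  pos : 0 < (B 0 0 e2 e2).re + (B 0 0 uu uu).re

namespace Form

variable {ε : ℝ} (T : Form ε)

/-- the squared seminorm -/
def N (s t : ℝ) (ξ : NN) : ℝ := (T.B s t ξ ξ).re

/-- `ξ ↦ B s t ξ η` as a linear map -/
def lin (s t : ℝ) (η : NN) : NN →ₗ[ℂ] ℂ where
  toFun ξ := T.B s t ξ η
  map_add' ξ ξ' := T.add_left s t ξ ξ' η
  map_smul' c ξ := T.smul_left s t c ξ η

@[simp] theorem lin_apply (s t : ℝ) (η ξ : NN) : T.lin s t η ξ = T.B s t ξ η := rfl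

end Form

end Crest.Agent.R258

end
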