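import Crest.Agent.R258.Lau
import Crest.Agent.R258.Cech

/-!
# Row 258 — symmetric powers of a frame with coefficients in a subspace
-/

set_option autoImplicit false

noncomputable section

namespace Crest.Agent.R258

open MvPolynomial

abbrev PP : Type := MvPolynomial (Fin 2) A

/-- span of the `c * U ^ i * V ^ k`, `c ∈ S`, `i + k = j` -/
def Sy (S : Submodule ℂ A) (U V : PP) (j : ℕ) : Submodule ℂ PP :=
  Submodule.span ℂ {f | ∃ c ∈ S, ∃ i k : ℕ, i + k = j ∧ f = C c * U ^ i * V ^ k}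

/-- constants as a linear map -/
def CL : A →ₗ[ℂ] PP := ((Algebra.ofId A PP).toLinearMap).restrictScalars ℂ

@[simp] theorem CL_apply (c : A) : CL c = C c := rfl

theorem mem_Sy {S : Submodule ℂ A} {U V : PP} {c : A} (hc : c ∈ S) {i k j : ℕ} (h : i + k = j) :
    C c * U ^ i * V ^ k ∈ Sy S U V j :=
  Submodule.subset_span ⟨c, hc, i, k, h, rfl⟩

theorem Sy_induction {S : Submodule ℂ A} {U V : PP} {j : ℕ} {P : PP → Prop} (h0 : P 0)
    (hadd : ∀ f g, P f → P g → P (f + g)) (hsmul : ∀ (c : ℂ) f, P f → P (c • f))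
    (hmon : ∀ c ∈ S, ∀ i k : ℕ, i + k = j → P (C c * U ^ i * V ^ k)) {f : PP}
    (hf : f ∈ Sy S U V j) : P f := by
  induction hf using Submodule.span_induction with
  | mem x hx => obtain ⟨c, hc, i, k, h, rfl⟩ := hx; exact hmon c hc i k h
  | zero => exact h0
  | add x y _ _ hx hy => exact hadd _ _ hx hy
  | smul c x _ hx => exact hsmul _ _ hx

theorem Sy_zero (S : Submodule ℂ A) (U V : PP) : Sy S U V 0 = S.map CL := by
  apply le_antisymm
  · intro f hf
    refine Sy_induction (P := fun f => f ∈ S.map CL) (zero_mem _) (fun _ _ => add_mem)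
      (fun c _ h => Submodule.smul_mem _ c h) ?_ hf
    intro c hc i k h
    obtain ⟨rfl, rfl⟩ : i = 0 ∧ k = 0 := by omega
    exact ⟨c, hc, by simp⟩
  · rintro _ ⟨c, hc, rfl⟩
    simpa using mem_Sy (U := U) (V := V) hc (i := 0) (k := 0) rfl

theorem Sy_mul_lin {S : Submodule ℂ A} {U V : PP} {r s : A} (hr : ∀ c ∈ S, r * c ∈ S)
    (hs : ∀ c ∈ S, s * c ∈ S) {j : ℕ} {f : PP} (hf : f ∈ Sy S U V j) :
    (C r * U + C s * V) * f ∈ Sy S U V (j + 1) := by
  refine Sy_induction (P := fun f => (C r * U + C s * V) * f ∈ Sy S U V (j + 1)) (by simp) ?_ ?_ ?_ hf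
  · intro f g hf hg; rw [mul_add]; exact add_mem hf hg
  · intro c f hf; rw [mul_smul_comm]; exact Submodule.smul_mem _ c hf
  · intro c hc i k h
    have e : (C r * U + C s * V) * (C c * U ^ i * V ^ k) =
        C (r * c) * U ^ (i + 1) * V ^ k + C (s * c) * U ^ i * V ^ (k + 1) := by
      simp only [map_mul]; ring
    rw [e]
    exact add_mem (mem_Sy (hr c hc) (by omega)) (mem_Sy (hs c hc) (by omega))

/-- change of frame -/
theorem Sy_le {S S' : Submodule ℂ A} (hS : S' ≤ S) {U V U' V' : PP} {r1 r2 r3 r4 : A}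
    (h1 : ∀ c ∈ S, r1 * c ∈ S) (h2 : ∀ c ∈ S, r2 * c ∈ S) (h3 : ∀ c ∈ S, r3 * c ∈ S)
    (h4 : ∀ c ∈ S, r4 * c ∈ S) (hU : U' = C r1 * U + C r2 * V) (hV : V' = C r3 * U + C r4 * V)
    (j : ℕ) : Sy S' U' V' j ≤ Sy S U V j := by
  have key : ∀ c ∈ S, ∀ i k : ℕ, C c * U' ^ i * V' ^ k ∈ Sy S U V (i + k) := by
    intro c hc i k
    induction k with
    | zero =>
      induction i with
      | zero => simpa using mem_Sy (U := U) (V := V) hc (i := 0) (k := 0) rfl
      | succ i ih =>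
        have := Sy_mul_lin h1 h2 ih
        rw [← hU] at this
        have e : C c * U' ^ (i + 1) * V' ^ 0 = U' * (C c * U' ^ i * V' ^ 0) := by ring
        rw [e]; simpa using this
    | succ k ih =>
      have := Sy_mul_lin h3 h4 ih
      rw [← hV] at this
      have e : C c * U' ^ i * V' ^ (k + 1) = V' * (C c * U' ^ i * V' ^ k) := by ring
      rw [e]; exact this
  intro f hf
  refine Sy_induction (P := fun f => f ∈ Sy S U V j) (zero_mem _) (fun _ _ => add_mem)
    (fun c _ h => Submodule.smul_mem _ c h) ?_ hf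
  rintro c hc i k rfl
  exact key c (hS hc) i k

theorem Sy_exact {S S' S'' : Submodule ℂ A} {U V W : PP} (φ : PP →ₐ[A] A) {υ υ' τ τ' : A}
    (hφV : φ V = 0) (hφU : φ U = υ) (hυ : υ * υ' = 1) (hV : V = C τ * W) (hτ : τ * τ' = 1)
    {j : ℕ} (h1 : ∀ c ∈ S, τ * c ∈ S') (h2 : ∀ c ∈ S', τ' * c ∈ S)
    (h3 : ∀ c ∈ S, υ ^ (j + 1) * c ∈ S'') (h4 : ∀ c ∈ S'', υ' ^ (j + 1) * c ∈ S) :
    Exact (LinearMap.mulLeft ℂ W) (φ.toLinearMap.restrictScalars ℂ) (Sy S' U V j)
      (Sy S U V (j + 1)) S'' := by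
  have hφC : ∀ c, φ (C c) = c := fun c => φ.commutes c
  have hW : W = C τ' * V := by
    rw [hV, ← mul_assoc, ← map_mul, mul_comm τ', hτ, map_one, one_mul]
  have hφW : φ W = 0 := by rw [hW, map_mul, hφV, mul_zero]
  have hdec : ∀ f ∈ Sy S U V (j + 1), ∃ c ∈ S, ∃ m ∈ Sy S' U V j, f = C c * U ^ (j + 1) + W * m := by
    intro f hf
    refine Sy_induction
      (P := fun f => ∃ c ∈ S, ∃ m ∈ Sy S' U V j, f = C c * U ^ (j + 1) + W * m) ?_ ?_ ?_ ?_ hf
    · exact ⟨0, zero_mem _, 0, zero_mem _, by simp⟩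
    · rintro _ _ ⟨c, hc, m, hm, rfl⟩ ⟨c', hc', m', hm', rfl⟩
      exact ⟨c + c', add_mem hc hc', m + m', add_mem hm hm', by rw [map_add]; ring⟩
    · rintro a _ ⟨c, hc, m, hm, rfl⟩
      refine ⟨a • c, S.smul_mem a hc, a • m, Submodule.smul_mem _ a hm, ?_⟩
      rw [smul_add, mul_smul_comm, ← smul_mul_assoc, ← CL_apply, ← CL_apply, map_smul]
    · intro c hc i k h
      rcases k with _ | k
      · obtain rfl : i = j + 1 := by omega
        exact ⟨c, hc, 0, zero_mem _, by simp⟩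
      · refine ⟨0, zero_mem _, C (τ * c) * U ^ i * V ^ k, mem_Sy (h1 c hc) (by omega), ?_⟩
        rw [pow_succ, map_mul, map_zero]
        nth_rewrite 2 [hV]
        ring
  refine ⟨?_, ?_, ?_, ?_⟩
  · intro m hm
    refine Sy_induction (P := fun m => LinearMap.mulLeft ℂ W m ∈ Sy S U V (j + 1)) (by simp)
      ?_ ?_ ?_ hm
    · intro f g hf hg; rw [map_add]; exact add_mem hf hg
    · intro c f hf; rw [map_smul]; exact Submodule.smul_mem _ c hf
    · intro c hc i k h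
      have e : LinearMap.mulLeft ℂ W (C c * U ^ i * V ^ k) = C (τ' * c) * U ^ i * V ^ (k + 1) := by
        rw [LinearMap.mulLeft_apply, hW, map_mul]; ring
      rw [e]; exact mem_Sy (h2 c hc) (by omega)
  · intro f hf h0
    obtain ⟨c, hc, m, hm, rfl⟩ := hdec f hf
    have h0' : c * υ ^ (j + 1) = 0 := by
      simpa [hφC, hφU, hφW] using h0
    have hc0 : c = 0 := by
      have : c * (υ * υ') ^ (j + 1) = 0 := by rw [mul_pow, ← mul_assoc, h0', zero_mul]
      rwa [hυ, one_pow, mul_one] at this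
    exact ⟨m, hm, by simp [hc0]⟩
  · intro f hf
    obtain ⟨c, hc, m, hm, rfl⟩ := hdec f hf
    have : (φ.toLinearMap.restrictScalars ℂ) (C c * U ^ (j + 1) + W * m) = υ ^ (j + 1) * c := by
      simp [hφC, hφU, hφW, mul_comm]
    rw [this]; exact h3 c hc
  · intro c hc
    refine ⟨C (υ' ^ (j + 1) * c) * U ^ (j + 1) * V ^ 0, mem_Sy (h4 c hc) rfl, ?_⟩
    have : υ' ^ (j + 1) * c * υ ^ (j + 1) = c := by
      rw [mul_comm, ← mul_assoc, ← mul_pow, hυ, one_pow, one_mul]
    simpa [hφC, hφU] using this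

end Crest.Agent.R258

end
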