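import Crest.Agent.R258.Coef
import Crest.Agent.R258.Sy

/-!
# Row 258 — the frames of `E` on the four charts, in terms of the frame of the chart `(0,0)`
-/

set_option autoImplicit false

noncomputable section

namespace Crest.Agent.R258

open MvPolynomial

def offA (α : Fin 2 × Fin 2) : A := if α.2 = 0 then 0 else PsiA * mon 0 (-2)
def UU (α : Fin 2 × Fin 2) : PP := C (tw α 0 6) * X 0 + C (offA α) * X 1
def VV (α : Fin 2 × Fin 2) : PP := C (tw α 3 (-3)) * X 1

/-- the quotients `E → O(0,6)` and `E → O(6,0)` -/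
def phi1 : PP →ₐ[A] A := aeval ![1, 0]
def phi2 : PP →ₐ[A] A := aeval ![PhiA, FA]
/-- generator of the kernel of `phi2` -/
def W2 : PP := C FA * X 0 - C PhiA * X 1

def FP (α : Fin 2 × Fin 2) : MvPolynomial (Fin 2) ℂ := Fch α (C om) (X 0) (X 1)
def PhiP (α : Fin 2 × Fin 2) : MvPolynomial (Fin 2) ℂ := Phich α (C om) (X 0) (X 1)
def PsiP (α : Fin 2 × Fin 2) : MvPolynomial (Fin 2) ℂ := Psich α (C om) (X 0) (X 1)

theorem iota_C_om (α : Fin 2 × Fin 2) : iota α (C om) = omA := by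
  rw [← MvPolynomial.algebraMap_eq, AlgHom.commutes, omA]

theorem iota_X0 (α : Fin 2 × Fin 2) : iota α (X 0) = cx α.1 := by simp [iota]
theorem iota_X1 (α : Fin 2 × Fin 2) : iota α (X 1) = cy α.2 := by simp [iota]

/-- scaling factors from the chart `α` to the chart `(0,0)` -/
def sx (a : Fin 2) : A := if a = 0 then 1 else mon 1 0
def sy (b : Fin 2) : A := if b = 0 then 1 else mon 0 1

theorem sx_hc0 (a : Fin 2) : sx a * hc0 a (cx a) = 1 := by
  unfold sx hc0 cx; split_ifs <;> simp [mon_mul]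
theorem sx_hc1 (a : Fin 2) : sx a * hc1 a (cx a) = mon 1 0 := by
  unfold sx hc1 cx; split_ifs <;> simp
theorem sy_hc0 (a : Fin 2) : sy a * hc0 a (cy a) = 1 := by
  unfold sy hc0 cy; split_ifs <;> simp [mon_mul]
theorem sy_hc1 (a : Fin 2) : sy a * hc1 a (cy a) = mon 0 1 := by
  unfold sy hc1 cy; split_ifs <;> simp

theorem tw_eq (α : Fin 2 × Fin 2) (r t : ℕ) : tw α r t = sx α.1 ^ r * sy α.2 ^ t := by
  unfold tw sx sy; split_ifs <;> simp [mon_pow, mon_mul]

theorem FA_eq (α : Fin 2 × Fin 2) : FA = tw α 3 3 * iota α (FP α) := by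
  have h := Fh_hom (w := omA) (sx α.1) (sy α.2) (hc0 α.1 (cx α.1)) (hc1 α.1 (cx α.1))
    (hc0 α.2 (cy α.2)) (hc1 α.2 (cy α.2))
  rw [sx_hc0, sx_hc1, sy_hc0, sy_hc1] at h
  have e := tw_eq α 3 3
  simp only [Nat.cast_ofNat] at e
  rw [FP, map_Fch, iota_C_om, iota_X0, iota_X1, Fch, FA, h, e]

theorem PsiA_eq (α : Fin 2 × Fin 2) : PsiA = tw α 3 7 * iota α (PsiP α) := by
  have h := Psih_hom (w := omA) (sx α.1) (sy α.2) (hc0 α.1 (cx α.1)) (hc1 α.1 (cx α.1))
    (hc0 α.2 (cy α.2)) (hc1 α.2 (cy α.2))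
  rw [sx_hc0, sx_hc1, sy_hc0, sy_hc1] at h
  have e := tw_eq α 3 7
  simp only [Nat.cast_ofNat] at e
  rw [PsiP, map_Psich, iota_C_om, iota_X0, iota_X1, Psich, PsiA, h, e]

theorem phi2_C (c : A) : phi2 (C c) = c := phi2.commutes c
theorem phi1_C (c : A) : phi1 (C c) = c := phi1.commutes c

theorem phi2_UU (α : Fin 2 × Fin 2) : phi2 (UU α) = tw α 6 0 * iota α (PhiP α) := by
  have e := tw_eq α 6 0
  simp only [Nat.cast_ofNat, Nat.cast_zero, pow_zero, mul_one] at e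
  have hU : phi2 (UU α) = tw α 0 6 * PhiA + offA α * FA := by
    simp only [UU, map_add, map_mul, phi2_C]; simp [phi2]
  rw [hU, PhiP, map_Phich, iota_C_om, iota_X0, iota_X1, e, Phich, offA]
  by_cases hb : α.2 = 0
  · have h := A0h_hom (w := omA) (sx α.1) 1 (hc0 α.1 (cx α.1)) (hc1 α.1 (cx α.1)) 1 (mon 0 1)
    rw [sx_hc0, sx_hc1] at h
    simp only [one_mul, one_pow, mul_one] at h
    simp only [hb, if_true, tw, cy, zero_mul, add_zero, PhiA, h]
    simp
  · have h := A1h_hom (w := omA) (sx α.1) (mon 0 (-1)) (hc0 α.1 (cx α.1)) (hc1 α.1 (cx α.1))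
      1 (mon 0 1)
    have h' := A1h_hom (w := omA) 1 (mon 0 (-1)) 1 (mon 1 0) 1 (mon 0 1)
    have h'' := A1h_hom (w := omA) (sx α.1) 1 (hc0 α.1 (cx α.1)) (hc1 α.1 (cx α.1))
      (mon 0 (-1)) 1
    have hm : mon 0 (-1) * mon 0 1 = 1 := by rw [mon_mul]; rfl
    rw [sx_hc0, sx_hc1] at h''
    simp only [one_mul, one_pow, mul_one, hm, mon_pow] at h' h''
    have h8 : mon 0 (-2) * mon 0 8 = mon 0 6 := by rw [mon_mul]; rfl
    have h6 : tw α 0 6 = mon 0 6 := by simp [tw, hb]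
    simp only [hb, if_false, cy, ← h'', h', h6]
    have := FA_mul_PsiA
    rw [Phi1A] at this
    norm_num
    linear_combination (mon 0 (-2)) * this - PhiA * h8

theorem phi2_VV (α : Fin 2 × Fin 2) : phi2 (VV α) = tw α 6 0 * iota α (FP α) := by
  have hV : phi2 (VV α) = tw α 3 (-3) * FA := by
    simp only [VV, map_mul, phi2_C]; simp [phi2]
  rw [hV, FA_eq α, ← mul_assoc, tw_mul]; norm_num

theorem W2_eq (α : Fin 2 × Fin 2) :
    C (iota α (FP α)) * UU α - C (iota α (PhiP α)) * VV α = C (tw α (-3) 3) * W2 := by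
  have h1 : iota α (FP α) * tw α 0 6 = tw α (-3) 3 * FA := by
    rw [FA_eq α, ← mul_assoc, tw_mul, mul_comm]; norm_num
  have hU : phi2 (UU α) = tw α 0 6 * PhiA + offA α * FA := by
    simp only [UU, map_add, map_mul, phi2_C]; simp [phi2]
  have h2 : iota α (FP α) * offA α - iota α (PhiP α) * tw α 3 (-3) = -(tw α (-3) 3 * PhiA) := by
    have e1 := phi2_UU α
    rw [hU, FA_eq α] at e1
    have t1 : tw α (-3) (-3) * tw α 3 3 = 1 := by rw [tw_mul]; simp
    have t2 : tw α (-3) (-3) * tw α 6 0 = tw α 3 (-3) := by rw [tw_mul]; norm_num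
    have t3 : tw α (-3) (-3) * tw α 0 6 = tw α (-3) 3 := by rw [tw_mul]; norm_num
    linear_combination tw α (-3) (-3) * e1 - offA α * iota α (FP α) * t1
      + iota α (PhiP α) * t2 - PhiA * t3
  have h1' := congrArg (C : A → PP) h1
  have h2' := congrArg (C : A → PP) h2
  simp only [map_mul, map_sub, map_neg] at h1' h2'
  rw [UU, VV, W2]
  linear_combination X 0 * h1' + X 1 * h2'

theorem no_common_zero_aux {X0 X1 Y0 Y1 q p : ℂ} (hqp : q = 0 → p = 0 → False)
    (hL : q * Y1 - p * Y0 = 0) (h0 : A0h om X0 X1 q p = q ^ 8) (h1 : A1h om X0 X1 q p = p ^ 8) :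
    (Y0 = 1 → A0h om X0 X1 Y0 Y1 ≠ 0) ∧ (Y1 = 1 → A1h om X0 X1 Y0 Y1 ≠ 0) := by
  constructor
  · rintro rfl h
    have hp : p = q * Y1 := by linear_combination -hL
    have := A0h_hom (w := om) 1 q X0 X1 1 Y1
    simp only [one_mul, mul_one, one_pow, ← hp, h0, h, mul_zero] at this
    have hq : q = 0 := pow_eq_zero_iff (by norm_num) |>.1 this
    exact hqp hq (by rw [hp, hq, zero_mul])
  · rintro rfl h
    have hq : q = p * Y0 := by linear_combination hL
    have := A1h_hom (w := om) 1 p X0 X1 Y0 1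
    simp only [one_mul, mul_one, one_pow, ← hq, h1, h, mul_zero] at this
    have hp : p = 0 := pow_eq_zero_iff (by norm_num) |>.1 this
    exact hqp (by rw [hq, hp, zero_mul]) hp

theorem no_common_zero (α : Fin 2 × Fin 2) (s t : ℂ) (hF : Fch α om s t = 0) :
    Phich α om s t ≠ 0 := by
  have hX : hc0 α.1 s = 0 → hc1 α.1 s = 0 → False := by
    unfold hc0 hc1; split_ifs <;> simp
  have hom : om ≠ 0 := by
    intro h; have := om_sq; rw [h] at this; norm_num at this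
  have key : (hc0 α.2 t = 1 → A0h om (hc0 α.1 s) (hc1 α.1 s) (hc0 α.2 t) (hc1 α.2 t) ≠ 0) ∧
      (hc1 α.2 t = 1 → A1h om (hc0 α.1 s) (hc1 α.1 s) (hc0 α.2 t) (hc1 α.2 t) ≠ 0) := by
    rw [Fch, Fh, mul_eq_zero, mul_eq_zero] at hF
    rcases hF with (h | h) | h
    · exact no_common_zero_aux hX h (A0h_g1 _ _) (A1h_g1 _ _)
    · refine no_common_zero_aux (fun h1 h2 => hX h1 ?_) h (A0h_g2 om_sq _ _) (A1h_g2 om_sq _ _)
      exact (mul_eq_zero.1 h2).resolve_left hom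
    · refine no_common_zero_aux (fun h1 h2 => hX ?_ ?_) h (A0h_g3 om_sq _ _) (A1h_g3 om_sq _ _)
      · rw [← g3_inv0 om_sq (hc0 α.1 s) (hc1 α.1 s), h1, h2]; simp
      · rw [← g3_inv1 om_sq (hc0 α.1 s) (hc1 α.1 s), h1, h2]; simp
  unfold Phich
  by_cases hb : α.2 = 0
  · have := key.1 (by simp [hc0, hb])
    simpa [hc0, hc1, hb] using this
  · have := key.2 (by simp [hc1, hb])
    simpa [hc0, hc1, hb] using this

/-- `Φ` and `F` have no common zero in any chart -/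
theorem bezout (α : Fin 2 × Fin 2) :
    ∃ l m : MvPolynomial (Fin 2) ℂ, l * PhiP α + m * FP α = 1 := by
  rw [← Ideal.mem_span_pair]
  by_contra hne
  have hI : Ideal.span {PhiP α, FP α} ≠ ⊤ := fun h => hne (h ▸ Submodule.mem_top)
  obtain ⟨M, hM, hle⟩ := Ideal.exists_le_maximal _ hI
  obtain ⟨x, hx⟩ := (MvPolynomial.isMaximal_iff_eq_vanishingIdeal_singleton (K := ℂ)).1 hM
  have h1 : PhiP α ∈ M := hle (Ideal.subset_span (by simp))
  have h2 : FP α ∈ M := hle (Ideal.subset_span (by simp))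
  rw [hx, mem_vanishingIdeal_singleton_iff] at h1 h2
  rw [PhiP, map_Phich] at h1
  rw [FP, map_Fch] at h2
  simp only [aeval_C, aeval_X, Algebra.algebraMap_self, RingHom.id_apply] at h1 h2
  exact no_common_zero α _ _ h2 h1

/-- Čech data of `Symʲ E ⊗ O(a,b)` -/
def SymD (α : Fin 2 × Fin 2) (p : Fin 2 → ℂ) (j : ℕ) (a b : ℤ) : Idx → Submodule ℂ PP :=
  fun σ => Sy (Cf α p a b σ) (UU (σ.ch α)) (VV (σ.ch α)) j

end Crest.Agent.R258

end
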