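import Crest.Agent.R258.Cocycle

/-!
# Row 258 — ampleness of the twisted pull-backs; sections from torus compatibility
-/

set_option autoImplicit false

noncomputable section

namespace Crest.Agent.R258

open Crest.AlgGeometry.QuadricBundle

theorem frameSubst_mul (M N : Matrix (Fin 2) (Fin 2) ℂ) (Q : MvPolynomial (Fin 2) ℂ) :
    frameSubst (M * N) Q = frameSubst M (frameSubst N Q) := by
  rw [frameSubst, frameSubst, frameSubst, MvPolynomial.bind₁_bind₁]
  congr 2
  funext j
  simp [Matrix.mul_apply, Fin.sum_univ_two]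
  ring

theorem frameSubst_one (Q : MvPolynomial (Fin 2) ℂ) : frameSubst 1 Q = Q := by
  have : (fun j => ∑ i, MvPolynomial.C ((1 : Matrix (Fin 2) (Fin 2) ℂ) i j) * MvPolynomial.X i) =
      (MvPolynomial.X : Fin 2 → MvPolynomial (Fin 2) ℂ) := by
    funext j; simp [Matrix.one_apply, apply_ite MvPolynomial.C]
  rw [frameSubst, this, MvPolynomial.bind₁_X_left]
  rfl

theorem pull_eval (M : Matrix (Fin 2) (Fin 2) ℂ) (Q : MvPolynomial (Fin 2) ℂ) (v : Fin 2 → ℂ) :
    MvPolynomial.eval v (frameSubst M Q) = MvPolynomial.eval (fun j => ∑ i, M i j * v i) Q := by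
  have := MvPolynomial.aeval_bind₁ v (fun j => ∑ i, MvPolynomial.C (M i j) * MvPolynomial.X i) Q
  simpa [MvPolynomial.aeval_eq_eval, frameSubst] using this

theorem pull_eval_hom {n : ℕ} {Q : MvPolynomial (Fin 2) ℂ} (hQ : Q.IsHomogeneous n) (v : Fin 2 → ℂ) :
    MvPolynomial.eval v Q =
      ∑ d ∈ Finset.finsuppAntidiag Finset.univ n, MvPolynomial.coeff d Q * ∏ i, v i ^ d i := by
  rw [MvPolynomial.eval_eq']
  refine Finset.sum_subset (fun d hd => ?_) fun d _ hd => by simp [MvPolynomial.notMem_support_iff.1 hd]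
  have := hQ (MvPolynomial.mem_support_iff.1 hd)
  simpa [Finsupp.weight_apply, Finsupp.sum_fintype] using this

theorem pull_smul (c : ℂ) (M : Matrix (Fin 2) (Fin 2) ℂ) (Q : MvPolynomial (Fin 2) ℂ) :
    frameSubst M (c • Q) = c • frameSubst M Q := map_smul _ _ _

theorem frameSubst_smul_left (c : ℂ) (M : Matrix (Fin 2) (Fin 2) ℂ) {n : ℕ}
    {Q : MvPolynomial (Fin 2) ℂ} (hQ : Q.IsHomogeneous n) :
    frameSubst (c • M) Q = c ^ n • frameSubst M Q := by
  refine MvPolynomial.funext fun v => ?_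
  rw [MvPolynomial.smul_eval, pull_eval, pull_eval, pull_eval_hom hQ, pull_eval_hom hQ, Finset.mul_sum]
  refine Finset.sum_congr rfl fun d hd => ?_
  rw [← (Finset.mem_finsuppAntidiag.1 hd).1]
  simp only [Matrix.smul_apply, smul_eq_mul, mul_assoc, ← Finset.mul_sum, mul_pow,
    Finset.prod_mul_distrib, Finset.prod_pow_eq_pow_sum]
  ring

/-- If `Symⁿ E (3,3)` is globally generated for all `n`, then `π_k^* E ⊗ O(1,1)` is ample. -/
theorem isAmple_pull {g : Transition 2} (h : GG g 3 3) {k : ℕ} (hk : 1 ≤ k) :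
    IsAmple (pull k g) := by
  intro k'
  refine ⟨k' + 3 * k, fun n hn α w₀ R hR => ?_⟩
  obtain ⟨r, rfl⟩ := Nat.exists_eq_add_of_le hn
  obtain ⟨Q, ⟨h1, h2, h3⟩, h4⟩ := h _ α (pw k w₀) R hR
  refine ⟨fun β w => lineTrans r r β α w • Q β (pw k w), ⟨fun β w => (MvPolynomial.homogeneousSubmodule _ _ _).smul_mem _ (h1 _ _),
    fun β m => ?_, fun β γ w hw => ?_⟩, by simp [coc_lineTrans_self, h4]⟩
  · simp only [MvPolynomial.coeff_smul, smul_eq_mul]
    refine Differentiable.mul ?_ ((h2 β m).comp (coc_pw_diff k))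
    unfold lineTrans
    simp only [zpow_natCast]
    split_ifs <;> fun_prop
  · have e1 : ∀ m : ℤ, lineTrans m m β γ w = lineTrans 1 1 β γ w ^ m := fun m => by
      simp [lineTrans, mul_zpow]
    have e2 : lineTrans 3 3 β γ (pw k w) = lineTrans 1 1 β γ w ^ (3 * k) := by
      simp only [lineTrans, pw, zpow_one, zpow_ofNat]
      split_ifs <;> ring
    have e3 : lineTrans 1 1 β γ w ≠ 0 := by
      have := lineTrans_cocycle 1 1 β γ β w hw
      rw [coc_lineTrans_self] at this
      exact left_ne_zero_of_mul_eq_one this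
    simp only [pull]
    rw [pull_smul, frameSubst_smul_left _ _ (h1 _ _), h3 β γ _ (coc_pw_mem k hw), coc_pw_tau, smul_smul,
      smul_smul, smul_smul, ← lineTrans_cocycle r r β γ α w hw, e1 r, e1 (-k'), e2]
    congr 1
    simp only [zpow_neg, zpow_natCast]
    field_simp
    ring

/-- It suffices to check compatibility with the chart `(0,0)` at torus points. -/
theorem isSec_of_torus {g : Transition 2} (hg : IsHoloCocycle g) {n : ℕ} {a b : ℤ}
    {Q : Chart → (Fin 2 → ℂ) → MvPolynomial (Fin 2) ℂ}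
    (h1 : ∀ α p, (Q α p).IsHomogeneous n)
    (h2 : ∀ α (m : Fin 2 →₀ ℕ), Differentiable ℂ (fun p => MvPolynomial.coeff m (Q α p)))
    (h3 : ∀ β, ∀ p ∈ torus, Q (0, 0) p =
      lineTrans a b (0, 0) β p • frameSubst (g (0, 0) β p) (Q β (tau (0, 0) β p))) :
    IsSec g n a b Q := by
  refine ⟨h1, h2, fun α β p hp => MvPolynomial.funext fun v => ?_⟩
  have ht : ∀ α β, torus ⊆ overlap α β := fun α β p hp => ⟨fun _ => hp.1, fun _ => hp.2⟩
  have hd : Dense torus := by
    have := dense_pi (s := fun _ : Fin 2 => ({0}ᶜ : Set ℂ)) Set.univ fun _ _ => dense_compl_singleton 0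
    exact Dense.mono (fun p hp => ⟨hp 0 trivial, hp 1 trivial⟩ :
      Set.pi Set.univ (fun _ : Fin 2 => ({0}ᶜ : Set ℂ)) ⊆ torus) this
  have key : ∀ p ∈ torus, Q α p = lineTrans a b α β p • frameSubst (g α β p) (Q β (tau α β p)) := by
    intro p hp
    have hp' : tau α (0, 0) p ∈ torus := by
      constructor <;> simp only [tau, Matrix.cons_val_zero, Matrix.cons_val_one] <;> split_ifs
      exacts [hp.1, inv_ne_zero hp.1, hp.2, inv_ne_zero hp.2]
    have e : ∀ β, lineTrans a b α (0, 0) p • frameSubst (g α (0, 0) p) (Q (0, 0) (tau α (0, 0) p)) =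
        lineTrans a b α β p • frameSubst (g α β p) (Q β (tau α β p)) := fun β => by
      rw [h3 β _ hp', pull_smul, smul_smul, ← frameSubst_mul, coc_tau_tau,
        lineTrans_cocycle _ _ _ _ _ _ (ht _ _ hp), hg.cocycle _ _ _ _ ⟨ht _ _ hp, ht _ _ hp⟩]
    rw [← e β, e α, coc_lineTrans_self, hg.refl, frameSubst_one, coc_tau_self, one_smul]
  have hc : ContinuousOn (tau α β) (overlap α β) := by
    refine continuousOn_pi.2 fun i => ?_
    fin_cases i <;> simp only [tau, Fin.zero_eta, Fin.mk_one, Matrix.cons_val_zero,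
      Matrix.cons_val_one] <;> split_ifs with h
    exacts [by fun_prop, (continuous_apply 0).continuousOn.inv₀ fun p hp => hp.1 h, by fun_prop,
      (continuous_apply 1).continuousOn.inv₀ fun p hp => hp.2 h]
  refine Set.EqOn.of_subset_closure (f := fun p => MvPolynomial.eval v (Q α p))
    (g := fun p => MvPolynomial.eval v
      (lineTrans a b α β p • frameSubst (g α β p) (Q β (tau α β p)))) (s := overlap α β ∩ torus)
    (fun p hp => congrArg _ (key p hp.2)) ?_ ?_ Set.inter_subset_left
    (hd.open_subset_closure_inter (isOpen_overlap α β)) hp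
  · simp only [pull_eval_hom (h1 _ _)]
    exact continuousOn_finsetSum _ fun d _ => (h2 α d).continuous.continuousOn.mul continuousOn_const
  · simp only [MvPolynomial.smul_eval, pull_eval, pull_eval_hom (h1 _ _)]
    exact (lineTrans_differentiableOn _ _ _ _).continuousOn.mul (continuousOn_finsetSum _ fun d _ =>
      ((h2 β d).continuous.comp_continuousOn hc).mul (continuousOn_finsetProd _ fun j _ =>
        (continuousOn_finsetSum _ fun i _ => (hg.holo α β i j).continuousOn.mul
          continuousOn_const).pow _))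

end Crest.Agent.R258

end
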