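import Crest.Agent.R258.Sym
import Crest.Agent.R258.Pull

/-!
# Row 258 — from Čech data to global sections
-/

set_option autoImplicit false

noncomputable section

namespace Crest.Agent.R258

open Crest.AlgGeometry.QuadricBundle MvPolynomial

/-- polynomials in the frame of the chart `β` -/
def ggTh (β : Chart) : MvPolynomial (Fin 2) (MvPolynomial (Fin 2) ℂ) →+* PP :=
  eval₂Hom (C.comp (iota β : MvPolynomial (Fin 2) ℂ →+* A)) ![UU β, VV β]

theorem gg_repr {β : Chart} {S : Submodule ℂ A} {P : Prop} {p : Fin 2 → ℂ} {n : ℕ}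
    (hS : ∀ c ∈ S, ∃ q, (P → eval p q = 0) ∧ c = tw β 3 3 * iota β q) {f : PP}
    (hf : f ∈ Sy S (UU β) (VV β) n) :
    ∃ q : MvPolynomial (Fin 2) (MvPolynomial (Fin 2) ℂ), q.IsHomogeneous n ∧
      (P → map (eval p) q = 0) ∧ f = C (tw β 3 3) * ggTh β q := by
  refine Sy_induction (P := fun f => ∃ q : MvPolynomial (Fin 2) (MvPolynomial (Fin 2) ℂ),
    q.IsHomogeneous n ∧ (P → map (eval p) q = 0) ∧ f = C (tw β 3 3) * ggTh β q)
    ⟨0, isHomogeneous_zero _ _ _, by simp, by simp⟩ ?_ ?_ ?_ hf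
  · rintro _ _ ⟨q, a1, a2, rfl⟩ ⟨q', b1, b2, rfl⟩
    exact ⟨q + q', a1.add b1, fun h => by simp [a2 h, b2 h], by rw [map_add, mul_add]⟩
  · rintro c _ ⟨q, a1, a2, rfl⟩
    refine ⟨C (C c) * q, a1.C_mul _, fun h => by simp [a2 h], ?_⟩
    rw [Algebra.smul_def, MvPolynomial.algebraMap_apply, map_mul, mul_left_comm]
    simp [ggTh]
  · rintro c hc i k rfl
    obtain ⟨q, a1, rfl⟩ := hS c hc
    refine ⟨C q * (X 0 ^ i * X 1 ^ k), ((isHomogeneous_X_pow _ _).mul (isHomogeneous_X_pow _ _)).C_mul _,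
      fun h => by simp [a1 h], ?_⟩
    simp [ggTh, mul_assoc]

theorem gg_mem (α : Chart) (p : Fin 2 → ℂ) {n : ℕ} {R : MvPolynomial (Fin 2) ℂ}
    (hR : R.IsHomogeneous n) : C (tw α 3 3) * ggTh α (map C R) ∈ SymD α p n 3 3 (.F α.1 α.2) := by
  rw [R.as_sum, map_sum, map_sum, Finset.mul_sum]
  refine sum_mem fun d hd => ?_
  have h1 : d 0 + d 1 = n := by
    simpa [Finsupp.weight_apply, Finsupp.sum_fintype] using hR (mem_support_iff.1 hd)
  have h2 := mem_Sy (U := UU α) (V := VV α)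
    ((mem_Cf_F (α := α) (p := p) (a := 3) (b := 3) (c := α.1) (d := α.2)).2 ⟨C (coeff d R), rfl⟩) h1
  simpa [ggTh, Finsupp.prod_fintype, mul_assoc, SymD, Idx.ch] using h2

theorem gg_ev {x : Fin 2 → ℂ} (hx : x ∈ torus) (β : Chart)
    (q : MvPolynomial (Fin 2) (MvPolynomial (Fin 2) ℂ)) :
    map (ev x hx.1 hx.2 : A →+* ℂ) (C (tw β 3 3) * ggTh β q) =
      lineTrans 3 3 (0, 0) β x • frameSubst (g0 (0, 0) β x) (map (eval (tau (0, 0) β x)) q) := by
  have h1 : ∀ a b, evl x (tw β a b) = lineTrans a b (0, 0) β x := fun a b => by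
    simp only [tw, lineTrans, evl_mon, eq_comm (a := (0 : Fin 2))]
    split_ifs <;> simp
  have h2 : ∀ c, evl x (iota β c) = eval (tau (0, 0) β x) c := fun c => by
    have : (ev x hx.1 hx.2).comp (iota β) = aeval (tau (0, 0) β x) := algHom_ext fun i => by
      fin_cases i <;> simp [iota, cx, cy, tau, eq_comm (a := (0 : Fin 2))] <;> split_ifs <;> simp
    exact DFunLike.congr_fun this c
  have h3 : evl x (offA β) = off (0, 0) β x := by
    simp only [offA, off, eq_comm (a := (0 : Fin 2))]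
    split_ifs
    · simp
    · rw [evl_mul hx.1 hx.2, ← ev_apply x hx.1 hx.2, PsiA, map_Psih]
      simp [Psich, hc0, hc1]
  have h4 : (map (ev x hx.1 hx.2 : A →+* ℂ)).comp (ggTh β) =
      (bind₁ fun j => ∑ i, C (g0 (0, 0) β x i j) * X i).toRingHom.comp (map (eval (tau (0, 0) β x))) :=
    ringHom_ext (fun c => by simp [ggTh, h2]) fun i => by
      fin_cases i <;> simp [ggTh, UU, VV, g0, h1, h3]
  rw [map_mul, map_C, smul_eq_C_mul]
  exact congrArg₂ _ (congrArg _ (h1 3 3)) (DFunLike.congr_fun h4 q)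

theorem gg_g0 : GG g0 3 3 := by
  intro n α p R hR
  obtain ⟨γ, h1, h2⟩ := (good_sym α p n).gg _ (gg_mem α p hR)
  have h3 : ∀ β : Chart, ∃ q : MvPolynomial (Fin 2) (MvPolynomial (Fin 2) ℂ), q.IsHomogeneous n ∧
      γ = C (tw β 3 3) * ggTh β q ∧ (β = α → map (eval p) q = R) := fun β => by
    by_cases h : β = α
    · subst h
      obtain ⟨q, a1, a2, a3⟩ := gg_repr (β := β) (P := True) (p := p)
        (fun c hc => by simpa using mem_Cf_N.1 hc) h2
      refine ⟨map C R - q, (hR.map _).sub a1, ?_, fun _ => ?_⟩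
      · rw [map_sub, mul_sub, ← a3, sub_sub_cancel]
      · rw [map_sub, a2 trivial, sub_zero, map_map]
        have : (eval p).comp C = RingHom.id ℂ := RingHom.ext fun c => by simp
        rw [this, map_id]
    · obtain ⟨q, a1, -, a3⟩ := gg_repr (β := β) (P := False) (p := p)
        (fun c hc => by simpa using mem_Cf_F.1 hc) (h1 β.1 β.2)
      exact ⟨q, a1, a3, fun h' => (h h').elim⟩
  choose q a1 a2 a3 using h3
  refine ⟨fun β x => map (eval x) (q β), isSec_of_torus g0_cocycle (fun β x => (a1 β).map _)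
    (fun β m => ?_) fun β x hx => ?_, a3 α rfl⟩
  · simp only [coeff_map]
    exact fun x => (AnalyticOnNhd.eval_mvPolynomial _ x trivial).differentiableAt
  · rw [← gg_ev hx, ← a2, a2 (0, 0), gg_ev hx, coc_lineTrans_self, g0_cocycle.refl, frameSubst_one,
      coc_tau_self, one_smul]

end Crest.Agent.R258

end
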