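import Crest.Agent.R258.Vanish

/-!
# Row 258 — evaluation along a graph by a telescoping Cauchy kernel
-/

set_option autoImplicit false

noncomputable section

namespace Crest.Agent.R258

namespace Form

variable (T : Form 0)

/-- `f ↦ B s t (f • ξ) e1` as an additive map -/
def keyL (s t : ℝ) (ξ : NN) : A →+ ℂ where
  toFun f := T.B s t (f • ξ) e1
  map_zero' := by rw [zero_smul, T.zero_left]
  map_add' f g := by rw [add_smul, T.add_left]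

theorem keyL_apply (s t : ℝ) (ξ : NN) (f : A) : T.keyL s t ξ f = T.B s t (f • ξ) e1 := rfl

theorem keyL_y (s t : ℝ) {ξ : NN} (hξ : ξ ∈ RY0) {f : A} (hf : f ∈ YpA) : T.keyL s t ξ (mon 0 1 * f) = 0 := by
  rw [keyL_apply, mul_smul]
  exact T.vanY0 s t (smul_mem_RY0 hf hξ)

theorem keyL_yi (s t : ℝ) {ξ : NN} (k : ℕ) (hξ : mon 0 (-(k : ℤ)) • ξ ∈ RY1) {f : A} (hf : f ∈ YmA) :
    T.keyL s t ξ (mon 0 (-1) ^ (k + 1) * f) = 0 := by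
  have e : mon 0 (-1) ^ (k + 1) * f = mon 0 (-1) * (f * mon 0 (-(k : ℤ))) := by
    rw [pow_succ, mon_pow, show mon ((k : ℤ) * 0) (k * -1) = mon 0 (-(k : ℤ)) by simp]; ring
  rw [keyL_apply, e, mul_smul, mul_smul]
  exact T.vanY1 s t (smul_mem_RY1 hf hξ)

theorem key (s t : ℝ) {q p Fi Ψi g : A} (hq : q ∈ Yp) (hq' : q ∈ Ym) (hp : p ∈ Yp) (hp' : p ∈ Ym)
    (hg : g ∈ Yp) (hg' : g ∈ Ym) (hF : FA = (q * mon 0 1 - p) * Fi) (hFi : Fi ∈ Yp)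
    (hFi' : mon 0 (-2) * Fi ∈ Ym) (hΦ : q ^ 2 * PhiA - q ^ 8 = (q * mon 0 1 - p) * Ψi)
    (hΨ : Ψi ∈ Yp) (hΨ' : mon 0 (-1) * Ψi ∈ Ym) :
    T.B s t ((g * q ^ 10) • e1) e1 = ∑ n ∈ Finset.range 7,
      T.B s t ((g * q ^ 10 * (q ^ (6 - n) * p ^ n) * mon 0 (-(n : ℤ))) • e2) e1 := by
  have hyy := mon_neg_one_mul_y
  have e2' : mon 0 (-2) = mon 0 (-1) ^ 2 := by rw [mon_pow]; rfl
  have en : ∀ n : ℕ, mon 0 (-(n : ℤ)) = mon 0 (-1) ^ n := fun n => by rw [mon_pow]; simp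
  rw [e2'] at hFi'
  change q ∈ YpA at hq
  change p ∈ YpA at hp
  change g ∈ YpA at hg
  change Fi ∈ YpA at hFi
  change Ψi ∈ YpA at hΨ
  change q ∈ YmA at hq'
  change p ∈ YmA at hp'
  change g ∈ YmA at hg'
  change _ ∈ YmA at hFi'
  change _ ∈ YmA at hΨ'
  have hi : mon 0 (-1) ∈ YmA := mon_mem_Ym 0 (by norm_num)
  have a1 := fun f hf => T.keyL_y s t uu_mem_RY0 (f := f) hf
  have a2 := fun f hf => T.keyL_yi s t 5 uu_mem_RY1 (f := f) hf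
  have a3 := fun f hf => T.keyL_yi s t (ξ := e1) 0 (by simpa using e1_mem_RY1) (f := f) hf
  have a4 := fun f hf => T.keyL_y s t e2_mem_RY0 (f := f) hf
  have a5 := fun f hf => T.keyL_yi s t 6 e2_mem_RY1 (f := f) hf
  have a6 : ∀ f, T.keyL s t uu (f * FA) = T.keyL s t e1 f - T.keyL s t e2 (f * PhiA) := fun f => by
    rw [keyL_apply, keyL_apply, keyL_apply, mul_smul, FA_smul_uu, smul_sub, ← T.lin_apply, map_sub, mul_smul]
    rfl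
  simp only [en, ← keyL_apply]
  generalize mon 0 (-1) = z at *
  generalize mon 0 1 = y at *
  obtain ⟨K, hK⟩ : ∃ K : A, K = p * q ^ 7 + z * p ^ 2 * q ^ 6 + z ^ 2 * p ^ 3 * q ^ 5 + z ^ 3 * p ^ 4 * q ^ 4 +
    z ^ 4 * p ^ 5 * q ^ 3 + z ^ 5 * p ^ 6 * q ^ 2 + z ^ 6 * p ^ 7 * q + z ^ 7 * p ^ 8 := ⟨_, rfl⟩
  have hKm : K ∈ YmA := by
    rw [hK]
    repeat' with_reducible first | assumption | apply add_mem | apply mul_mem | apply pow_mem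
  have hkap : (q * y - p) * (q ^ 8 + z * K) = y * q ^ 9 - z ^ 8 * p ^ 9 := by
    rw [hK]
    linear_combination (p * q ^ 8 + z * p ^ 2 * q ^ 7 + z ^ 2 * p ^ 3 * q ^ 6 + z ^ 3 * p ^ 4 * q ^ 5 +
      z ^ 4 * p ^ 5 * q ^ 4 + z ^ 5 * p ^ 6 * q ^ 3 + z ^ 6 * p ^ 7 * q ^ 2 + z ^ 7 * p ^ 8 * q) * hyy
  have b1 : g * q ^ 2 * (q ^ 8 + z * K) * FA =
      y * (g * q ^ 11 * Fi) - z ^ (5 + 1) * (g * q ^ 2 * p ^ 9 * (z ^ 2 * Fi)) := by
    rw [hF]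
    linear_combination g * q ^ 2 * Fi * hkap
  have b2 : g * q ^ 2 * (q ^ 8 + z * K) = g * q ^ 10 + z ^ (0 + 1) * (g * q ^ 2 * K) := by ring
  have b3 : g * q ^ 2 * (q ^ 8 + z * K) * PhiA =
      (∑ n ∈ Finset.range 7, g * q ^ 10 * (q ^ (6 - n) * p ^ n) * z ^ n) +
        z ^ (6 + 1) * (g * q ^ 9 * p ^ 7 + g * q ^ 8 * p ^ 8 * z - g * p ^ 9 * (z * Ψi)) + y * (g * q ^ 9 * Ψi) := by
    simp only [Finset.sum_range_succ, Finset.sum_range_zero]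
    norm_num
    linear_combination g * (q ^ 8 + z * K) * hΦ + g * Ψi * hkap + g * q ^ 8 * z * hK
  have h := a6 (g * q ^ 2 * (q ^ 8 + z * K))
  rw [b1, b3, b2, map_sub, map_add, map_add, map_add, map_sum, a1, a2, a3, a4, a5] at h
  · linear_combination -h
  all_goals repeat' with_reducible first | assumption | apply sub_mem | apply add_mem | apply mul_mem | apply pow_mem

theorem key' (s t : ℝ) {q p q' p' q'' p'' g : A} (hq : q ∈ YpA ⊓ YmA) (hp : p ∈ YpA ⊓ YmA)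
    (hq' : q' ∈ YpA ⊓ YmA) (hp' : p' ∈ YpA ⊓ YmA) (hq'' : q'' ∈ YpA ⊓ YmA) (hp'' : p'' ∈ YpA ⊓ YmA)
    (hg : g ∈ Yp) (hg' : g ∈ Ym)
    (hF : FA = (q * mon 0 1 - p) * ((q' * mon 0 1 - p') * (q'' * mon 0 1 - p'')))
    (hΦ : A0h omA 1 (mon 1 0) q p = q ^ 8) :
    T.B s t ((g * q ^ 10) • e1) e1 = ∑ n ∈ Finset.range 7,
      T.B s t ((g * q ^ 10 * (q ^ (6 - n) * p ^ n) * mon 0 (-(n : ℤ))) • e2) e1 := by
  have hyy := mon_neg_one_mul_y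
  have hy : mon 0 1 ∈ YpA := mon_mem_Yp 0 zero_le_one
  have hi : mon 0 (-1) ∈ YmA := mon_mem_Ym 0 (by norm_num)
  have hx : mon 1 0 ∈ YpA := mon_mem_Yp 1 le_rfl
  have hx' : mon 1 0 ∈ YmA := mon_mem_Ym 1 le_rfl
  rw [Algebra.mem_inf] at hq hp hq' hp' hq'' hp''
  refine T.key s t (Ψi := q * A0c1 omA 1 (mon 1 0) + A0c2 omA 1 (mon 1 0) * (q * mon 0 1 + p))
    hq.1 hq.2 hp.1 hp.2 hg hg' hF ?_ ?_ ?_ ?_ ?_
  · exact YpA.mul_mem (sub_mem (mul_mem hq'.1 hy) hp'.1) (sub_mem (mul_mem hq''.1 hy) hp''.1)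
  · have : mon 0 (-2) * ((q' * mon 0 1 - p') * (q'' * mon 0 1 - p'')) =
        (q' - p' * mon 0 (-1)) * (q'' - p'' * mon 0 (-1)) := by
      have e2' : mon 0 (-2) = mon 0 (-1) ^ 2 := by rw [mon_pow]; rfl
      rw [e2']
      linear_combination (q' * q'' * (mon 0 (-1) * mon 0 1 + 1) - mon 0 (-1) * (q' * p'' + p' * q'')) * hyy
    rw [this]
    exact YmA.mul_mem (sub_mem hq'.2 (mul_mem hp'.2 hi)) (sub_mem hq''.2 (mul_mem hp''.2 hi))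
  · rw [← hΦ, PhiA, A0h, A0h]; ring
  · exact YpA.add_mem (mul_mem hq.1 (A0c1_mem _ (one_mem _) hx))
      (mul_mem (A0c2_mem _ (one_mem _) hx) (add_mem (mul_mem hq.1 hy) hp.1))
  · have : mon 0 (-1) * (q * A0c1 omA 1 (mon 1 0) + A0c2 omA 1 (mon 1 0) * (q * mon 0 1 + p)) =
        mon 0 (-1) * q * A0c1 omA 1 (mon 1 0) + A0c2 omA 1 (mon 1 0) * (q + mon 0 (-1) * p) := by
      linear_combination A0c2 omA 1 (mon 1 0) * q * hyy
    rw [this]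
    exact YmA.add_mem (mul_mem (mul_mem hi hq.2) (A0c1_mem _ (one_mem _) hx'))
      (mul_mem (A0c2_mem _ (one_mem _) hx') (add_mem hq.2 (mul_mem hi hp.2)))

theorem key_x_mem : mon 1 0 ∈ YpA ⊓ YmA :=
  Algebra.mem_inf.2 ⟨mon_mem_Yp 1 le_rfl, mon_mem_Ym 1 le_rfl⟩

/-- graph `y = x` -/
theorem key1 (s t : ℝ) {g : A} (hg : g ∈ Yp) (hg' : g ∈ Ym) :
    T.B s t (g • e1) e1 = ∑ n ∈ Finset.range 7,
      T.B s t ((g * mon 1 0 ^ n * mon 0 (-(n : ℤ))) • e2) e1 := by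
  have := T.key' s t (one_mem _) key_x_mem (one_mem _) (mul_mem (omA_mem _) key_x_mem)
    (q3_mem _ (one_mem _) key_x_mem) (p3_mem _ (one_mem _) key_x_mem) hg hg'
    (by rw [FA, Fh, L1, L2, L3]; ring) (A0h_g1 _ _)
  simpa only [one_pow, mul_one, one_mul] using this

/-- graph `y = ω x` -/
theorem key2 (s t : ℝ) {g : A} (hg : g ∈ Yp) (hg' : g ∈ Ym) :
    T.B s t (g • e1) e1 = ∑ n ∈ Finset.range 7,
      T.B s t ((g * (omA * mon 1 0) ^ n * mon 0 (-(n : ℤ))) • e2) e1 := by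
  have := T.key' s t (one_mem _) (mul_mem (omA_mem _) key_x_mem) (one_mem _) key_x_mem
    (q3_mem _ (one_mem _) key_x_mem) (p3_mem _ (one_mem _) key_x_mem) hg hg'
    (by rw [FA, Fh, L1, L2, L3]; ring) (A0h_g2 omA_sq _ _)
  simpa only [one_pow, mul_one, one_mul] using this

/-- graph `y = p₃ / q₃` -/
theorem key3 (s t : ℝ) {g : A} (hg : g ∈ Yp) (hg' : g ∈ Ym) :
    T.B s t ((g * q3 omA 1 (mon 1 0) ^ 10) • e1) e1 = ∑ n ∈ Finset.range 7,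
      T.B s t ((g * q3 omA 1 (mon 1 0) ^ 10 *
        (q3 omA 1 (mon 1 0) ^ (6 - n) * p3 omA 1 (mon 1 0) ^ n) * mon 0 (-(n : ℤ))) • e2) e1 :=
  T.key' s t (q3_mem _ (one_mem _) key_x_mem) (p3_mem _ (one_mem _) key_x_mem) (one_mem _) key_x_mem
    (one_mem _) (mul_mem (omA_mem _) key_x_mem) hg hg'
    (by rw [FA, Fh, L1, L2, L3]; ring) (A0h_g3 omA_sq _ _)

end Form

end Crest.Agent.R258

end
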