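import Crest.Prelude.Def_QuadricBundle

/-!
# Row 258 — the dual norm of a holomorphic covector field is plurisubharmonic
-/

set_option autoImplicit false

noncomputable section

namespace Crest.Agent.R258

open Crest.AlgGeometry.QuadricBundle Matrix
open scoped ComplexConjugate ComplexOrder

/-- the dual Hermitian form `η^* M⁻¹ ξ` on covectors -/
def dual (M : Matrix (Fin 2) (Fin 2) ℂ) (ξ η : Fin 2 → ℂ) : ℂ := star η ⬝ᵥ (M⁻¹ *ᵥ ξ)

theorem dual_add_left (M : Matrix (Fin 2) (Fin 2) ℂ) (ξ ξ' η : Fin 2 → ℂ) :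
    dual M (ξ + ξ') η = dual M ξ η + dual M ξ' η := by
  rw [dual, Matrix.mulVec_add, dotProduct_add, dual, dual]

theorem dual_smul_smul (M : Matrix (Fin 2) (Fin 2) ℂ) (c d : ℂ) (ξ η : Fin 2 → ℂ) :
    dual M (c • ξ) (d • η) = c * conj d * dual M ξ η := by
  rw [dual, Matrix.mulVec_smul, dotProduct_smul, star_smul, smul_dotProduct, dual]
  simp only [smul_eq_mul, RCLike.star_def]; ring

theorem dual_herm {M : Matrix (Fin 2) (Fin 2) ℂ} (hM : M.PosDef) (ξ η : Fin 2 → ℂ) :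
    dual M η ξ = conj (dual M ξ η) := by
  have h := hM.inv.isHermitian
  unfold dual
  rw [← RCLike.star_def, ← star_dotProduct_star, star_star, star_mulVec, h.eq,
    ← dotProduct_mulVec]

theorem dual_nonneg {M : Matrix (Fin 2) (Fin 2) ℂ} (hM : M.PosDef) (ξ : Fin 2 → ℂ) :
    0 ≤ (dual M ξ ξ).re := by
  have h := hM.inv.posSemidef.dotProduct_mulVec_nonneg ξ
  exact (Complex.le_def.1 h).1

theorem dual_pos {M : Matrix (Fin 2) (Fin 2) ℂ} (hM : M.PosDef) {ξ : Fin 2 → ℂ} (hξ : ξ ≠ 0) :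
    0 < (dual M ξ ξ).re := by
  have h := hM.inv.dotProduct_mulVec_pos hξ
  exact (Complex.lt_def.1 h).1

/-- change of frame -/
theorem dual_transform {M g : Matrix (Fin 2) (Fin 2) ℂ} (hM : M.PosDef) (hg : g.det ≠ 0)
    (ξ η : Fin 2 → ℂ) :
    dual (gᵀ * M * g.map conj) (gᵀ *ᵥ ξ) (gᵀ *ᵥ η) = dual M ξ η := by
  have hgt : IsUnit gᵀ.det := by rw [Matrix.det_transpose]; exact isUnit_iff_ne_zero.2 hg
  have hct : (gᵀ)ᴴ = g.map conj := by
    ext i j; simp [Matrix.conjTranspose_apply]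
  have hgc : IsUnit (g.map conj).det := by
    rw [← hct, Matrix.det_conjTranspose, Matrix.det_transpose]
    exact isUnit_iff_ne_zero.2 (star_ne_zero.2 hg)
  unfold dual
  rw [star_mulVec, hct, ← dotProduct_mulVec, Matrix.mulVec_mulVec, Matrix.mulVec_mulVec,
    Matrix.mul_inv_rev, Matrix.mul_inv_rev]
  congr 2
  rw [← Matrix.mul_assoc, ← Matrix.mul_assoc, Matrix.mul_nonsing_inv _ hgc, Matrix.one_mul,
    Matrix.mul_assoc, Matrix.nonsing_inv_mul _ hgt, Matrix.mul_one]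

/-- explicit formula for the dual form -/
theorem levi_dual_eq (M : Matrix (Fin 2) (Fin 2) ℂ) (ξ η : Fin 2 → ℂ) :
    dual M ξ η = (M 0 0 * M 1 1 - M 0 1 * M 1 0)⁻¹ *
      (conj (η 0) * (M 1 1 * ξ 0 - M 0 1 * ξ 1) + conj (η 1) * (M 0 0 * ξ 1 - M 1 0 * ξ 0)) := by
  unfold dual
  rw [Matrix.inv_def, Ring.inverse_eq_inv', Matrix.adjugate_fin_two, Matrix.det_fin_two]
  simp [dotProduct, Matrix.mulVec, Fin.sum_univ_two]
  ring

theorem levi_det_ne {M : Matrix (Fin 2) (Fin 2) ℂ} (hM : M.PosDef) :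
    M 0 0 * M 1 1 - M 0 1 * M 1 0 ≠ 0 := by
  rw [← Matrix.det_fin_two]
  exact hM.det_pos.ne'

theorem dual_continuousOn {X : Type*} [TopologicalSpace X] {s : Set X}
    {M : X → Matrix (Fin 2) (Fin 2) ℂ} (hM : ∀ i j, ContinuousOn (fun x => M x i j) s)
    (hpos : ∀ x ∈ s, (M x).PosDef) {ξ η : X → Fin 2 → ℂ} (hξ : ContinuousOn ξ s)
    (hη : ContinuousOn η s) : ContinuousOn (fun x => dual (M x) (ξ x) (η x)) s := by
  simp only [levi_dual_eq]
  have hξ' : ∀ i, ContinuousOn (fun x => ξ x i) s := fun i =>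
    (continuous_apply i).comp_continuousOn hξ
  have hη' : ∀ i, ContinuousOn (fun x => conj (η x i)) s := fun i =>
    Complex.continuous_conj.comp_continuousOn ((continuous_apply i).comp_continuousOn hη)
  refine ContinuousOn.mul (ContinuousOn.inv₀ ?_ fun x hx => levi_det_ne (hpos x hx)) ?_
  · exact ((hM 0 0).mul (hM 1 1)).sub ((hM 0 1).mul (hM 1 0))
  · exact ((hη' 0).mul (((hM 1 1).mul (hξ' 0)).sub ((hM 0 1).mul (hξ' 1)))).add
      ((hη' 1).mul (((hM 0 0).mul (hξ' 1)).sub ((hM 1 0).mul (hξ' 0))))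

theorem levi_dual_contDiffWithinAt {X : Type*} [NormedAddCommGroup X] [NormedSpace ℝ X]
    {s : Set X} {x : X} {n : WithTop ℕ∞}
    {M : X → Matrix (Fin 2) (Fin 2) ℂ} (hM : ∀ i j, ContDiffWithinAt ℝ n (fun x => M x i j) s x)
    (hpos : (M x).PosDef) {ξ η : X → Fin 2 → ℂ} (hξ : ContDiffWithinAt ℝ n ξ s x)
    (hη : ContDiffWithinAt ℝ n η s x) :
    ContDiffWithinAt ℝ n (fun x => dual (M x) (ξ x) (η x)) s x := by
  simp only [levi_dual_eq]
  have hξ' : ∀ i, ContDiffWithinAt ℝ n (fun x => ξ x i) s x := fun i =>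
    contDiffWithinAt_pi.1 hξ i
  have hη' : ∀ i, ContDiffWithinAt ℝ n (fun x => conj (η x i)) s x := fun i =>
    Complex.conjCLE.contDiff.contDiffAt.comp_contDiffWithinAt x (contDiffWithinAt_pi.1 hη i)
  refine ContDiffWithinAt.mul (ContDiffWithinAt.inv ?_ (levi_det_ne hpos)) ?_
  · exact ((hM 0 0).mul (hM 1 1)).sub ((hM 0 1).mul (hM 1 0))
  · exact ((hη' 0).mul (((hM 1 1).mul (hξ' 0)).sub ((hM 0 1).mul (hξ' 1)))).add
      ((hη' 1).mul (((hM 0 0).mul (hξ' 1)).sub ((hM 1 0).mul (hξ' 0))))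

theorem levi_smooth_two {g : Transition 2} {H : MetricData 2} (hH : IsHermitianMetric g H)
    (α : Chart) (i j : Fin 2) : ContDiff ℝ 2 (fun p => H α p i j) :=
  (hH.smooth α i j).of_le (WithTop.coe_le_coe.2 (le_top : (2 : ℕ∞) ≤ ⊤))

theorem dual_contDiffOn {g : Transition 2} {H : MetricData 2} (hH : IsHermitianMetric g H)
    (α : Chart) {U : Set (Fin 2 → ℂ)} {ζ : (Fin 2 → ℂ) → Fin 2 → ℂ}
    (hζ : ContDiffOn ℝ 2 ζ U) :
    ContDiffOn ℝ 2 (fun q => (dual (H α q) (ζ q) (ζ q)).re) U := by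
  intro q hq
  exact Complex.reCLM.contDiff.contDiffAt.comp_contDiffWithinAt q
    (levi_dual_contDiffWithinAt (fun i j => (levi_smooth_two hH α i j).contDiffWithinAt)
      (hH.posDef α q) (hζ q hq) (hζ q hq))

/-! ### one-variable lemmas -/

theorem levi_dd_eq (f : ℝ → ℝ) : deriv (deriv f) 0 = iteratedDeriv 2 f 0 := by
  rw [iteratedDeriv_succ, iteratedDeriv_one]

theorem levi_dd_nonneg {f : ℝ → ℝ} (hc : ContinuousAt f 0) (hmin : IsLocalMin f 0) :
    0 ≤ deriv (deriv f) 0 := by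
  by_contra hneg
  have hneg' : deriv (deriv f) 0 < 0 := not_le.1 hneg
  have hmax := isLocalMax_of_deriv_deriv_neg hneg' hmin.deriv_eq_zero hc
  have hconst : f =ᶠ[nhds 0] fun _ => f 0 := by
    filter_upwards [hmin, hmax] with t h1 h2 using le_antisymm h2 h1
  have h1 : deriv f =ᶠ[nhds 0] fun _ => 0 := by
    filter_upwards [hconst.deriv] with t ht
    rw [ht]; simp
  have h2 : deriv (deriv f) 0 = 0 := by rw [h1.deriv_eq]; simp
  exact absurd h2 hneg'.ne

theorem levi_dd_re {h : ℂ → ℂ} (hh : AnalyticAt ℂ h 0) (c : ℂ) :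
    deriv (deriv (fun t : ℝ => (h (t * c)).re)) 0 = (c ^ 2 * deriv (deriv h) 0).re := by
  have hlin : ∀ t : ℝ, HasDerivAt (fun t : ℝ => (t : ℂ) * c) c t := fun t => by
    simpa using (Complex.ofRealCLM.hasDerivAt (x := t)).mul_const c
  have hcont : Filter.Tendsto (fun t : ℝ => (t : ℂ) * c) (nhds 0) (nhds 0) := by
    simpa using (hlin 0).continuousAt.tendsto
  have key : ∀ {k : ℂ → ℂ} {t : ℝ}, DifferentiableAt ℂ k (t * c) →
      HasDerivAt (fun t : ℝ => k (t * c)) (deriv k (t * c) * c) t := by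
    intro k t hk
    have := (hk.hasDerivAt.hasFDerivAt.restrictScalars ℝ).comp_hasDerivAt t (hlin t)
    refine this.congr_deriv ?_
    simp [mul_comm]
  have h1 : deriv (fun t : ℝ => (h (t * c)).re) =ᶠ[nhds 0]
      fun t : ℝ => (deriv h (t * c) * c).re := by
    filter_upwards [hcont.eventually hh.eventually_analyticAt] with t ht
    exact (Complex.reCLM.hasFDerivAt.comp_hasDerivAt t (key ht.differentiableAt)).deriv
  rw [h1.deriv_eq]
  have h0 : DifferentiableAt ℂ (deriv h) (((0 : ℝ) : ℂ) * c) := by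
    simpa using hh.deriv.differentiableAt
  have h2 := (Complex.reCLM.hasFDerivAt.comp_hasDerivAt (0 : ℝ) ((key h0).mul_const c)).deriv
  refine Eq.trans h2 ?_
  simp only [Complex.ofReal_zero, zero_mul, Complex.reCLM_apply]
  congr 1; ring

/-- the Levi form restricted to a complex line -/
def leviLine (f : ℂ → ℝ) : ℝ :=
  deriv (deriv (fun t : ℝ => f (t * 1))) 0 + deriv (deriv (fun t : ℝ => f (t * Complex.I))) 0

theorem leviAlong_eq_leviLine (F : (Fin 2 → ℂ) → ℝ) (p d : Fin 2 → ℂ) :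
    leviAlong F p d = leviLine (fun z => F (p + z • d)) := by
  simp only [leviAlong, secondDerivAlong, leviLine, mul_one, smul_smul]

theorem levi_line_contDiffAt {f : ℂ → ℝ} (hf : ContDiffAt ℝ 2 f 0) (c : ℂ) :
    ContDiffAt ℝ 2 (fun t : ℝ => f (t * c)) 0 := by
  have h1 : ContDiffAt ℝ 2 (fun t : ℝ => (t : ℂ) * c) 0 :=
    (Complex.ofRealCLM.contDiff.mul contDiff_const).contDiffAt
  exact ContDiffAt.comp (g := f) (f := fun t : ℝ => (t : ℂ) * c) 0 (by simpa using hf) h1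

theorem leviLine_add {f f' : ℂ → ℝ} (hf : ContDiffAt ℝ 2 f 0) (hf' : ContDiffAt ℝ 2 f' 0) :
    leviLine (fun z => f z + f' z) = leviLine f + leviLine f' := by
  have key : ∀ c : ℂ, deriv (deriv (fun t : ℝ => f (t * c) + f' (t * c))) 0 =
      deriv (deriv (fun t : ℝ => f (t * c))) 0 + deriv (deriv (fun t : ℝ => f' (t * c))) 0 := by
    intro c
    rw [levi_dd_eq, levi_dd_eq, levi_dd_eq]
    exact iteratedDeriv_add (levi_line_contDiffAt hf c) (levi_line_contDiffAt hf' c)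
  unfold leviLine
  rw [key, key]; ring

theorem leviLine_re {h : ℂ → ℂ} (hh : AnalyticAt ℂ h 0) : leviLine (fun z => (h z).re) = 0 := by
  unfold leviLine
  rw [levi_dd_re hh, levi_dd_re hh]
  simp

theorem leviLine_nonneg {f : ℂ → ℝ} (hc : ContinuousAt f 0) (h0 : f 0 = 0) (hf : ∀ z, 0 ≤ f z) :
    0 ≤ leviLine f := by
  have key : ∀ c : ℂ, 0 ≤ deriv (deriv (fun t : ℝ => f (t * c))) 0 := by
    intro c
    refine levi_dd_nonneg ?_ ?_
    · refine ContinuousAt.comp (g := f) (f := fun t : ℝ => (t : ℂ) * c) (by simpa using hc) ?_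
      fun_prop
    · refine Filter.Eventually.of_forall fun t => ?_
      simpa [h0] using hf _
  exact add_nonneg (key _) (key _)

theorem levi_line_analyticAt {U : Set (Fin 2 → ℂ)} (hU : IsOpen U)
    {ζ : (Fin 2 → ℂ) → Fin 2 → ℂ} (hζ : DifferentiableOn ℂ ζ U) {p : Fin 2 → ℂ} (hp : p ∈ U)
    (d : Fin 2 → ℂ) : AnalyticAt ℂ (fun z : ℂ => ζ (p + z • d)) 0 := by
  have hL : Differentiable ℂ (fun z : ℂ => p + z • d) := by fun_prop
  have hV : IsOpen ((fun z : ℂ => p + z • d) ⁻¹' U) := hU.preimage hL.continuous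
  have h1 : DifferentiableOn ℂ (fun z : ℂ => ζ (p + z • d)) ((fun z : ℂ => p + z • d) ⁻¹' U) :=
    hζ.comp hL.differentiableOn fun z hz => hz
  exact h1.analyticAt (hV.mem_nhds (by simpa using hp))

theorem levi_expand {M : Matrix (Fin 2) (Fin 2) ℂ} (hM : M.PosDef) (ξ s : Fin 2 → ℂ) :
    (dual M (ξ - M *ᵥ star s) (ξ - M *ᵥ star s)).re =
      (dual M ξ ξ).re + (-2 * (ξ ⬝ᵥ s)).re + (∑ i, ∑ j, M i j * s i * conj (s j)).re := by
  have hu : IsUnit M.det := isUnit_iff_ne_zero.2 hM.det_pos.ne'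
  have e1 : ∀ η, dual M (M *ᵥ star s) η = star η ⬝ᵥ star s := fun η => by
    unfold dual
    rw [Matrix.mulVec_mulVec, Matrix.nonsing_inv_mul _ hu, Matrix.one_mulVec]
  have e2 : ∀ a b c : Fin 2 → ℂ, dual M (a - b) c = dual M a c - dual M b c := fun a b c => by
    unfold dual; rw [Matrix.mulVec_sub, dotProduct_sub]
  have e3 : ∀ a b c : Fin 2 → ℂ, dual M a (b - c) = dual M a b - dual M a c := fun a b c => by
    unfold dual; rw [star_sub, sub_dotProduct]
  have e4 : star (M *ᵥ star s) ⬝ᵥ star s = conj (∑ i, ∑ j, M i j * s i * conj (s j)) := by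
    rw [star_dotProduct_star, RCLike.star_def]
    congr 1
    simp only [dotProduct, Matrix.mulVec, Fin.sum_univ_two, Pi.star_apply, RCLike.star_def]
    ring
  have e5 : star ξ ⬝ᵥ star s = conj (ξ ⬝ᵥ s) := by
    rw [star_dotProduct_star, RCLike.star_def, dotProduct_comm]
  rw [e2, e3, e3, dual_herm hM (M *ᵥ star s) ξ, e1, e1, e4, e5]
  simp only [Complex.sub_re, Complex.conj_re, Complex.conj_conj, Complex.mul_re, Complex.neg_re,
    Complex.neg_im, Complex.re_ofNat, Complex.im_ofNat]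
  ring

/-- Griffiths positivity makes dual norms of holomorphic covector fields plurisubharmonic. -/
theorem levi_dual_nonneg {g : Transition 2} {H : MetricData 2} (hH : IsHermitianMetric g H)
    (hG : IsGriffithsPositive H) (α : Chart) {U : Set (Fin 2 → ℂ)} (hU : IsOpen U)
    {ζ : (Fin 2 → ℂ) → Fin 2 → ℂ} (hζ : DifferentiableOn ℂ ζ U) {p : Fin 2 → ℂ} (hp : p ∈ U)
    {d : Fin 2 → ℂ} (hd : d ≠ 0) :
    0 ≤ leviAlong (fun q => (dual (H α q) (ζ q) (ζ q)).re) p d := by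
  have hL : ContDiff ℝ 2 (fun z : ℂ => p + z • d) := by
    have : ContDiff ℂ 2 (fun z : ℂ => p + z • d) := by fun_prop
    exact this.restrict_scalars ℝ
  have hM : ∀ i j, ContDiffAt ℝ 2 (fun z : ℂ => H α (p + z • d) i j) 0 := fun i j =>
    ((levi_smooth_two hH α i j).comp hL).contDiffAt
  have hζa := levi_line_analyticAt hU hζ hp d
  have hζc : ContDiffAt ℝ 2 (fun z : ℂ => ζ (p + z • d)) 0 :=
    hζa.contDiffAt.restrict_scalars ℝ
  have hφ : ContDiffAt ℝ 2
      (fun z : ℂ => (dual (H α (p + z • d)) (ζ (p + z • d)) (ζ (p + z • d))).re) 0 := by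
    refine ContDiffAt.comp (g := Complex.reCLM)
      (f := fun z : ℂ => dual (H α (p + z • d)) (ζ (p + z • d)) (ζ (p + z • d))) (0 : ℂ)
      Complex.reCLM.contDiff.contDiffAt ?_
    rw [← contDiffWithinAt_univ]
    exact levi_dual_contDiffWithinAt (fun i j => (hM i j).contDiffWithinAt) (hH.posDef α _)
      hζc.contDiffWithinAt hζc.contDiffWithinAt
  have hu : IsUnit (H α p).det := isUnit_iff_ne_zero.2 (hH.posDef α p).det_pos.ne'
  rw [leviAlong_eq_leviLine]
  by_cases hv : ζ p = 0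
  · refine leviLine_nonneg hφ.continuousAt ?_ fun z => dual_nonneg (hH.posDef α _) _
    simp [hv, dual]
  · have hv' : star ((H α p)⁻¹ *ᵥ ζ p) ≠ 0 := by
      intro h
      apply hv
      have h1 : (H α p)⁻¹ *ᵥ ζ p = 0 := by simpa using h
      have h2 : H α p *ᵥ ((H α p)⁻¹ *ᵥ ζ p) = ζ p := by
        rw [Matrix.mulVec_mulVec, Matrix.mul_nonsing_inv _ hu, Matrix.one_mulVec]
      rw [← h2, h1, Matrix.mulVec_zero]
    obtain ⟨V, s, hV, hpV, hs, hsp, hneg⟩ := hG α p d _ hd hv'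
    rw [leviAlong_eq_leviLine] at hneg
    have hsa := levi_line_analyticAt hV hs hpV d
    have hsc : ContDiffAt ℝ 2 (fun z : ℂ => s (p + z • d)) 0 :=
      hsa.contDiffAt.restrict_scalars ℝ
    have hha : AnalyticAt ℂ (fun z : ℂ => -2 * (ζ (p + z • d) ⬝ᵥ s (p + z • d))) 0 := by
      simp only [dotProduct, Fin.sum_univ_two]
      have a := analyticAt_pi_iff.1 hζa
      have b := analyticAt_pi_iff.1 hsa
      exact analyticAt_const.mul (((a 0).mul (b 0)).add ((a 1).mul (b 1)))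
    have hhc : ContDiffAt ℝ 2 (fun z : ℂ => (-2 * (ζ (p + z • d) ⬝ᵥ s (p + z • d))).re) 0 :=
      Complex.reCLM.contDiff.contDiffAt.comp 0 (hha.contDiffAt.restrict_scalars ℝ)
    have hnc : ContDiffAt ℝ 2 (fun z : ℂ => hNormSq H α (p + z • d) (s (p + z • d))) 0 := by
      unfold hNormSq
      refine ContDiffAt.comp (g := Complex.reCLM)
        (f := fun z : ℂ => ∑ i, ∑ j, H α (p + z • d) i j * s (p + z • d) i *
          conj (s (p + z • d) j)) (0 : ℂ) Complex.reCLM.contDiff.contDiffAt ?_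
      have b := contDiffAt_pi.1 hsc
      refine ContDiffAt.sum fun i _ => ContDiffAt.sum fun j _ => ?_
      exact ((hM i j).mul (b i)).mul (Complex.conjCLE.contDiff.contDiffAt.comp 0 (b j))
    have hsum := leviLine_nonneg (f := fun z : ℂ =>
      (dual (H α (p + z • d)) (ζ (p + z • d)) (ζ (p + z • d))).re +
        (-2 * (ζ (p + z • d) ⬝ᵥ s (p + z • d))).re + hNormSq H α (p + z • d) (s (p + z • d)))
      ((hφ.add hhc).add hnc).continuousAt ?_ ?_
    · rw [leviLine_add (hφ.add hhc) hnc, leviLine_add hφ hhc, leviLine_re hha] at hsum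
      linarith
    · simp only [zero_smul, add_zero, hNormSq]
      rw [← levi_expand (hH.posDef α p), hsp, star_star, Matrix.mulVec_mulVec,
        Matrix.mul_nonsing_inv _ hu, Matrix.one_mulVec, sub_self]
      simp [dual]
    · intro z
      simp only [hNormSq]
      rw [← levi_expand (hH.posDef α _)]
      exact dual_nonneg (hH.posDef α _) _

end Crest.Agent.R258

end
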