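import Crest.Agent.R258.FormBasic

/-!
# Row 258 — ultralimit of normalised forms
-/

set_option autoImplicit false

noncomputable section

namespace Crest.Agent.R258

open Filter Topology
open scoped ComplexConjugate

private theorem lim_bound_x {ξ : NN} (h0 : ξ ∈ RX0) {a : ℤ} (h1 : mon a 0 • ξ ∈ RX1) (s : ℝ) :
    ∃ C : ℝ, 0 ≤ C ∧ ∀ (ε : ℝ), 0 ≤ ε → ε ≤ 1 → ∀ T : Form ε, ∀ t : ℝ,
      T.N s t ξ ≤ C * T.N 0 t ξ := by
  rcases le_total s 0 with hs | hs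
  · refine ⟨1, zero_le_one, fun ε _ _ T t => ?_⟩
    rw [one_mul]
    exact T.monox0 t ξ h0 hs
  · refine ⟨Real.exp (2 * s - 2 * a * s), (Real.exp_pos _).le, fun ε hε0 hε1 T t => ?_⟩
    have h : Real.exp (-2 * ε * s) * T.N s t (mon a 0 • ξ) ≤
        Real.exp (-2 * ε * 0) * T.N 0 t (mon a 0 • ξ) := T.monox1 t _ h1 hs
    rw [T.N_mon, T.N_mon] at h
    simp only [mul_zero, Real.exp_zero, one_mul, Int.cast_zero, zero_mul, add_zero] at h
    rw [← mul_assoc, ← Real.exp_add] at h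
    have hN := T.N_nonneg 0 t ξ
    have h2 : T.N s t ξ ≤ Real.exp (2 * ε * s - 2 * a * s) * T.N 0 t ξ := by
      have e : T.N s t ξ = Real.exp (2 * ε * s - 2 * a * s) *
          (Real.exp (-2 * ε * s + 2 * a * s) * T.N s t ξ) := by
        rw [← mul_assoc, ← Real.exp_add]
        have : 2 * ε * s - 2 * a * s + (-2 * ε * s + 2 * a * s) = 0 := by ring
        rw [this, Real.exp_zero, one_mul]
      rw [e]
      exact mul_le_mul_of_nonneg_left h (Real.exp_pos _).le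
    refine h2.trans (mul_le_mul_of_nonneg_right (Real.exp_le_exp.2 ?_) hN)
    nlinarith

private theorem lim_bound_y {ξ : NN} (h0 : ξ ∈ RY0) {a : ℤ} (h1 : mon 0 a • ξ ∈ RY1) (t : ℝ) :
    ∃ C : ℝ, 0 ≤ C ∧ ∀ (ε : ℝ), 0 ≤ ε → ε ≤ 1 → ∀ T : Form ε, ∀ s : ℝ,
      T.N s t ξ ≤ C * T.N s 0 ξ := by
  rcases le_total t 0 with hs | hs
  · refine ⟨1, zero_le_one, fun ε _ _ T s => ?_⟩
    rw [one_mul]
    exact T.monoy0 s ξ h0 hs
  · refine ⟨Real.exp (2 * t - 2 * a * t), (Real.exp_pos _).le, fun ε hε0 hε1 T s => ?_⟩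
    have h : Real.exp (-2 * ε * t) * T.N s t (mon 0 a • ξ) ≤
        Real.exp (-2 * ε * 0) * T.N s 0 (mon 0 a • ξ) := T.monoy1 s _ h1 hs
    rw [T.N_mon, T.N_mon] at h
    simp only [mul_zero, Real.exp_zero, one_mul, Int.cast_zero, zero_mul, add_zero,
      zero_add] at h
    rw [← mul_assoc, ← Real.exp_add] at h
    have hN := T.N_nonneg s 0 ξ
    have h2 : T.N s t ξ ≤ Real.exp (2 * ε * t - 2 * a * t) * T.N s 0 ξ := by
      have e : T.N s t ξ = Real.exp (2 * ε * t - 2 * a * t) *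
          (Real.exp (-2 * ε * t + 2 * a * t) * T.N s t ξ) := by
        rw [← mul_assoc, ← Real.exp_add]
        have : 2 * ε * t - 2 * a * t + (-2 * ε * t + 2 * a * t) = 0 := by ring
        rw [this, Real.exp_zero, one_mul]
      rw [e]
      exact mul_le_mul_of_nonneg_left h (Real.exp_pos _).le
    refine h2.trans (mul_le_mul_of_nonneg_right (Real.exp_le_exp.2 ?_) hN)
    nlinarith

private theorem lim_bound_xy {ξ : NN} (h0 : ξ ∈ RX0) {a : ℤ} (h1 : mon a 0 • ξ ∈ RX1)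
    (h2 : ξ ∈ RY0) {b : ℤ} (h3 : mon 0 b • ξ ∈ RY1) (s t : ℝ) :
    ∃ C : ℝ, 0 ≤ C ∧ ∀ (ε : ℝ), 0 ≤ ε → ε ≤ 1 → ∀ T : Form ε, T.N s t ξ ≤ C * T.N 0 0 ξ := by
  obtain ⟨C, hC, h⟩ := lim_bound_x h0 h1 s
  obtain ⟨D, hD, h'⟩ := lim_bound_y h2 h3 t
  refine ⟨C * D, mul_nonneg hC hD, fun ε hε0 hε1 T => (h ε hε0 hε1 T t).trans ?_⟩
  rw [mul_assoc]
  exact mul_le_mul_of_nonneg_left (h' ε hε0 hε1 T 0) hC

private theorem lim_bound_smul (s t : ℝ) (f : A) : ∃ C : ℝ, 0 ≤ C ∧ ∀ (ε : ℝ) (T : Form ε)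
    (ξ : NN), T.N s t (f • ξ) ≤ C * T.N s t ξ := by
  induction f using A_induction with
  | h0 =>
    refine ⟨0, le_rfl, fun ε T ξ => ?_⟩
    rw [zero_smul, Form.N, T.zero_left]; simp
  | hadd f g hf hg =>
    obtain ⟨C, hC, hf⟩ := hf
    obtain ⟨D, hD, hg⟩ := hg
    refine ⟨2 * C + 2 * D, by positivity, fun ε T ξ => ?_⟩
    have := T.N_add_le s t (f • ξ) (g • ξ)
    have h1 := hf ε T ξ
    have h2 := hg ε T ξ
    rw [add_smul]; nlinarith
  | hsmul c f hf =>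
    obtain ⟨C, hC, hf⟩ := hf
    refine ⟨‖c‖ ^ 2 * C, by positivity, fun ε T ξ => ?_⟩
    rw [smul_assoc, T.N_smul, mul_assoc]
    exact mul_le_mul_of_nonneg_left (hf ε T ξ) (by positivity)
  | hmon m n => exact ⟨_, (Real.exp_pos _).le, fun ε T ξ => (T.N_mon s t m n ξ).le⟩

/-- uniform bound of a form with `0 ≤ ε ≤ 1` in terms of its normalisation at `(0,0)` -/
theorem form_bound (s t : ℝ) (ξ : NN) : ∃ C : ℝ, ∀ (ε : ℝ), 0 ≤ ε → ε ≤ 1 → ∀ T : Form ε,
    T.N s t ξ ≤ C * (T.N 0 0 e2 + T.N 0 0 uu) := by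
  obtain ⟨C1, hC1, h1⟩ := lim_bound_xy e2_mem_RX0 (a := 0) (by simpa using e2_mem_RX1)
    e2_mem_RY0 e2_mem_RY1 s t
  obtain ⟨C2, hC2, h2⟩ := lim_bound_xy uu_mem_RX0 uu_mem_RX1 uu_mem_RY0 uu_mem_RY1 s t
  obtain ⟨D1, hD1, g1⟩ := lim_bound_smul s t ξ.1
  obtain ⟨D2, hD2, g2⟩ := lim_bound_smul s t ξ.2
  refine ⟨2 * (D1 * C1) + 2 * (D2 * C2), fun ε hε0 hε1 T => ?_⟩
  have h := T.N_add_le s t (ξ.1 • e2) (ξ.2 • uu)
  rw [← eq_smul_e2_add_smul_uu] at h
  have a1 : T.N s t (ξ.1 • e2) ≤ D1 * C1 * T.N 0 0 e2 := by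
    rw [mul_assoc]
    exact (g1 ε T e2).trans (mul_le_mul_of_nonneg_left (h1 ε hε0 hε1 T) hD1)
  have a2 : T.N s t (ξ.2 • uu) ≤ D2 * C2 * T.N 0 0 uu := by
    rw [mul_assoc]
    exact (g2 ε T uu).trans (mul_le_mul_of_nonneg_left (h2 ε hε0 hε1 T) hD2)
  have b1 := mul_nonneg (mul_nonneg hD1 hC1) (T.N_nonneg 0 0 uu)
  have b2 := mul_nonneg (mul_nonneg hD2 hC2) (T.N_nonneg 0 0 e2)
  nlinarith

/-- rescaling a form by a positive constant -/
private def limScale {ε : ℝ} (T : Form ε) (c : ℝ) (hc : 0 < c) : Form ε where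
  B s t ξ η := (c : ℂ) * T.B s t ξ η
  add_left s t ξ ξ' η := by rw [T.add_left, mul_add]
  smul_left s t d ξ η := by rw [T.smul_left]; ring
  herm s t ξ η := by rw [T.herm, map_mul, Complex.conj_ofReal]
  psd s t ξ := by rw [Complex.re_ofReal_mul]; exact mul_nonneg hc.le (T.psd s t ξ)
  mul_mon s t m n ξ η := by rw [T.mul_mon]; ring
  convx t ξ := by
    simp only [Complex.re_ofReal_mul]
    exact (T.convx t ξ).smul hc.le
  monox0 t ξ h := by
    simp only [Complex.re_ofReal_mul]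
    exact (T.monox0 t ξ h).const_mul hc.le
  monox1 t ξ h := by
    simp only [Complex.re_ofReal_mul, mul_left_comm _ c]
    exact (T.monox1 t ξ h).const_mul hc.le
  monoy0 s ξ h := by
    simp only [Complex.re_ofReal_mul]
    exact (T.monoy0 s ξ h).const_mul hc.le
  monoy1 s ξ h := by
    simp only [Complex.re_ofReal_mul, mul_left_comm _ c]
    exact (T.monoy1 s ξ h).const_mul hc.le
  pos := by
    simp only [Complex.re_ofReal_mul]
    rw [← mul_add]; exact mul_pos hc T.pos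

private theorem lim_normalise {ε : ℝ} (h : Nonempty (Form ε)) :
    ∃ T : Form ε, T.N 0 0 e2 + T.N 0 0 uu = 1 := by
  obtain ⟨T⟩ := h
  refine ⟨limScale T _ (inv_pos.2 T.pos), ?_⟩
  simp only [Form.N, limScale, Complex.re_ofReal_mul]
  rw [← mul_add]
  exact inv_mul_cancel₀ T.pos.ne'

private theorem lim_exists (u : ℕ → ℂ) (C : ℝ) (h : ∀ k, ‖u k‖ ≤ C) :
    ∃ z, Tendsto u (hyperfilter ℕ : Filter ℕ) (𝓝 z) := by
  obtain ⟨z, -, hz⟩ := (isCompact_closedBall (0 : ℂ) C).ultrafilter_le_nhds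
    ((hyperfilter ℕ).map u) (by
      rw [Ultrafilter.coe_map, le_principal_iff, mem_map]
      exact Eventually.of_forall fun k => by simpa using h k)
  exact ⟨z, hz⟩

theorem form_limit (h : ∀ k : ℕ, Nonempty (Form (1 / ((k : ℝ) + 1)))) : Nonempty (Form 0) := by
  choose T hT using fun k => lim_normalise (h k)
  have hε0 : ∀ k : ℕ, (0 : ℝ) ≤ 1 / ((k : ℝ) + 1) := fun k => by positivity
  have hε1 : ∀ k : ℕ, 1 / ((k : ℝ) + 1) ≤ 1 := fun k => by
    rw [div_le_one (by positivity)]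
    have : (0 : ℝ) ≤ k := Nat.cast_nonneg k
    linarith
  have hex : ∀ s t ξ η, ∃ z, Tendsto (fun k => (T k).B s t ξ η) (hyperfilter ℕ : Filter ℕ)
      (𝓝 z) := by
    intro s t ξ η
    obtain ⟨C, hC⟩ := form_bound s t ξ
    obtain ⟨D, hD⟩ := form_bound s t η
    refine lim_exists _ (Real.sqrt (D * C)) fun k => ?_
    have h1 := hC _ (hε0 k) (hε1 k) (T k)
    have h2 := hD _ (hε0 k) (hε1 k) (T k)
    rw [hT k, mul_one] at h1 h2
    refine Real.le_sqrt_of_sq_le (((T k).cs s t ξ η).trans ?_)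
    exact mul_le_mul h2 h1 ((T k).N_nonneg _ _ _) (((T k).N_nonneg _ _ _).trans h2)
  choose B hB using hex
  have hre : ∀ s t ξ, Tendsto (fun k => ((T k).B s t ξ ξ).re) (hyperfilter ℕ : Filter ℕ)
      (𝓝 (B s t ξ ξ).re) := fun s t ξ => (Complex.continuous_re.tendsto _).comp (hB s t ξ ξ)
  have hε : Tendsto (fun k : ℕ => 1 / ((k : ℝ) + 1)) (hyperfilter ℕ : Filter ℕ) (𝓝 0) :=
    tendsto_one_div_add_atTop_nhds_zero_nat.mono_left Nat.hyperfilter_le_atTop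
  have hexp : ∀ s : ℝ, Tendsto (fun k : ℕ => Real.exp (-2 * (1 / ((k : ℝ) + 1)) * s))
      (hyperfilter ℕ : Filter ℕ) (𝓝 (Real.exp (-2 * 0 * s))) := fun s =>
    (Real.continuous_exp.tendsto _).comp ((hε.const_mul _).mul_const _)
  refine ⟨⟨B, ?_, ?_, ?_, ?_, ?_, ?_, ?_, ?_, ?_, ?_, ?_⟩⟩
  · intro s t ξ ξ' η
    refine tendsto_nhds_unique (hB s t (ξ + ξ') η) ?_
    simp only [Form.add_left]
    exact (hB s t ξ η).add (hB s t ξ' η)
  · intro s t c ξ η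
    refine tendsto_nhds_unique (hB s t (c • ξ) η) ?_
    simp only [Form.smul_left]
    exact (hB s t ξ η).const_mul c
  · intro s t ξ η
    refine tendsto_nhds_unique (hB s t η ξ) ?_
    exact ((Complex.continuous_conj.tendsto _).comp (hB s t ξ η)).congr
      fun k => ((T k).herm s t ξ η).symm
  · intro s t ξ
    exact ge_of_tendsto' (hre s t ξ) fun k => (T k).psd s t ξ
  · intro s t m n ξ η
    refine tendsto_nhds_unique (hB s t (mon m n • ξ) (mon m n • η)) ?_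
    simp only [Form.mul_mon]
    exact (hB s t ξ η).const_mul _
  · intro t ξ
    refine ⟨convex_univ, fun x _ y _ a b ha hb hab => ?_⟩
    exact le_of_tendsto_of_tendsto' (hre _ t ξ)
      (((hre x t ξ).const_smul a).add ((hre y t ξ).const_smul b))
      fun k => ((T k).convx t ξ).2 (Set.mem_univ x) (Set.mem_univ y) ha hb hab
  · intro t ξ hξ x y hxy
    exact le_of_tendsto_of_tendsto' (hre x t ξ) (hre y t ξ) fun k => (T k).monox0 t ξ hξ hxy
  · intro t ξ hξ x y hxy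
    exact le_of_tendsto_of_tendsto' ((hexp y).mul (hre y t ξ)) ((hexp x).mul (hre x t ξ))
      fun k => (T k).monox1 t ξ hξ hxy
  · intro s ξ hξ x y hxy
    exact le_of_tendsto_of_tendsto' (hre s x ξ) (hre s y ξ) fun k => (T k).monoy0 s ξ hξ hxy
  · intro s ξ hξ x y hxy
    exact le_of_tendsto_of_tendsto' ((hexp y).mul (hre s y ξ)) ((hexp x).mul (hre s x ξ))
      fun k => (T k).monoy1 s ξ hξ hxy
  · have h1 : (B 0 0 e2 e2).re + (B 0 0 uu uu).re = 1 := by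
      refine tendsto_nhds_unique ((hre 0 0 e2).add (hre 0 0 uu)) ?_
      exact tendsto_const_nhds.congr fun k => (hT k).symm
    rw [h1]; exact one_pos

end Crest.Agent.R258

end
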