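import Crest.Agent.R258.Lau

/-!
# Row 258 — separating exponents; no invariant sextic
-/

set_option autoImplicit false

noncomputable section

namespace Crest.Agent.R258

open Polynomial

theorem sep_shift (S : Finset ℤ) (a b : ℤ → ℂ) (μ : ℂ)
    (h : ∀ s : ℝ, ∑ m ∈ S, ((Real.exp (2 * m * s) : ℝ) : ℂ) * (a m + b m * s) = 0) (s : ℝ) :
    ∑ m ∈ S, ((Real.exp (2 * m * s) : ℝ) : ℂ) *
      ((((Real.exp (2 * m) : ℝ) - μ) * a m + (Real.exp (2 * m) : ℝ) * b m) +
        (((Real.exp (2 * m) : ℝ) - μ) * b m) * s) = 0 := by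
  have h1 := h (s + 1)
  have h2 := h s
  rw [← sub_zero (0 : ℂ), ← mul_zero μ]
  nth_rewrite 1 [mul_zero μ]
  nth_rewrite 1 [← h1]
  rw [← h2, Finset.mul_sum, ← Finset.sum_sub_distrib]
  refine Finset.sum_congr rfl fun m _ => ?_
  rw [mul_add (2 * (m : ℝ)), mul_one, Real.exp_add]
  push_cast
  ring

theorem exp_indep (S : Finset ℤ) (a b : ℤ → ℂ)
    (h : ∀ s : ℝ, ∑ m ∈ S, ((Real.exp (2 * m * s) : ℝ) : ℂ) * (a m + b m * s) = 0) :
    ∀ m ∈ S, a m = 0 ∧ b m = 0 := by
  induction S using Finset.induction_on generalizing a b with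
  | empty => simp
  | insert m₀ S hm ih =>
    have h2 := sep_shift _ _ _ (Real.exp (2 * m₀) : ℝ) (sep_shift _ _ _ (Real.exp (2 * m₀) : ℝ) h)
    simp only [Finset.sum_insert hm, sub_self, zero_mul, mul_zero, add_zero, zero_add] at h2
    have h3 : ∀ m ∈ S, a m = 0 ∧ b m = 0 := by
      intro m hmS
      have hne : ((Real.exp (2 * m) : ℝ) : ℂ) - (Real.exp (2 * m₀) : ℝ) ≠ 0 := by
        rw [sub_ne_zero, Ne, Complex.ofReal_inj, Real.exp_eq_exp]
        intro e
        have : (m : ℝ) = m₀ := by linarith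
        exact hm ((Int.cast_injective this) ▸ hmS)
      obtain ⟨h4, h5⟩ := ih _ _ h2 m hmS
      have hb : b m = 0 := by simpa only [mul_eq_zero, hne, false_or] using h5
      refine ⟨?_, hb⟩
      simpa only [hb, mul_zero, add_zero, mul_eq_zero, hne, false_or] using h4
    have h4 : ∀ s : ℝ, a m₀ + b m₀ * s = 0 := by
      intro s
      have := h s
      rw [Finset.sum_insert hm, Finset.sum_eq_zero fun m hmS => by simp [h3 m hmS], add_zero, mul_eq_zero] at this
      exact this.resolve_left (by exact_mod_cast (Real.exp_pos _).ne')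
    have h5 : a m₀ = 0 := by simpa using h4 0
    have h6 : b m₀ = 0 := by simpa [h5] using h4 1
    intro m hm'
    rcases Finset.mem_insert.1 hm' with rfl | hm'
    · exact ⟨h5, h6⟩
    · exact h3 m hm'

theorem sep (L : ℝ → A →ₗ[ℂ] ℂ) (a b : ℤ → ℤ → ℂ)
    (hL : ∀ (s : ℝ) (m n : ℤ),
      L s (mon m n) = ((Real.exp (2 * m * s) : ℝ) : ℂ) * (a m n + b m n * s))
    (P : ℕ → ℂ[X])
    (h : ∀ (j : ℤ) (s : ℝ),
      ∑ n ∈ Finset.range 7, L s (mon j (-(n : ℤ)) * aeval (mon 1 0) (P n)) = 0) (m : ℤ) :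
    ∑ n ∈ Finset.range 7, a m (-(n : ℤ)) • P n = 0 ∧
      ∑ n ∈ Finset.range 7, b m (-(n : ℤ)) • P n = 0 := by
  have key : ∀ r : ℕ, ∑ n ∈ Finset.range 7, a m (-(n : ℤ)) * (P n).coeff r = 0 ∧
      ∑ n ∈ Finset.range 7, b m (-(n : ℤ)) * (P n).coeff r = 0 := by
    intro r
    obtain ⟨D, hD, hr⟩ : ∃ D : ℕ, (∀ n ∈ Finset.range 7, (P n).natDegree < D) ∧ r < D :=
      ⟨(Finset.range 7).sup (fun n => (P n).natDegree) + r + 1, fun n hn => by
        have := Finset.le_sup (f := fun n => (P n).natDegree) hn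
        omega, by omega⟩
    have := exp_indep ((Finset.range D).image fun i : ℕ => m - r + i)
      (fun k => ∑ n ∈ Finset.range 7, a k (-(n : ℤ)) * (P n).coeff (k - (m - r)).toNat)
      (fun k => ∑ n ∈ Finset.range 7, b k (-(n : ℤ)) * (P n).coeff (k - (m - r)).toNat) (fun s => by
        rw [Finset.sum_image fun i _ j _ e => by simpa using e, ← h (m - r) s]
        simp only [add_sub_cancel_left, Int.toNat_natCast, Finset.sum_mul, ← Finset.sum_add_distrib,
          Finset.mul_sum]
        rw [Finset.sum_comm]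
        refine Finset.sum_congr rfl fun n hn => ?_
        rw [aeval_eq_sum_range' (hD n hn), Finset.mul_sum, map_sum]
        refine Finset.sum_congr rfl fun i _ => ?_
        rw [mul_smul_comm, map_smul, mon_pow, mon_mul, hL]
        simp only [mul_one, mul_zero, add_zero, smul_eq_mul]
        ring) m (Finset.mem_image.2 ⟨r, Finset.mem_range.2 hr, by ring⟩)
    simpa using this
  constructor
  · ext r
    simpa using (key r).1
  · ext r
    simpa using (key r).2

def qP : ℂ[X] := q3 (C om) 1 X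
def pP : ℂ[X] := p3 (C om) 1 X

/-- the group generated by the two Möbius maps has no invariant sextic -/
theorem no_inv (c : ℕ → ℂ)
    (h2 : ∑ n ∈ Finset.range 7, c n • ((C om * X) ^ n - X ^ n : ℂ[X]) = 0)
    (h3 : ∑ n ∈ Finset.range 7, c n • (qP ^ 10 * (qP ^ (6 - n) * pP ^ n - X ^ n)) = 0) :
    ∀ n < 7, c n = 0 := by
  have hw := om_sq
  have k2 : ∀ n < 7, c n * (om ^ n - 1) = 0 := by
    intro n hn
    have := congrArg (coeff · n) h2
    simp only [finsetSum_coeff, coeff_smul, coeff_sub, mul_pow, ← C_pow, coeff_C_mul, coeff_X_pow, smul_eq_mul,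
      coeff_zero] at this
    rw [Finset.sum_eq_single n (fun k _ hk => by simp [hk.symm]) (fun h => absurd (Finset.mem_range.2 hn) h)] at this
    simpa using this
  have c1 : c 1 = 0 := by have := k2 1 (by norm_num); grind
  have c2 : c 2 = 0 := by have := k2 2 (by norm_num); grind
  have c3 : c 3 = 0 := by have := k2 3 (by norm_num); grind
  have c4 : c 4 = 0 := by have := k2 4 (by norm_num); grind
  have c5 : c 5 = 0 := by have := k2 5 (by norm_num); grind
  have k3 : ∀ x : ℂ, -1 + 3 * om + 2 * x ≠ 0 →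
      c 0 * ((-1 + 3 * om + 2 * x) ^ 6 - 1) + c 6 * ((3 + (2 - 3 * om) * x) ^ 6 - x ^ 6) = 0 := by
    intro x hx
    have := congrArg (eval x) h3
    simp only [Finset.sum_range_succ, Finset.sum_range_zero, c1, c2, c3, c4, c5, zero_smul, add_zero, zero_add,
      qP, pP, q3, p3] at this
    simp only [eval_add, eval_smul, eval_mul, eval_pow, eval_sub, eval_X, eval_C, eval_neg, eval_one, eval_ofNat,
      eval_zero, smul_eq_mul] at this
    refine mul_left_cancel₀ (pow_ne_zero 10 hx) ?_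
    linear_combination this
  have e0 := k3 0 (by grind)
  have e1 := k3 1 (by grind)
  have c0 : c 0 = 0 := by grind
  have c6 : c 6 = 0 := by grind
  intro n hn
  interval_cases n <;> assumption

end Crest.Agent.R258

end
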