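import Crest.Agent.R258.Key
import Crest.Agent.R258.Sep

/-!
# Row 258 — there is no `Form 0`
-/

set_option autoImplicit false

noncomputable section

namespace Crest.Agent.R258

namespace Form

variable (T : Form 0)

/-- `f ↦ B s t (f • ξ) η` as a linear map -/
def no0L (s t : ℝ) (ξ η : NN) : A →ₗ[ℂ] ℂ where
  toFun f := T.B s t (f • ξ) η
  map_add' f g := by rw [add_smul, T.add_left]
  map_smul' c f := by rw [smul_assoc, T.smul_left]; rfl

theorem no0L_apply (s t : ℝ) (ξ η : NN) (f : A) : T.no0L s t ξ η f = T.B s t (f • ξ) η := rfl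

open Polynomial in
theorem N_e1_eq_zero (s t : ℝ) : T.N s t e1 = 0 := by
  choose a b hab using T.mon_e2_e1 t
  have hL : ∀ (s : ℝ) (m n : ℤ), T.no0L s t e2 e1 (mon m n) =
      ((Real.exp (2 * m * s) : ℝ) : ℂ) * (a m n + b m n * s) := fun s m n => hab m n s
  have hm : ∀ (j : ℤ) (n : ℕ), mon j (-(n : ℤ)) = mon j 0 * mon 0 (-(n : ℤ)) := by
    intro j n; rw [mon_mul]; simp
  have hC : aeval (mon 1 0) (C om : ℂ[X]) = omA := by simp [omA]
  have hq : aeval (mon 1 0) qP = q3 omA 1 (mon 1 0) := by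
    rw [qP, map_q3, hC, map_one, aeval_X]
  have hp : aeval (mon 1 0) pP = p3 omA 1 (mon 1 0) := by
    rw [pP, map_p3, hC, map_one, aeval_X]
  have h2 := sep (fun s => T.no0L s t e2 e1) a b hL (fun n => (C om * X) ^ n - X ^ n) (fun j s => by
    have k1 := T.key1 s t (mon_mem_Yp j le_rfl) (mon_mem_Ym j le_rfl)
    have k2 := T.key2 s t (mon_mem_Yp j le_rfl) (mon_mem_Ym j le_rfl)
    rw [← sub_eq_zero.2 (k2.symm.trans k1), ← Finset.sum_sub_distrib]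
    refine Finset.sum_congr rfl fun n _ => ?_
    rw [← no0L_apply, ← no0L_apply, ← map_sub, hm]
    congr 1
    simp only [map_sub, map_pow, map_mul, hC, aeval_X]
    ring)
  have h3 := sep (fun s => T.no0L s t e2 e1) a b hL (fun n => qP ^ 10 * (qP ^ (6 - n) * pP ^ n - X ^ n))
    (fun j s => by
      have g1 : mon j 0 * q3 omA 1 (mon 1 0) ^ 10 ∈ Yp :=
        Yp_mul (mon_mem_Yp j le_rfl) (pow_mem (q3_mem YpA one_mem_Yp (mon_mem_Yp 1 le_rfl)) 10)
      have g2 : mon j 0 * q3 omA 1 (mon 1 0) ^ 10 ∈ Ym :=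
        Ym_mul (mon_mem_Ym j le_rfl) (pow_mem (q3_mem YmA one_mem_Ym (mon_mem_Ym 1 le_rfl)) 10)
      have k1 := T.key1 s t g1 g2
      have k3 := T.key3 s t (mon_mem_Yp j le_rfl) (mon_mem_Ym j le_rfl)
      rw [← sub_eq_zero.2 (k3.symm.trans k1), ← Finset.sum_sub_distrib]
      refine Finset.sum_congr rfl fun n _ => ?_
      rw [← no0L_apply, ← no0L_apply, ← map_sub, hm]
      congr 1
      simp only [map_sub, map_pow, map_mul, hq, hp, aeval_X]
      ring)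
  have ha : ∀ (m : ℤ) (n : ℕ), n < 7 → a m (-(n : ℤ)) = 0 := fun m =>
    no_inv (fun n => a m (-(n : ℤ))) (h2 m).1 (h3 m).1
  have hb : ∀ (m : ℤ) (n : ℕ), n < 7 → b m (-(n : ℤ)) = 0 := fun m =>
    no_inv (fun n => b m (-(n : ℤ))) (h2 m).2 (h3 m).2
  have k1 := T.key1 s t one_mem_Yp one_mem_Ym
  rw [one_smul] at k1
  rw [N, k1, Finset.sum_eq_zero, Complex.zero_re]
  intro n hn
  have hn' := Finset.mem_range.1 hn
  rw [one_mul, mon_pow, mon_mul, mul_zero, zero_add, hab, ha _ n hn', hb _ n hn']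
  simp

theorem N_e2_eq_zero_of (h1 : ∀ s t, T.N s t e1 = 0) (s t : ℝ) : T.N s t e2 = 0 := by
  obtain ⟨kap, hk⟩ : ∃ kap : A, kap = ∑ m ∈ Finset.range 9, mon (-(m : ℤ)) m := ⟨_, rfl⟩
  have hkap : (mon 1 0 - mon 0 1) * kap = mon 1 0 - mon (-8) 9 := by
    rw [hk]
    simp only [Finset.sum_range_succ, Finset.sum_range_zero, sub_mul, mul_add, mon_mul, zero_add]
    norm_num
  have hx0 : mon 1 0 ∈ XpA := mon_mem_Xp 0 zero_le_one
  have hy0 : mon 0 1 ∈ XpA := mon_mem_Xp 1 le_rfl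
  have hx1 : mon (-1) 0 ∈ XmA := mon_mem_Xm 0 (by norm_num)
  have hy1 : mon 0 1 ∈ XmA := mon_mem_Xm 1 le_rfl
  have hxx := mon_neg_one_mul_x
  -- the section `kap * FA • uu`
  obtain ⟨F1, hF1⟩ : ∃ F1 : A, F1 = L2 omA 1 (mon 1 0) 1 (mon 0 1) * L3 omA 1 (mon 1 0) 1 (mon 0 1) := ⟨_, rfl⟩
  have hF : FA = (mon 0 1 - mon 1 0) * F1 := by
    rw [hF1, FA, Fh, L1]; ring
  have hF1p : F1 ∈ XpA := by
    rw [hF1, L2, L3]
    exact mul_mem (sub_mem (mul_mem (one_mem _) hy0) (mul_mem (mul_mem (omA_mem _) hx0) (one_mem _)))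
      (sub_mem (mul_mem (q3_mem _ (one_mem _) hx0) hy0) (mul_mem (p3_mem _ (one_mem _) hx0) (one_mem _)))
  have hF1m : mon (-1) 0 ^ 2 * F1 ∈ XmA := by
    have : mon (-1) 0 ^ 2 * F1 =
        L2 omA (mon (-1) 0) 1 1 (mon 0 1) * L3 omA (mon (-1) 0) 1 1 (mon 0 1) := by
      have e2 : L2 omA (mon (-1) 0) 1 1 (mon 0 1) = mon (-1) 0 * L2 omA 1 (mon 1 0) 1 (mon 0 1) := by
        simp only [L2]; linear_combination omA * hxx
      have e3 : L3 omA (mon (-1) 0) 1 1 (mon 0 1) = mon (-1) 0 * L3 omA 1 (mon 1 0) 1 (mon 0 1) := by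
        simp only [L3, q3, p3]; linear_combination (2 - 3 * omA - 2 * mon 0 1) * hxx
      rw [e2, e3, hF1]; ring
    rw [this, L2, L3]
    exact mul_mem (sub_mem (mul_mem hx1 hy1) (mul_mem (mul_mem (omA_mem _) (one_mem _)) (one_mem _)))
      (sub_mem (mul_mem (q3_mem _ hx1 (one_mem _)) hy1) (mul_mem (p3_mem _ hx1 (one_mem _)) (one_mem _)))
  have hA : T.no0L s t uu e2 (kap * FA) = 0 := by
    have e : kap * FA = mon (-1) 0 * (mon (-2) 9 * (mon (-1) 0 ^ 2 * F1) * mon (-3) 0) - mon 1 0 * F1 := by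
      have e' : mon (-8) 9 = mon (-1) 0 * mon (-2) 9 * mon (-1) 0 ^ 2 * mon (-3) 0 := by
        simp only [mon_pow, mon_mul]; norm_num
      rw [hF]
      linear_combination (-F1) * hkap + F1 * e'
    rw [e, map_sub, no0L_apply, no0L_apply, mul_smul, mul_smul, mul_smul (mon 1 0),
      T.vanX1 s t (smul_mem_RX1 (Xm_mul (mon_mem_Xm 9 (by norm_num)) hF1m) uu_mem_RX1),
      T.vanX0 s t (smul_mem_RX0 hF1p uu_mem_RX0), sub_zero]
  have hB : T.B s t (kap • e1) e2 = 0 := T.B_eq_zero_of_left s t (T.N_smul_eq_zero s t (h1 s t) kap) e2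
  have hC : T.no0L s t e2 e2 (kap * PhiA) = 0 := by
    rw [no0L_apply, mul_smul, FA_smul_uu, smul_sub, ← T.lin_apply, map_sub, T.lin_apply, hB, zero_sub,
      neg_eq_zero, ← mul_smul] at hA
    exact hA
  obtain ⟨Ψ, hΨ⟩ : ∃ Ψ : A, Ψ = A0c1 omA 1 (mon 1 0) + A0c2 omA 1 (mon 1 0) * (mon 0 1 + mon 1 0) := ⟨_, rfl⟩
  have hΦ : PhiA - 1 = (mon 0 1 - mon 1 0) * Ψ := by
    have := A0h_g1 (w := omA) 1 (mon 1 0)
    rw [A0h] at this
    rw [hΨ, PhiA, A0h]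
    linear_combination this
  have hΨp : Ψ ∈ XpA := by
    rw [hΨ]
    exact add_mem (A0c1_mem _ (one_mem _) hx0) (mul_mem (A0c2_mem _ (one_mem _) hx0) (add_mem hy0 hx0))
  have hΨm : mon (-1) 0 ^ 7 * Ψ ∈ XmA := by
    have c1 := A0c1_hom (w := omA) (mon (-1) 0) 1 (mon 1 0)
    have c2 := A0c2_hom (w := omA) (mon (-1) 0) 1 (mon 1 0)
    rw [hxx, mul_one] at c1 c2
    have : mon (-1) 0 ^ 7 * Ψ = mon (-1) 0 * A0c1 omA (mon (-1) 0) 1 +
        A0c2 omA (mon (-1) 0) 1 * (mon (-1) 0 * mon 0 1 + 1) := by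
      rw [hΨ, c1, c2]
      linear_combination (mon (-1) 0 ^ 6 * A0c2 omA 1 (mon 1 0)) * hxx
    rw [this]
    exact add_mem (mul_mem hx1 (A0c1_mem _ hx1 (one_mem _)))
      (mul_mem (A0c2_mem _ hx1 (one_mem _)) (add_mem (mul_mem hx1 hy1) (one_mem _)))
  have hD : T.no0L s t e2 e2 kap = 0 := by
    have e : kap * PhiA = kap + mon (-1) 0 * (mon 0 9 * (mon (-1) 0 ^ 7 * Ψ)) - mon 1 0 * Ψ := by
      have e' : mon (-8) 9 = mon (-1) 0 * mon 0 9 * mon (-1) 0 ^ 7 := by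
        simp only [mon_pow, mon_mul]; norm_num
      linear_combination kap * hΦ - Ψ * hkap + Ψ * e'
    rw [e, map_sub, map_add, no0L_apply _ _ _ _ _ (_ * _), no0L_apply _ _ _ _ _ (_ * _), mul_smul,
      mul_smul (mon 1 0), T.vanX1 s t (smul_mem_RX1 (Xm_mul (mon_mem_Xm 9 le_rfl) hΨm) e2_mem_RX1),
      T.vanX0 s t (smul_mem_RX0 hΨp e2_mem_RX0), sub_zero, add_zero] at hC
    exact hC
  rw [hk, map_sum, Finset.sum_range_succ', Finset.sum_eq_zero, zero_add, no0L_apply] at hD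
  · simp only [Nat.cast_zero, neg_zero, mon_zero, one_smul] at hD
    rw [N, hD, Complex.zero_re]
  · intro m _
    have e : mon (-((m + 1 : ℕ) : ℤ)) ((m + 1 : ℕ) : ℤ) = mon (-1) 0 * mon (-(m : ℤ)) ((m + 1 : ℕ) : ℤ) := by
      rw [mon_mul]; exact mon_congr (by push_cast; ring) (by simp)
    rw [e, no0L_apply, mul_smul]
    exact T.vanX1 s t (smul_mem_RX1 (mon_mem_Xm _ (by omega)) e2_mem_RX1)

theorem no0_cancel (s t : ℝ) {ξ : NN} {f g : A} {cf cg : ℝ} (hf : T.nrm s t (f • ξ) = cf * T.nrm s t ξ)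
    (hg : T.nrm s t (g • ξ) ≤ cg * T.nrm s t ξ) (hc : cg < cf) (h : T.nrm s t ((f - g) • ξ) = 0) :
    T.nrm s t ξ = 0 := by
  have h1 := T.nrm_add_le s t ((f - g) • ξ) (g • ξ)
  rw [← add_smul, sub_add_cancel, hf, h] at h1
  have h2 := T.nrm_nonneg s t ξ
  nlinarith

theorem no0_nrm (c : ℂ) (m n : ℕ) (ξ : NN) :
    T.nrm (Real.log 4) (Real.log 8) ((algebraMap ℂ A c * mon m n) • ξ) =
      ‖c‖ * (4 ^ m * 8 ^ n) * T.nrm (Real.log 4) (Real.log 8) ξ := by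
  rw [mul_smul, algebraMap_smul, T.nrm_smul, T.nrm_mon, Real.exp_add, Int.cast_natCast, Int.cast_natCast,
    Real.exp_nat_mul, Real.exp_nat_mul, Real.exp_log (by norm_num), Real.exp_log (by norm_num)]
  ring

theorem N_uu_eq_zero_of (h1 : ∀ s t, T.N s t e1 = 0) (h2 : ∀ s t, T.N s t e2 = 0) :
    T.N 0 0 uu = 0 := by
  have hF : T.nrm (Real.log 4) (Real.log 8) (FA • uu) = 0 := by
    rw [T.nrm_eq_zero, FA_smul_uu, sub_eq_add_neg, ← neg_smul]
    have := T.N_add_le (Real.log 4) (Real.log 8) e1 (-PhiA • e2)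
    rw [h1, T.N_smul_eq_zero _ _ (h2 _ _)] at this
    exact le_antisymm (by linarith) (T.N_nonneg _ _ _)
  have hx : ∀ (c : ℂ) ξ, T.nrm (Real.log 4) (Real.log 8) ((algebraMap ℂ A c * mon 1 0) • ξ) =
      ‖c‖ * 4 * T.nrm (Real.log 4) (Real.log 8) ξ := fun c ξ => by simpa using T.no0_nrm c 1 0 ξ
  have hy : ∀ (c : ℂ) ξ, T.nrm (Real.log 4) (Real.log 8) ((algebraMap ℂ A c * mon 0 1) • ξ) =
      ‖c‖ * 8 * T.nrm (Real.log 4) (Real.log 8) ξ := fun c ξ => by simpa using T.no0_nrm c 0 1 ξ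
  have hxy : ∀ (c : ℂ) ξ, T.nrm (Real.log 4) (Real.log 8) ((algebraMap ℂ A c * mon 1 1) • ξ) =
      ‖c‖ * 32 * T.nrm (Real.log 4) (Real.log 8) ξ := fun c ξ => by
    have := T.no0_nrm c 1 1 ξ
    norm_num at this
    exact this
  have h0 : ∀ (c : ℂ) ξ, T.nrm (Real.log 4) (Real.log 8) ((algebraMap ℂ A c) • ξ) =
      ‖c‖ * T.nrm (Real.log 4) (Real.log 8) ξ := fun c ξ => by rw [algebraMap_smul, T.nrm_smul]
  have hm : mon 1 1 = mon 1 0 * mon 0 1 := by rw [mon_mul]; rfl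
  have e : FA = (algebraMap ℂ A 1 * mon 0 1 - algebraMap ℂ A 1 * mon 1 0) *
      ((algebraMap ℂ A 1 * mon 0 1 - algebraMap ℂ A om * mon 1 0) *
        (algebraMap ℂ A 2 * mon 1 1 - (algebraMap ℂ A (1 - 3 * om) * mon 0 1 +
          algebraMap ℂ A 3 + algebraMap ℂ A (2 - 3 * om) * mon 1 0))) := by
    simp only [FA, Fh, L1, L2, L3, q3, p3, omA, map_sub, map_mul, map_one, map_ofNat, hm]
    ring
  rw [e, mul_smul, mul_smul] at hF
  have s1 := T.no0_cancel _ _ (hy 1 _) (hx 1 _).le (by norm_num) hF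
  have s2 := T.no0_cancel _ _ (hy 1 _) (hx om _).le (by rw [norm_om]; norm_num) s1
  have n1 : ‖1 - 3 * om‖ ≤ 4 := by
    have := norm_sub_le 1 (3 * om)
    rw [norm_mul, norm_om] at this
    norm_num at this
    exact this
  have n2 : ‖2 - 3 * om‖ ≤ 5 := by
    have := norm_sub_le 2 (3 * om)
    rw [norm_mul, norm_om] at this
    norm_num at this
    exact this
  have s3 := T.no0_cancel _ _ (cg := 55) (hxy 2 _) (by
    have t1 := T.nrm_add_le (Real.log 4) (Real.log 8)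
      ((algebraMap ℂ A (1 - 3 * om) * mon 0 1 + algebraMap ℂ A 3) • uu) ((algebraMap ℂ A (2 - 3 * om) * mon 1 0) • uu)
    have t2 := T.nrm_add_le (Real.log 4) (Real.log 8)
      ((algebraMap ℂ A (1 - 3 * om) * mon 0 1) • uu) ((algebraMap ℂ A 3) • uu)
    rw [← add_smul] at t1 t2
    rw [hx] at t1
    rw [hy, h0] at t2
    have t3 := T.nrm_nonneg (Real.log 4) (Real.log 8) uu
    have n3 : ‖(3 : ℂ)‖ = 3 := by norm_num
    rw [n3] at t2
    nlinarith) (by norm_num) s2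
  rw [T.nrm_eq_zero] at s3
  have m1 := T.monox0 0 uu uu_mem_RX0 (Real.log_nonneg (by norm_num : (1 : ℝ) ≤ 4))
  have m2 := T.monoy0 (Real.log 4) uu uu_mem_RY0 (Real.log_nonneg (by norm_num : (1 : ℝ) ≤ 8))
  have := T.N_nonneg 0 0 uu
  simp only [N] at *
  linarith

end Form

theorem no_form0 (T : Form 0) : False := by
  have h1 := T.N_e1_eq_zero
  have h2 := T.N_e2_eq_zero_of h1
  have h3 := T.N_uu_eq_zero_of h1 h2
  have := T.pos
  have h4 := h2 0 0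
  simp only [Form.N] at h3 h4
  linarith

end Crest.Agent.R258

end
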