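import Crest.Agent.R258.FormDef

/-!
# Row 258 — regularity (support) lemmas
-/

set_option autoImplicit false

noncomputable section

namespace Crest.Agent.R258

theorem Xp_mul {f g : A} (hf : f ∈ Xp) (hg : g ∈ Xp) : f * g ∈ Xp :=
  mul_mem_sup (fun _ _ _ _ h h' => by simp only [Set.mem_ofPred_eq] at *; omega) hf hg
theorem Xm_mul {f g : A} (hf : f ∈ Xm) (hg : g ∈ Xm) : f * g ∈ Xm :=
  mul_mem_sup (fun _ _ _ _ h h' => by simp only [Set.mem_ofPred_eq] at *; omega) hf hg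
theorem Yp_mul {f g : A} (hf : f ∈ Yp) (hg : g ∈ Yp) : f * g ∈ Yp :=
  mul_mem_sup (fun _ _ _ _ h h' => by simp only [Set.mem_ofPred_eq] at *; omega) hf hg
theorem Ym_mul {f g : A} (hf : f ∈ Ym) (hg : g ∈ Ym) : f * g ∈ Ym :=
  mul_mem_sup (fun _ _ _ _ h h' => by simp only [Set.mem_ofPred_eq] at *; omega) hf hg

theorem mon_mem_Xp {m : ℤ} (n : ℤ) (h : 0 ≤ m) : mon m n ∈ Xp := mon_mem_sup h
theorem mon_mem_Xm {m : ℤ} (n : ℤ) (h : m ≤ 0) : mon m n ∈ Xm := mon_mem_sup h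
theorem mon_mem_Yp (m : ℤ) {n : ℤ} (h : 0 ≤ n) : mon m n ∈ Yp := mon_mem_sup h
theorem mon_mem_Ym (m : ℤ) {n : ℤ} (h : n ≤ 0) : mon m n ∈ Ym := mon_mem_sup h

def XpA : Subalgebra ℂ A := Xp.toSubalgebra (mon_mem_Xp 0 le_rfl) (fun _ _ => Xp_mul)
def XmA : Subalgebra ℂ A := Xm.toSubalgebra (mon_mem_Xm 0 le_rfl) (fun _ _ => Xm_mul)
def YpA : Subalgebra ℂ A := Yp.toSubalgebra (mon_mem_Yp 0 le_rfl) (fun _ _ => Yp_mul)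
def YmA : Subalgebra ℂ A := Ym.toSubalgebra (mon_mem_Ym 0 le_rfl) (fun _ _ => Ym_mul)

section sub
variable (S : Subalgebra ℂ A) {X0 X1 Y0 Y1 : A}

theorem omA_mem : omA ∈ S := S.algebraMap_mem om

theorem Fh_mem (h0 : X0 ∈ S) (h1 : X1 ∈ S) (h2 : Y0 ∈ S) (h3 : Y1 ∈ S) :
    Fh omA X0 X1 Y0 Y1 ∈ S := by
  have := (Fh (⟨omA, omA_mem S⟩ : S) ⟨X0, h0⟩ ⟨X1, h1⟩ ⟨Y0, h2⟩ ⟨Y1, h3⟩).2
  rwa [← Subalgebra.coe_val, map_Fh] at this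

theorem A0h_mem (h0 : X0 ∈ S) (h1 : X1 ∈ S) (h2 : Y0 ∈ S) (h3 : Y1 ∈ S) :
    A0h omA X0 X1 Y0 Y1 ∈ S := by
  have := (A0h (⟨omA, omA_mem S⟩ : S) ⟨X0, h0⟩ ⟨X1, h1⟩ ⟨Y0, h2⟩ ⟨Y1, h3⟩).2
  rwa [← Subalgebra.coe_val, map_A0h] at this

theorem A1h_mem (h0 : X0 ∈ S) (h1 : X1 ∈ S) (h2 : Y0 ∈ S) (h3 : Y1 ∈ S) :
    A1h omA X0 X1 Y0 Y1 ∈ S := by
  have := (A1h (⟨omA, omA_mem S⟩ : S) ⟨X0, h0⟩ ⟨X1, h1⟩ ⟨Y0, h2⟩ ⟨Y1, h3⟩).2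
  rwa [← Subalgebra.coe_val, map_A1h] at this

theorem Psih_mem (h0 : X0 ∈ S) (h1 : X1 ∈ S) (h2 : Y0 ∈ S) (h3 : Y1 ∈ S) :
    Psih omA X0 X1 Y0 Y1 ∈ S := by
  have := (Psih (⟨omA, omA_mem S⟩ : S) ⟨X0, h0⟩ ⟨X1, h1⟩ ⟨Y0, h2⟩ ⟨Y1, h3⟩).2
  rwa [← Subalgebra.coe_val, map_Psih] at this

theorem A0c1_mem (h0 : X0 ∈ S) (h1 : X1 ∈ S) : A0c1 omA X0 X1 ∈ S := by
  have := (A0c1 (⟨omA, omA_mem S⟩ : S) ⟨X0, h0⟩ ⟨X1, h1⟩).2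
  rwa [← Subalgebra.coe_val, map_A0c1] at this

theorem A0c2_mem (h0 : X0 ∈ S) (h1 : X1 ∈ S) : A0c2 omA X0 X1 ∈ S := by
  have := (A0c2 (⟨omA, omA_mem S⟩ : S) ⟨X0, h0⟩ ⟨X1, h1⟩).2
  rwa [← Subalgebra.coe_val, map_A0c2] at this

theorem q3_mem (h0 : X0 ∈ S) (h1 : X1 ∈ S) : q3 omA X0 X1 ∈ S := by
  have := (q3 (⟨omA, omA_mem S⟩ : S) ⟨X0, h0⟩ ⟨X1, h1⟩).2
  rwa [← Subalgebra.coe_val, map_q3] at this

theorem p3_mem (h0 : X0 ∈ S) (h1 : X1 ∈ S) : p3 omA X0 X1 ∈ S := by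
  have := (p3 (⟨omA, omA_mem S⟩ : S) ⟨X0, h0⟩ ⟨X1, h1⟩).2
  rwa [← Subalgebra.coe_val, map_p3] at this

end sub

theorem smul_mem_RX0 {f : A} {ξ : NN} (hf : f ∈ Xp) (h : ξ ∈ RX0) : f • ξ ∈ RX0 :=
  ⟨Xp_mul hf h.1, Xp_mul hf h.2⟩

theorem smul_mem_RX1 {f : A} {ξ : NN} (hf : f ∈ Xm) (h : ξ ∈ RX1) : f • ξ ∈ RX1 := by
  rw [mem_RX1] at *
  refine ⟨Xm_mul hf h.1, ?_⟩
  have := Xm_mul hf h.2
  simpa [mul_left_comm] using this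

theorem smul_mem_RY0 {f : A} {ξ : NN} (hf : f ∈ Yp) (h : ξ ∈ RY0) : f • ξ ∈ RY0 :=
  ⟨Yp_mul hf h.1, Yp_mul hf h.2⟩

theorem smul_mem_RY1 {f : A} {ξ : NN} (hf : f ∈ Ym) (h : ξ ∈ RY1) : f • ξ ∈ RY1 := by
  rw [mem_RY1] at *
  refine ⟨?_, ?_⟩
  · have := Ym_mul hf h.1
    convert this using 1
    simp only [Prod.smul_fst, Prod.smul_snd, smul_eq_mul]; ring
  · have := Ym_mul hf h.2
    simpa [mul_left_comm] using this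

theorem one_mem_Xp : (1 : A) ∈ Xp := mon_mem_Xp 0 le_rfl
theorem one_mem_Xm : (1 : A) ∈ Xm := mon_mem_Xm 0 le_rfl
theorem one_mem_Yp : (1 : A) ∈ Yp := mon_mem_Yp 0 le_rfl
theorem one_mem_Ym : (1 : A) ∈ Ym := mon_mem_Ym 0 le_rfl

theorem mon_neg_one_mul_x : mon (-1) 0 * mon 1 0 = 1 := by rw [mon_mul]; rfl
theorem mon_neg_one_mul_y : mon 0 (-1) * mon 0 1 = 1 := by rw [mon_mul]; rfl

/-- `y ^ (-3) F` in the coordinate `1/y` -/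
theorem FA_yinv : mon 0 (-3) * FA = Fh omA 1 (mon 1 0) (mon 0 (-1)) 1 := by
  have h := Fh_hom (w := omA) 1 (mon 0 (-1)) 1 (mon 1 0) 1 (mon 0 1)
  simp only [one_mul, mul_one, mon_neg_one_mul_y, one_pow, mon_pow] at h
  rw [h, FA]; norm_num

theorem Phi1A_yinv : mon 0 (-2) * Phi1A = A1h omA 1 (mon 1 0) (mon 0 (-1)) 1 := by
  have h := A1h_hom (w := omA) 1 (mon 0 (-1)) 1 (mon 1 0) 1 (mon 0 1)
  simp only [one_mul, mul_one, mon_neg_one_mul_y, one_pow, mon_pow] at h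
  rw [h, Phi1A]; norm_num

theorem PsiA_yinv : mon 0 (-7) * PsiA = Psih omA 1 (mon 1 0) (mon 0 (-1)) 1 := by
  have h := Psih_hom (w := omA) 1 (mon 0 (-1)) 1 (mon 1 0) 1 (mon 0 1)
  simp only [one_mul, mul_one, mon_neg_one_mul_y, one_pow, mon_pow] at h
  rw [h, PsiA]; norm_num

theorem e1_mem_RY0 : e1 ∈ RY0 :=
  ⟨A0h_mem YpA one_mem_Yp (mon_mem_Yp 1 le_rfl) one_mem_Yp (mon_mem_Yp 0 zero_le_one),
   Fh_mem YpA one_mem_Yp (mon_mem_Yp 1 le_rfl) one_mem_Yp (mon_mem_Yp 0 zero_le_one)⟩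

theorem e1_mem_RY1 : e1 ∈ RY1 := by
  rw [mem_RY1]
  refine ⟨?_, ?_⟩
  · have : mon 0 6 * e1.1 + PsiA * mon 0 (-2) * e1.2 = mon 0 (-2) * Phi1A := by
      have h8 : mon 0 (-2) * mon 0 8 = mon 0 6 := by rw [mon_mul]; rfl
      simp only [e1]
      linear_combination (mon 0 (-2)) * FA_mul_PsiA - PhiA * h8
    rw [this, Phi1A_yinv]
    exact A1h_mem YmA one_mem_Ym (mon_mem_Ym 1 le_rfl) (mon_mem_Ym 0 (by norm_num)) one_mem_Ym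
  · simp only [e1]
    rw [FA_yinv]
    exact Fh_mem YmA one_mem_Ym (mon_mem_Ym 1 le_rfl) (mon_mem_Ym 0 (by norm_num)) one_mem_Ym

theorem e2_mem_RX0 : e2 ∈ RX0 := ⟨one_mem_Xp, zero_mem _⟩
theorem e2_mem_RX1 : e2 ∈ RX1 := by
  rw [mem_RX1]; exact ⟨one_mem_Xm, by simp [e2]⟩
theorem e2_mem_RY0 : e2 ∈ RY0 := ⟨one_mem_Yp, zero_mem _⟩
theorem e2_mem_RY1 : mon 0 (-6) • e2 ∈ RY1 := by
  rw [mem_RY1]
  simp only [e2, Prod.smul_mk, smul_eq_mul, mul_one, mul_zero, add_zero, mon_mul]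
  exact ⟨mon_mem_Ym _ (by norm_num), zero_mem _⟩

theorem uu_mem_RX0 : uu ∈ RX0 := ⟨zero_mem _, one_mem_Xp⟩
theorem uu_mem_RY0 : uu ∈ RY0 := ⟨zero_mem _, one_mem_Yp⟩
theorem uu_mem_RX1 : mon (-3) 0 • uu ∈ RX1 := by
  rw [mem_RX1]
  simp only [uu, Prod.smul_mk, smul_eq_mul, mul_one, mul_zero, mon_mul]
  exact ⟨zero_mem _, mon_mem_Xm _ (by norm_num)⟩
theorem uu_mem_RY1 : mon 0 (-5) • uu ∈ RY1 := by
  rw [mem_RY1]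
  simp only [uu, Prod.smul_mk, smul_eq_mul, mul_one, mul_zero, zero_add, mon_mul]
  refine ⟨?_, mon_mem_Ym _ (by norm_num)⟩
  have : PsiA * mon 0 (-2) * mon 0 (-5) = mon 0 (-7) * PsiA := by
    rw [mul_assoc, mon_mul, mul_comm]; rfl
  rw [this, PsiA_yinv]
  exact Psih_mem YmA one_mem_Ym (mon_mem_Ym 1 le_rfl) (mon_mem_Ym 0 (by norm_num)) one_mem_Ym

end Crest.Agent.R258

end
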