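import Crest.Agent.R258.Frame

/-!
# Row 258 — `Symʲ E (3,3)` has vanishing `H¹` and is globally generated
-/

set_option autoImplicit false

noncomputable section

namespace Crest.Agent.R258

open MvPolynomial

variable (α : Fin 2 × Fin 2) (p : Fin 2 → ℂ)

theorem incl_sym (j : ℕ) (a b : ℤ) : Incl α (SymD α p j a b) := by
  have hI := incl_line α p a b
  have h1 : ∀ S : Submodule ℂ A, ∀ c ∈ S, (1 : A) * c ∈ S := fun S c hc => by rwa [one_mul]
  have h0 : ∀ S : Submodule ℂ A, ∀ c ∈ S, (0 : A) * c ∈ S := fun S c hc => by simp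
  have hrefl : ∀ {S S' : Submodule ℂ A} (U V : PP), S' ≤ S → Sy S' U V j ≤ Sy S U V j :=
    fun U V h => Sy_le h (h1 _) (h0 _) (h0 _) (h1 _) (by simp) (by simp) j
  refine ⟨fun c d => ?_, fun c d => ?_, hrefl _ _ hI.NF⟩
  · by_cases hd : d = 0
    · subst hd; exact hrefl _ _ (hI.FX _ _)
    · refine Sy_le (hI.FX c d) (r1 := mon 0 6) (r2 := mon 0 (-2) * iota (c, 0) (PsiP (c, 0)) * mon 0 0)
        (r3 := 0) (r4 := mon 0 (-3)) (fun f hf => Cf_X_mon hf _) (fun f hf => ?_) (h0 _)
        (fun f hf => Cf_X_mon hf _) ?_ ?_ j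
      · rw [mon_zero, mul_one, mul_assoc]
        exact Cf_X_mon (Cf_iota (σ := .X c) hf _) _
      · have e1 : tw (c, d) 0 6 = mon 0 6 := by simp [tw, hd]
        have e2 : tw (c, 0) 0 6 = 1 := by simp [tw]
        have e3 : tw (c, 0) 3 7 = tw (c, 0) 3 (-3) := by simp [tw]
        have e4 := congrArg (C : A → PP) (PsiA_eq (c, 0))
        simp only [Idx.ch, UU, VV, offA, hd, if_false, if_true, e1, e2, map_mul, e3, mon_zero,
          map_one, map_zero] at e4 ⊢
        linear_combination (C (mon 0 (-2)) * X 1) * e4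
      · have e1 : tw (c, d) 3 (-3) = mon 0 (-3) * tw (c, 0) 3 (-3) := by
          simp [tw, hd, mon_mul]
        simp only [Idx.ch, VV, e1, map_mul, map_zero]; ring
  · by_cases hc : c = 0
    · subst hc; exact hrefl _ _ (hI.FY _ _)
    · refine Sy_le (hI.FY c d) (r1 := 1) (r2 := 0) (r3 := 0) (r4 := mon 3 0) (h1 _) (h0 _) (h0 _)
        (fun f hf => Cf_Y_mon hf _) ?_ ?_ j
      · have e1 : tw (c, d) 0 6 = tw (0, d) 0 6 := by simp [tw]
        have e2 : offA (c, d) = offA (0, d) := rfl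
        simp only [Idx.ch, UU, e1, e2, map_one, map_zero, one_mul, zero_mul, add_zero]
      · have e1 : tw (c, d) 3 (-3) = mon 3 0 * tw (0, d) 3 (-3) := by
          simp [tw, hc, mon_mul]
        simp only [Idx.ch, VV, e1, map_mul, map_zero]; ring

theorem good_sym_zero {a b : ℤ} (ha : 0 ≤ a) (hb : 0 ≤ b) : Good α (SymD α p 0 a b) := by
  have h := (good_line α p ha hb).map CL (MvPolynomial.C_injective _ _)
  have e : SymD α p 0 a b = fun σ => (Cf α p a b σ).map CL := by
    funext σ; exact Sy_zero _ _ _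
  rwa [e]

theorem Cf_shift' {a b a' b' : ℤ} {σ : Idx} (r t : ℤ) (h1 : a' = a + r) (h2 : b' = b + t) :
    ∀ f ∈ Cf α p a b σ, tw (σ.ch α) r t * f ∈ Cf α p a' b' σ := by
  subst h1 h2; exact fun f hf => Cf_shift hf r t

theorem step1 {j : ℕ} {a b : ℤ} (h : Good α (SymD α p j (a + 3) (b - 3))) (ha : 0 ≤ a)
    (hb : 0 ≤ b) : Good α (SymD α p (j + 1) a b) := by
  refine Good.ext' (LinearMap.mulLeft ℂ (X 1 : PP)) (phi1.toLinearMap.restrictScalars ℂ) ?_ ?_ h
    (good_line α p (a := a) (b := b + (j + 1 : ℕ) * 6) ha (by positivity)) (incl_sym α p _ _ _)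
    fun σ => ?_
  · intro f g hfg
    exact mul_left_cancel₀ (X_ne_zero 1) hfg
  · intro m; simp [phi1]
  · refine Sy_exact phi1 (υ := tw (σ.ch α) 0 6) (υ' := tw (σ.ch α) 0 (-6))
      (τ := tw (σ.ch α) 3 (-3)) (τ' := tw (σ.ch α) (-3) 3) ?_ ?_ ?_ rfl ?_
      (Cf_shift' α p _ _ rfl (by ring)) (Cf_shift' α p _ _ (by ring) (by ring)) ?_ ?_
    · simp only [VV, map_mul, phi1_C]; simp [phi1]
    · simp only [UU, map_add, map_mul, phi1_C]; simp [phi1]
    · rw [tw_mul]; simp
    · rw [tw_mul]; simp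
    · rw [tw_pow]; exact Cf_shift' α p _ _ (by ring) rfl
    · rw [tw_pow]; exact Cf_shift' α p _ _ (by ring) (by ring)

theorem W2_ne_zero : W2 ≠ 0 := by
  intro h
  obtain ⟨l, m, hlm⟩ := bezout (0, 0)
  have h1 : FA = 0 := by
    have := congrArg phi1 h
    simpa [W2, phi1] using this
  have h2 : PhiA = 0 := by
    have := congrArg (aeval ![0, 1] : PP →ₐ[A] A) h
    simpa [W2] using this
  have h3 := FA_eq (0, 0)
  have h4 := phi2_UU (0, 0)
  have hU : phi2 (UU (0, 0)) = PhiA := by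
    simp only [UU, map_add, map_mul, phi2_C]; simp [phi2, tw, offA]
  have e1 : tw (0, 0) 3 3 = 1 := by simp [tw]
  have e2 : tw (0, 0) 6 0 = 1 := by simp [tw]
  rw [hU, h2, e2, one_mul] at h4
  rw [h1, e1, one_mul] at h3
  have := congrArg (iota (0, 0)) hlm
  rw [map_add, map_mul, map_mul, ← h3, ← h4, map_one] at this
  simp at this

theorem step2 {j : ℕ} {a b : ℤ} (h : Good α (SymD α p j (a - 3) (b + 3))) (ha : 0 ≤ a)
    (hb : 0 ≤ b) : Good α (SymD α p (j + 1) a b) := by
  refine Good.ext' (LinearMap.mulLeft ℂ W2) (phi2.toLinearMap.restrictScalars ℂ) ?_ ?_ h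
    (good_line α p (a := a + (j + 1 : ℕ) * 6) (b := b) (by positivity) hb) (incl_sym α p _ _ _)
    fun σ => ?_
  · intro f g hfg
    exact mul_left_cancel₀ W2_ne_zero hfg
  · intro m
    have : phi2 W2 = 0 := by
      simp only [W2, map_sub, map_mul, phi2_C]; simp [phi2, mul_comm]
    simp [this]
  · set β := σ.ch α with hβ
    obtain ⟨l, m, hlm⟩ := bezout β
    have hlm' := congrArg (fun q => (C (iota β q) : PP)) hlm
    simp only [map_add, map_mul, map_one] at hlm'
    have hlm'' := congrArg (iota β) hlm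
    simp only [map_add, map_mul, map_one] at hlm''
    set U' : PP := C (iota β l) * UU β + C (iota β m) * VV β with hU'
    set V' : PP := C (iota β (FP β)) * UU β + C (iota β (-PhiP β)) * VV β with hV'
    have hS : ∀ (a b : ℤ) (j : ℕ), SymD α p j a b σ = Sy (Cf α p a b σ) U' V' j := by
      intro a b j
      apply le_antisymm
      · refine Sy_le le_rfl (r1 := iota β (PhiP β)) (r2 := iota β m) (r3 := iota β (FP β))
          (r4 := iota β (-l)) (fun f hf => Cf_iota hf _) (fun f hf => Cf_iota hf _)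
          (fun f hf => Cf_iota hf _) (fun f hf => Cf_iota hf _) ?_ ?_ j
        · rw [hU', hV', ← hβ]; simp only [map_neg]
          linear_combination (-UU β) * hlm'
        · rw [hU', hV', ← hβ]; simp only [map_neg]
          linear_combination (-VV β) * hlm'
      · exact Sy_le le_rfl (fun f hf => Cf_iota hf _) (fun f hf => Cf_iota hf _)
          (fun f hf => Cf_iota hf _) (fun f hf => Cf_iota hf _) hU' hV' j
    rw [hS, hS]
    refine Sy_exact phi2 (υ := tw β 6 0) (υ' := tw β (-6) 0)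
      (τ := tw β (-3) 3) (τ' := tw β 3 (-3)) ?_ ?_ ?_ ?_ ?_
      (Cf_shift' α p _ _ (by ring) rfl) (Cf_shift' α p _ _ (by ring) (by ring)) ?_ ?_
    · simp only [hV', map_add, map_mul, phi2_C, phi2_UU, phi2_VV, map_neg]; ring
    · simp only [hU', map_add, map_mul, phi2_C, phi2_UU, phi2_VV]
      linear_combination tw β 6 0 * hlm''
    · rw [tw_mul]; simp
    · rw [← W2_eq, hV']; simp only [map_neg]; ring
    · rw [tw_mul]; simp
    · rw [tw_pow]; exact Cf_shift' α p _ _ rfl (by ring)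
    · rw [tw_pow]; exact Cf_shift' α p _ _ (by ring) (by ring)

theorem good_sym_aux (j : ℕ) : ∀ a b : ℤ, (0 ≤ a ∧ 3 ≤ b) ∨ (3 ≤ a ∧ 0 ≤ b) →
    Good α (SymD α p j a b) := by
  induction j with
  | zero => intro a b h; exact good_sym_zero α p (by omega) (by omega)
  | succ j ih =>
    rintro a b (h | h)
    · exact step1 α p (ih _ _ (Or.inr (by omega))) (by omega) (by omega)
    · exact step2 α p (ih _ _ (Or.inl (by omega))) (by omega) (by omega)

theorem good_sym (j : ℕ) : Good α (SymD α p j 3 3) :=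
  good_sym_aux α p j 3 3 (Or.inl (by omega))

end Crest.Agent.R258

end
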