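import Crest.Prelude.Def_QuadricBundle
import Crest.Agent.R258.Lau
import Crest.Agent.R258.Circle

/-!
# Row 258 — means over the tori `|w₀| = e^s, |w₁| = e^t`
-/

set_option autoImplicit false

noncomputable section

namespace Crest.Agent.R258

open Crest.AlgGeometry.QuadricBundle Complex
open scoped ComplexConjugate

/-- point of the torus `|w₀| = e^s, |w₁| = e^t` -/
def tp (s t θ φ : ℝ) : Fin 2 → ℂ := ![Complex.exp (s + θ * I), Complex.exp (t + φ * I)]

theorem tp_mem_torus (s t θ φ : ℝ) : tp s t θ φ ∈ torus :=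
  ⟨Complex.exp_ne_zero _, Complex.exp_ne_zero _⟩

theorem norm_tp_zero (s t θ φ : ℝ) : ‖tp s t θ φ 0‖ = Real.exp s := by
  simp [tp, Complex.norm_exp]

theorem norm_tp_one (s t θ φ : ℝ) : ‖tp s t θ φ 1‖ = Real.exp t := by
  simp [tp, Complex.norm_exp]

/-- (unnormalised) mean over the torus -/
def tmean {E : Type*} [NormedAddCommGroup E] [NormedSpace ℝ E] (f : (Fin 2 → ℂ) → E)
    (s t : ℝ) : E :=
  ∫ θ in (0 : ℝ)..(2 * Real.pi), ∫ φ in (0 : ℝ)..(2 * Real.pi), f (tp s t θ φ)

theorem tmean_congr {E : Type*} [NormedAddCommGroup E] [NormedSpace ℝ E]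
    {f g : (Fin 2 → ℂ) → E} {s t : ℝ} (h : ∀ θ φ, f (tp s t θ φ) = g (tp s t θ φ)) :
    tmean f s t = tmean g s t := by
  simp only [tmean, h]

theorem tmean_const_mul (c : ℂ) (f : (Fin 2 → ℂ) → ℂ) (s t : ℝ) :
    tmean (fun w => c * f w) s t = c * tmean f s t := by
  simp only [tmean, intervalIntegral.integral_const_mul]

theorem tmean_const_mul_real (c : ℝ) (f : (Fin 2 → ℂ) → ℝ) (s t : ℝ) :
    tmean (fun w => c * f w) s t = c * tmean f s t := by
  simp only [tmean, intervalIntegral.integral_const_mul]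

theorem tmean_continuous_tp (s t : ℝ) :
    Continuous (fun p : ℝ × ℝ => tp s t p.1 p.2) := by
  refine continuous_pi fun i => ?_
  fin_cases i
  · show Continuous fun p : ℝ × ℝ => Complex.exp (s + p.1 * I)
    fun_prop
  · show Continuous fun p : ℝ × ℝ => Complex.exp (t + p.2 * I)
    fun_prop

theorem tmean_cont2 {E : Type*} [TopologicalSpace E] {f : (Fin 2 → ℂ) → E}
    (hf : ContinuousOn f torus) (s t : ℝ) :
    Continuous (fun p : ℝ × ℝ => f (tp s t p.1 p.2)) :=
  hf.comp_continuous (tmean_continuous_tp s t) fun p => tp_mem_torus s t p.1 p.2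

theorem tmean_inner_int {E : Type*} [NormedAddCommGroup E] [NormedSpace ℝ E]
    {f : (Fin 2 → ℂ) → E} (hf : ContinuousOn f torus) (s t θ a b : ℝ) :
    IntervalIntegrable (fun φ => f (tp s t θ φ)) MeasureTheory.volume a b :=
  ((tmean_cont2 hf s t).comp (Continuous.prodMk_right θ)).intervalIntegrable _ _

theorem tmean_inner_int' {E : Type*} [NormedAddCommGroup E] [NormedSpace ℝ E]
    {f : (Fin 2 → ℂ) → E} (hf : ContinuousOn f torus) (s t φ a b : ℝ) :
    IntervalIntegrable (fun θ => f (tp s t θ φ)) MeasureTheory.volume a b :=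
  ((tmean_cont2 hf s t).comp (Continuous.prodMk_left φ)).intervalIntegrable _ _

theorem tmean_outer_cont {E : Type*} [NormedAddCommGroup E] [NormedSpace ℝ E]
    {f : (Fin 2 → ℂ) → E} (hf : ContinuousOn f torus) (s t a b : ℝ) :
    Continuous (fun θ => ∫ φ in a..b, f (tp s t θ φ)) :=
  intervalIntegral.continuous_parametric_intervalIntegral_of_continuous'
    (f := fun θ φ => f (tp s t θ φ)) (tmean_cont2 hf s t) a b

theorem tmean_outer_cont' {E : Type*} [NormedAddCommGroup E] [NormedSpace ℝ E]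
    {f : (Fin 2 → ℂ) → E} (hf : ContinuousOn f torus) (s t a b : ℝ) :
    Continuous (fun φ => ∫ θ in a..b, f (tp s t θ φ)) :=
  intervalIntegral.continuous_parametric_intervalIntegral_of_continuous'
    (f := fun φ θ => f (tp s t θ φ)) ((tmean_cont2 hf s t).comp continuous_swap) a b

theorem tmean_swap {E : Type*} [NormedAddCommGroup E] [NormedSpace ℝ E]
    {f : (Fin 2 → ℂ) → E} (hf : ContinuousOn f torus) (s t : ℝ) :
    tmean f s t =
      ∫ φ in (0 : ℝ)..(2 * Real.pi), ∫ θ in (0 : ℝ)..(2 * Real.pi), f (tp s t θ φ) := by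
  unfold tmean
  refine MeasureTheory.intervalIntegral_intervalIntegral_swap
    (F := fun θ φ => f (tp s t θ φ)) ?_
  have hc : IsCompact (Set.uIcc (0 : ℝ) (2 * Real.pi) ×ˢ Set.uIcc (0 : ℝ) (2 * Real.pi)) :=
    isCompact_uIcc.prod isCompact_uIcc
  exact ((tmean_cont2 hf s t).continuousOn.integrableOn_compact hc).mono_set
    (Set.prod_mono Set.uIoc_subset_uIcc Set.uIoc_subset_uIcc)

theorem tmean_add {f g : (Fin 2 → ℂ) → ℂ} (hf : ContinuousOn f torus)
    (hg : ContinuousOn g torus) (s t : ℝ) :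
    tmean (fun w => f w + g w) s t = tmean f s t + tmean g s t := by
  unfold tmean
  rw [← intervalIntegral.integral_add ((tmean_outer_cont hf s t _ _).intervalIntegrable _ _)
    ((tmean_outer_cont hg s t _ _).intervalIntegrable _ _)]
  refine intervalIntegral.integral_congr fun θ _ => ?_
  exact intervalIntegral.integral_add (tmean_inner_int hf s t θ _ _)
    (tmean_inner_int hg s t θ _ _)

theorem tmean_conj (f : (Fin 2 → ℂ) → ℂ) (s t : ℝ) :
    tmean (fun w => conj (f w)) s t = conj (tmean f s t) := by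
  unfold tmean
  rw [← intervalIntegral.intervalIntegral_conj]
  refine intervalIntegral.integral_congr fun θ _ => ?_
  exact intervalIntegral.intervalIntegral_conj

theorem tmean_re {f : (Fin 2 → ℂ) → ℂ} (hf : ContinuousOn f torus) (s t : ℝ) :
    (tmean f s t).re = tmean (fun w => (f w).re) s t := by
  unfold tmean
  have h1 := Complex.reCLM.intervalIntegral_comp_comm
    ((tmean_outer_cont hf s t 0 (2 * Real.pi)).intervalIntegrable
      (μ := MeasureTheory.volume) 0 (2 * Real.pi))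
  simp only [Complex.reCLM_apply] at h1
  rw [← h1]
  refine intervalIntegral.integral_congr fun θ _ => ?_
  have h2 := Complex.reCLM.intervalIntegral_comp_comm (tmean_inner_int hf s t θ 0 (2 * Real.pi))
  simp only [Complex.reCLM_apply] at h2
  exact h2.symm

theorem tmean_nonneg {f : (Fin 2 → ℂ) → ℝ} {s t : ℝ} (h : ∀ θ φ, 0 ≤ f (tp s t θ φ)) :
    0 ≤ tmean f s t := by
  unfold tmean
  have hπ : (0 : ℝ) ≤ 2 * Real.pi := by positivity
  exact intervalIntegral.integral_nonneg hπ fun θ _ =>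
    intervalIntegral.integral_nonneg hπ fun φ _ => h θ φ

theorem tmean_pos {f : (Fin 2 → ℂ) → ℝ} (hf : ContinuousOn f torus) {s t : ℝ}
    (h : ∀ θ φ, 0 < f (tp s t θ φ)) : 0 < tmean f s t := by
  unfold tmean
  have hπ : (0 : ℝ) < 2 * Real.pi := by positivity
  exact intervalIntegral.intervalIntegral_pos_of_pos
    ((tmean_outer_cont hf s t _ _).intervalIntegrable _ _)
    (fun θ => intervalIntegral.intervalIntegral_pos_of_pos (tmean_inner_int hf s t θ _ _)
      (fun φ => h θ φ) hπ) hπ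

theorem tmean_le {f : (Fin 2 → ℂ) → ℝ} (hf : ContinuousOn f torus) {s t C : ℝ}
    (h : ∀ θ φ, f (tp s t θ φ) ≤ C) : tmean f s t ≤ (2 * Real.pi) ^ 2 * C := by
  unfold tmean
  have hπ : (0 : ℝ) ≤ 2 * Real.pi := by positivity
  have h1 : ∀ θ, ∫ φ in (0 : ℝ)..(2 * Real.pi), f (tp s t θ φ) ≤ 2 * Real.pi * C := by
    intro θ
    have := intervalIntegral.integral_mono_on hπ (tmean_inner_int hf s t θ _ _)
      (intervalIntegrable_const (c := C)) fun φ _ => h θ φ
    simpa using this
  have := intervalIntegral.integral_mono_on hπ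
    ((tmean_outer_cont hf s t 0 (2 * Real.pi)).intervalIntegrable
      (μ := MeasureTheory.volume) 0 (2 * Real.pi))
    (intervalIntegrable_const (c := 2 * Real.pi * C)) fun θ _ => h1 θ
  simp only [intervalIntegral.integral_const, sub_zero, smul_eq_mul] at this
  calc _ ≤ _ := this
    _ = _ := by ring

/-- an integral of convex functions is convex -/
theorem tmean_convex_integral {g : ℝ → ℝ → ℝ} {a b : ℝ} (hab : a ≤ b)
    (hg : ∀ θ, ConvexOn ℝ Set.univ (g θ))
    (hi : ∀ s, IntervalIntegrable (fun θ => g θ s) MeasureTheory.volume a b) :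
    ConvexOn ℝ Set.univ (fun s => ∫ θ in a..b, g θ s) := by
  refine ⟨convex_univ, fun x _ y _ u v hu hv huv => ?_⟩
  simp only [smul_eq_mul]
  rw [← intervalIntegral.integral_const_mul, ← intervalIntegral.integral_const_mul,
    ← intervalIntegral.integral_add ((hi x).const_mul u) ((hi y).const_mul v)]
  refine intervalIntegral.integral_mono_on hab (hi _)
    (((hi x).const_mul u).add ((hi y).const_mul v)) fun θ _ => ?_
  simpa only [smul_eq_mul] using (hg θ).2 (Set.mem_univ x) (Set.mem_univ y) hu hv huv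

theorem tmean_convex_x {f : (Fin 2 → ℂ) → ℝ} (hf : ContDiffOn ℝ 2 f torus)
    (hL : ∀ p ∈ torus, ∀ d : Fin 2 → ℂ, d ≠ 0 → 0 ≤ leviAlong f p d) (t : ℝ) :
    ConvexOn ℝ Set.univ (fun s => tmean f s t) := by
  have hc := hf.continuousOn
  simp only [tmean_swap hc]
  refine tmean_convex_integral (g := fun φ s => ∫ θ in (0 : ℝ)..(2 * Real.pi), f (tp s t θ φ))
    (by positivity) (fun φ => ?_) fun s => (tmean_outer_cont' hc s t _ _).intervalIntegrable _ _
  set y : ℂ := Complex.exp (t + φ * I) with hy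
  have hy0 : y ≠ 0 := Complex.exp_ne_zero _
  have hlin : ContDiff ℝ 2 (fun z : ℂ => (![z, y] : Fin 2 → ℂ)) := by
    refine contDiff_pi.2 fun i => ?_
    fin_cases i
    · exact contDiff_id
    · exact contDiff_const
  refine circle_convex (fun z => f ![z, y]) (hf.comp hlin.contDiffOn fun z hz => ⟨hz, hy0⟩) ?_
  intro z hz d hd
  have hd' : (![d, 0] : Fin 2 → ℂ) ≠ 0 := fun h => hd (by simpa using congrFun h 0)
  have := hL ![z, y] ⟨hz, hy0⟩ ![d, 0] hd'
  unfold leviAlong secondDerivAlong at this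
  have e1 : ∀ u : ℝ, (![z, y] : Fin 2 → ℂ) + (u : ℂ) • (![d, 0] : Fin 2 → ℂ) =
      ![z + u * d, y] := by
    intro u; ext i; fin_cases i <;> simp
  have e2 : ∀ u : ℝ, (![z, y] : Fin 2 → ℂ) + (u : ℂ) • (I • (![d, 0] : Fin 2 → ℂ)) =
      ![z + u * (I * d), y] := by
    intro u; ext i; fin_cases i <;> simp
  simpa only [e1, e2] using this

theorem tmean_convex_y {f : (Fin 2 → ℂ) → ℝ} (hf : ContDiffOn ℝ 2 f torus)
    (hL : ∀ p ∈ torus, ∀ d : Fin 2 → ℂ, d ≠ 0 → 0 ≤ leviAlong f p d) (s : ℝ) :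
    ConvexOn ℝ Set.univ (fun t => tmean f s t) := by
  have hc := hf.continuousOn
  unfold tmean
  refine tmean_convex_integral (g := fun θ t => ∫ φ in (0 : ℝ)..(2 * Real.pi), f (tp s t θ φ))
    (by positivity) (fun θ => ?_) fun t => (tmean_outer_cont hc s t _ _).intervalIntegrable _ _
  set x : ℂ := Complex.exp (s + θ * I) with hx
  have hx0 : x ≠ 0 := Complex.exp_ne_zero _
  have hlin : ContDiff ℝ 2 (fun z : ℂ => (![x, z] : Fin 2 → ℂ)) := by
    refine contDiff_pi.2 fun i => ?_
    fin_cases i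
    · exact contDiff_const
    · exact contDiff_id
  refine circle_convex (fun z => f ![x, z]) (hf.comp hlin.contDiffOn fun z hz => ⟨hx0, hz⟩) ?_
  intro z hz d hd
  have hd' : (![0, d] : Fin 2 → ℂ) ≠ 0 := fun h => hd (by simpa using congrFun h 1)
  have := hL ![x, z] ⟨hx0, hz⟩ ![0, d] hd'
  unfold leviAlong secondDerivAlong at this
  have e1 : ∀ u : ℝ, (![x, z] : Fin 2 → ℂ) + (u : ℂ) • (![0, d] : Fin 2 → ℂ) =
      ![x, z + u * d] := by
    intro u; ext i; fin_cases i <;> simp
  have e2 : ∀ u : ℝ, (![x, z] : Fin 2 → ℂ) + (u : ℂ) • (I • (![0, d] : Fin 2 → ℂ)) =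
      ![x, z + u * (I * d)] := by
    intro u; ext i; fin_cases i <;> simp
  simpa only [e1, e2] using this

end Crest.Agent.R258

end
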