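import Crest.Agent.R258.TorusBound

/-!
# Row 258 — a Griffiths-positive metric on `π_k^* E ⊗ O(1,1)` gives a `Form (1/k)`
-/

set_option autoImplicit false

noncomputable section

namespace Crest.Agent.R258

open Crest.AlgGeometry.QuadricBundle
open scoped ComplexConjugate

/-- the torus-averaged dual form -/
def Bf (H : MetricData 2) (k : ℕ) (s t : ℝ) (ξ η : NN) : ℂ :=
  tmean (fun w => dual (H (0, 0) w) (cov k ξ w) (cov k η w)) (s / k) (t / k)

private theorem tor_cov_add (k : ℕ) (ξ ξ' : NN) (w : Fin 2 → ℂ) :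
    cov k (ξ + ξ') w = cov k ξ w + cov k ξ' w := by
  ext i; fin_cases i <;> simp [cov]

private theorem tor_cov_smul (k : ℕ) (c : ℂ) (ξ : NN) (w : Fin 2 → ℂ) :
    cov k (c • ξ) w = c • cov k ξ w := by
  ext i; fin_cases i <;> simp [cov]

private theorem tor_cov_mon (k : ℕ) (m n : ℤ) (ξ : NN) {w : Fin 2 → ℂ} (hw : w ∈ torus) :
    cov k (mon m n • ξ) w = ((w 0 ^ k) ^ m * (w 1 ^ k) ^ n) • cov k ξ w := by
  have h0 : pw k w 0 ≠ 0 := pow_ne_zero _ hw.1
  have h1 : pw k w 1 ≠ 0 := pow_ne_zero _ hw.2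
  ext i; fin_cases i <;> simp [cov, evl_mul h0 h1, pw]

private theorem tor_cov_e2 (k : ℕ) (w : Fin 2 → ℂ) : cov k e2 w ≠ 0 := by
  intro h
  have := congrFun h 0
  simp [cov, e2] at this

private theorem tor_dual_smul_left (M : Matrix (Fin 2) (Fin 2) ℂ) (c : ℂ) (ξ η : Fin 2 → ℂ) :
    dual M (c • ξ) η = c * dual M ξ η := by
  have := dual_smul_smul M c 1 ξ η
  simpa using this

private theorem tor_dual_smul_self (M : Matrix (Fin 2) (Fin 2) ℂ) (c : ℂ) (ξ η : Fin 2 → ℂ) :
    dual M (c • ξ) (c • η) = ((‖c‖ ^ 2 : ℝ) : ℂ) * dual M ξ η := by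
  rw [dual_smul_smul, Complex.mul_conj, Complex.normSq_eq_norm_sq]

private theorem tor_exp_zpow (x : ℝ) (m : ℤ) : Real.exp x ^ m = Real.exp (m * x) := by
  rw [mul_comm, Real.exp_mul, Real.rpow_intCast]

section
variable {k : ℕ} {H : MetricData 2}

private theorem tor_cont (hH : IsHermitianMetric (pull k g0) H) {ζ ζ' : (Fin 2 → ℂ) → Fin 2 → ℂ}
    (hζ : ContinuousOn ζ torus) (hζ' : ContinuousOn ζ' torus) :
    ContinuousOn (fun w => dual (H (0, 0) w) (ζ w) (ζ' w)) torus :=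
  dual_continuousOn (fun i j => (hH.smooth _ i j).continuous.continuousOn)
    (fun w _ => hH.posDef _ w) hζ hζ'

private theorem tor_cont_cov (hH : IsHermitianMetric (pull k g0) H) (ξ η : NN) :
    ContinuousOn (fun w => dual (H (0, 0) w) (cov k ξ w) (cov k η w)) torus :=
  tor_cont hH (cov_contDiffOn k ξ 0).continuousOn (cov_contDiffOn k η 0).continuousOn

private theorem tor_re (hH : IsHermitianMetric (pull k g0) H) (ξ : NN) (s t : ℝ) :
    (Bf H k s t ξ ξ).re =
      tmean (fun w => (dual (H (0, 0) w) (cov k ξ w) (cov k ξ w)).re) (s / k) (t / k) :=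
  tmean_re (tor_cont_cov hH ξ ξ) _ _

private theorem tor_cont_re (hH : IsHermitianMetric (pull k g0) H)
    {ζ : (Fin 2 → ℂ) → Fin 2 → ℂ} (hζ : ContinuousOn ζ torus) :
    ContinuousOn (fun w => (dual (H (0, 0) w) (ζ w) (ζ w)).re) torus :=
  Complex.continuous_re.comp_continuousOn (tor_cont hH hζ hζ)

private theorem tor_convex_div {f : ℝ → ℝ} (hf : ConvexOn ℝ Set.univ f) (c : ℝ) :
    ConvexOn ℝ Set.univ (fun s => f (s / c)) := by
  refine ⟨convex_univ, fun x _ y _ a b ha hb hab => ?_⟩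
  have := hf.2 (Set.mem_univ (x / c)) (Set.mem_univ (y / c)) ha hb hab
  simp only [smul_eq_mul] at this ⊢
  have e : (a * x + b * y) / c = a * (x / c) + b * (y / c) := by ring
  rw [e]; exact this

private theorem tor_convex_x (hH : IsHermitianMetric (pull k g0) H) (hG : IsGriffithsPositive H)
    {ζ : (Fin 2 → ℂ) → Fin 2 → ℂ} (hζ : ContDiffOn ℂ 2 ζ torus) (t : ℝ) :
    ConvexOn ℝ Set.univ
      (fun s => tmean (fun w => (dual (H (0, 0) w) (ζ w) (ζ w)).re) s t) :=
  tmean_convex_x (dual_contDiffOn hH _ (hζ.restrict_scalars ℝ))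
    (fun _ hp _ hd => levi_dual_nonneg hH hG _ isOpen_torus
      (hζ.differentiableOn (by norm_num)) hp hd) t

private theorem tor_convex_y (hH : IsHermitianMetric (pull k g0) H) (hG : IsGriffithsPositive H)
    {ζ : (Fin 2 → ℂ) → Fin 2 → ℂ} (hζ : ContDiffOn ℂ 2 ζ torus) (s : ℝ) :
    ConvexOn ℝ Set.univ
      (fun t => tmean (fun w => (dual (H (0, 0) w) (ζ w) (ζ w)).re) s t) :=
  tmean_convex_y (dual_contDiffOn hH _ (hζ.restrict_scalars ℝ))
    (fun _ hp _ hd => levi_dual_nonneg hH hG _ isOpen_torus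
      (hζ.differentiableOn (by norm_num)) hp hd) s

private theorem tor_inv_smul (ξ : NN) (i : Fin 2) :
    ContDiffOn ℂ 2 (fun w : Fin 2 → ℂ => (w i)⁻¹ • cov k ξ w) torus := by
  refine ContDiffOn.smul (ContDiffOn.inv (contDiff_apply ℂ ℂ i).contDiffOn ?_)
    (cov_contDiffOn k ξ 2)
  intro w hw
  fin_cases i
  · exact hw.1
  · exact hw.2

private theorem tor_inv_re (ξ : NN) (i : Fin 2) (w : Fin 2 → ℂ) (r : ℝ)
    (hw : ‖w i‖ = Real.exp r) :
    (dual (H (0, 0) w) ((w i)⁻¹ • cov k ξ w) ((w i)⁻¹ • cov k ξ w)).re =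
      Real.exp (-2 * r) * (dual (H (0, 0) w) (cov k ξ w) (cov k ξ w)).re := by
  rw [tor_dual_smul_self, Complex.re_ofReal_mul, norm_inv, hw, ← Real.exp_neg, ← Real.exp_nat_mul]
  congr 2; push_cast; ring

end

theorem form_of_metric {k : ℕ} (hk : 1 ≤ k) {H : MetricData 2}
    (hH : IsHermitianMetric (pull k g0) H) (hG : IsGriffithsPositive H) :
    Nonempty (Form (1 / (k : ℝ))) := by
  have hk0 : (0 : ℝ) < k := Nat.cast_pos.2 hk
  refine ⟨⟨Bf H k, ?_, ?_, ?_, ?_, ?_, ?_, ?_, ?_, ?_, ?_, ?_⟩⟩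
  · intro s t ξ ξ' η
    simp only [Bf, tor_cov_add, dual_add_left]
    exact tmean_add (tor_cont_cov hH ξ η) (tor_cont_cov hH ξ' η) _ _
  · intro s t c ξ η
    simp only [Bf, tor_cov_smul, tor_dual_smul_left]
    exact tmean_const_mul _ _ _ _
  · intro s t ξ η
    rw [Bf, Bf, ← tmean_conj]
    exact tmean_congr fun θ φ => dual_herm (hH.posDef _ _) _ _
  · intro s t ξ
    rw [tor_re hH]
    exact tmean_nonneg fun θ φ => dual_nonneg (hH.posDef _ _) _
  · intro s t m n ξ η
    rw [Bf, Bf, ← tmean_const_mul]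
    refine tmean_congr fun θ φ => ?_
    rw [tor_cov_mon k m n ξ (tp_mem_torus _ _ _ _), tor_cov_mon k m n η (tp_mem_torus _ _ _ _),
      tor_dual_smul_self]
    congr 2
    rw [norm_mul, norm_zpow, norm_zpow, norm_pow, norm_pow, norm_tp_zero, norm_tp_one,
      ← Real.exp_nat_mul, ← Real.exp_nat_mul, mul_div_cancel₀ _ hk0.ne', mul_div_cancel₀ _ hk0.ne',
      tor_exp_zpow, tor_exp_zpow, ← Real.exp_add, ← Real.exp_nat_mul]
    congr 1; push_cast; ring
  · intro t ξ
    simp only [tor_re hH]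
    exact tor_convex_div (tor_convex_x hH hG (cov_contDiffOn k ξ 2) _) _
  · intro t ξ hξ
    simp only [tor_re hH]
    obtain ⟨C, hC⟩ := bound_x0 hk hH hξ (t / k)
    have := monotone_of_convex_bdd (tor_convex_x hH hG (cov_contDiffOn k ξ 2) (t / k))
      (C := (2 * Real.pi) ^ 2 * C) fun s hs =>
        tmean_le (tor_cont_re hH (cov_contDiffOn k ξ 0).continuousOn) (hC s hs)
    exact fun x y hxy => this (div_le_div_of_nonneg_right hxy hk0.le)
  · intro t ξ hξ
    simp only [tor_re hH]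
    obtain ⟨C, hC⟩ := bound_x1 hk hH hξ (t / k)
    have key : ∀ s t : ℝ, tmean (fun w => (dual (H (0, 0) w) ((w 0)⁻¹ • cov k ξ w)
        ((w 0)⁻¹ • cov k ξ w)).re) s t = Real.exp (-2 * s) *
          tmean (fun w => (dual (H (0, 0) w) (cov k ξ w) (cov k ξ w)).re) s t := by
      intro s t
      rw [← tmean_const_mul_real]
      exact tmean_congr fun θ φ => tor_inv_re ξ 0 _ s (norm_tp_zero _ _ _ _)
    have := antitone_of_convex_bdd (tor_convex_x hH hG (tor_inv_smul (k := k) ξ 0) (t / k))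
      (C := (2 * Real.pi) ^ 2 * C) fun s hs =>
        tmean_le (tor_cont_re hH (tor_inv_smul ξ 0).continuousOn) fun θ φ => by
          rw [tor_inv_re ξ 0 _ s (norm_tp_zero _ _ _ _)]; exact hC s hs θ φ
    intro x y hxy
    have h2 := this (div_le_div_of_nonneg_right hxy hk0.le)
    simp only [key] at h2
    have e : ∀ x : ℝ, -2 * (1 / (k : ℝ)) * x = -2 * (x / k) := fun x => by ring
    simp only [e]
    exact h2
  · intro s ξ hξ
    simp only [tor_re hH]
    obtain ⟨C, hC⟩ := bound_y0 hk hH hξ (s / k)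
    have := monotone_of_convex_bdd (tor_convex_y hH hG (cov_contDiffOn k ξ 2) (s / k))
      (C := (2 * Real.pi) ^ 2 * C) fun t ht =>
        tmean_le (tor_cont_re hH (cov_contDiffOn k ξ 0).continuousOn) (hC t ht)
    exact fun x y hxy => this (div_le_div_of_nonneg_right hxy hk0.le)
  · intro s ξ hξ
    simp only [tor_re hH]
    obtain ⟨C, hC⟩ := bound_y1 hk hH hξ (s / k)
    have key : ∀ s t : ℝ, tmean (fun w => (dual (H (0, 0) w) ((w 1)⁻¹ • cov k ξ w)
        ((w 1)⁻¹ • cov k ξ w)).re) s t = Real.exp (-2 * t) *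
          tmean (fun w => (dual (H (0, 0) w) (cov k ξ w) (cov k ξ w)).re) s t := by
      intro s t
      rw [← tmean_const_mul_real]
      exact tmean_congr fun θ φ => tor_inv_re ξ 1 _ t (norm_tp_one _ _ _ _)
    have := antitone_of_convex_bdd (tor_convex_y hH hG (tor_inv_smul (k := k) ξ 1) (s / k))
      (C := (2 * Real.pi) ^ 2 * C) fun t ht =>
        tmean_le (tor_cont_re hH (tor_inv_smul ξ 1).continuousOn) fun θ φ => by
          rw [tor_inv_re ξ 1 _ t (norm_tp_one _ _ _ _)]; exact hC t ht θ φ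
    intro x y hxy
    have h2 := this (div_le_div_of_nonneg_right hxy hk0.le)
    simp only [key] at h2
    have e : ∀ x : ℝ, -2 * (1 / (k : ℝ)) * x = -2 * (x / k) := fun x => by ring
    simp only [e]
    exact h2
  · rw [tor_re hH, tor_re hH]
    refine add_pos_of_pos_of_nonneg ?_ (tmean_nonneg fun θ φ => dual_nonneg (hH.posDef _ _) _)
    exact tmean_pos (tor_cont_re hH (cov_contDiffOn k e2 0).continuousOn)
      fun θ φ => dual_pos (hH.posDef _ _) (tor_cov_e2 k _)

end Crest.Agent.R258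

end
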