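import Crest.Agent.R258.BundleDef
import Crest.Agent.R258.FormDef
import Crest.Agent.R258.Levi
import Crest.Agent.R258.TMean

/-!
# Row 258 — pulled-back covector fields and pointwise bounds near the boundary divisors
-/

set_option autoImplicit false

noncomputable section

namespace Crest.Agent.R258

open Crest.AlgGeometry.QuadricBundle Matrix

/-- the covector field `w ↦ ξ (w ^ k)` in the dual frame of the chart `(0,0)` -/
def cov (k : ℕ) (ξ : NN) (w : Fin 2 → ℂ) : Fin 2 → ℂ := ![evl (pw k w) ξ.1, evl (pw k w) ξ.2]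

theorem tb_zpow_contDiffOn (k : ℕ) (i : Fin 2) (m : ℤ) (n : WithTop ℕ∞) {U : Set (Fin 2 → ℂ)}
    (hU : ∀ w ∈ U, w i ≠ 0) : ContDiffOn ℂ n (fun w : Fin 2 → ℂ => (w i ^ k) ^ m) U := by
  have h : ContDiffOn ℂ n (fun w : Fin 2 → ℂ => w i ^ k) U :=
    ((contDiff_apply ℂ ℂ i).pow k).contDiffOn
  obtain ⟨a, rfl | rfl⟩ := m.eq_nat_or_neg
  · simp only [zpow_natCast]
    exact h.pow a
  · simp only [_root_.zpow_neg, zpow_natCast]
    exact (h.pow a).inv fun w hw => pow_ne_zero _ (pow_ne_zero _ (hU w hw))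

theorem evl_pw_contDiffOn (k : ℕ) (f : A) (n : WithTop ℕ∞) :
    ContDiffOn ℂ n (fun w => evl (pw k w) f) torus := by
  induction f using A_induction with
  | h0 => simpa using contDiffOn_const
  | hadd f g hf hg => simpa only [map_add] using hf.add hg
  | hsmul c f hf => simpa only [map_smul, smul_eq_mul] using contDiffOn_const.mul hf
  | hmon m l =>
    simp only [evl_mon, pw]
    exact (tb_zpow_contDiffOn k 0 m n fun w hw => hw.1).mul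
      (tb_zpow_contDiffOn k 1 l n fun w hw => hw.2)

theorem cov_contDiffOn (k : ℕ) (ξ : NN) (n : WithTop ℕ∞) : ContDiffOn ℂ n (cov k ξ) torus := by
  refine contDiffOn_pi.2 fun i => ?_
  fin_cases i
  · exact evl_pw_contDiffOn k ξ.1 n
  · exact evl_pw_contDiffOn k ξ.2 n

/-- `f ∘ pw k` extends continuously to `K` in the coordinates `T w` -/
def TbExt (k : ℕ) (K : Set (Fin 2 → ℂ)) (T : (Fin 2 → ℂ) → Fin 2 → ℂ) (f : A) : Prop :=
  ∃ f' : (Fin 2 → ℂ) → ℂ, ContinuousOn f' K ∧ ∀ w ∈ torus, f' (T w) = evl (pw k w) f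

theorem tb_ext {k : ℕ} {K : Set (Fin 2 → ℂ)} {T : (Fin 2 → ℂ) → Fin 2 → ℂ} {S : Set (ℤ × ℤ)}
    (h : ∀ m n, (m, n) ∈ S → TbExt k K T (mon m n)) {f : A} (hf : f ∈ sup S) : TbExt k K T f := by
  refine sup_induction (P := TbExt k K T) ?_ ?_ ?_ h hf
  · exact ⟨fun _ => 0, continuousOn_const, fun w _ => by simp⟩
  · rintro f g ⟨f', h1, h2⟩ ⟨g', h3, h4⟩
    exact ⟨fun w => f' w + g' w, h1.add h3, fun w hw => by simp [h2 w hw, h4 w hw]⟩
  · rintro c f ⟨f', h1, h2⟩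
    exact ⟨fun w => c * f' w, continuousOn_const.mul h1, fun w hw => by simp [h2 w hw]⟩

theorem tb_ext_Xp (k : ℕ) {f : A} (hf : f ∈ Xp) : TbExt k {w | w 1 ≠ 0} id f := by
  refine tb_ext (fun m n h => ?_) hf
  obtain ⟨a, rfl⟩ := Int.eq_ofNat_of_zero_le h
  refine ⟨fun w => (w 0 ^ k) ^ a * (w 1 ^ k) ^ n, ContinuousOn.mul (by fun_prop)
    (tb_zpow_contDiffOn k 1 n 0 fun w hw => hw).continuousOn, fun w _ => ?_⟩
  simp [pw]

theorem tb_ext_Yp (k : ℕ) {f : A} (hf : f ∈ Yp) : TbExt k {w | w 0 ≠ 0} id f := by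
  refine tb_ext (fun m n h => ?_) hf
  obtain ⟨a, rfl⟩ := Int.eq_ofNat_of_zero_le h
  refine ⟨fun w => (w 0 ^ k) ^ m * (w 1 ^ k) ^ a, ContinuousOn.mul
    (tb_zpow_contDiffOn k 0 m 0 fun w hw => hw).continuousOn (by fun_prop), fun w _ => ?_⟩
  simp [pw]

theorem tb_ext_Xm (k : ℕ) {f : A} (hf : f ∈ Xm) :
    TbExt k {w | w 1 ≠ 0} (tau (0, 0) (1, 0)) f := by
  refine tb_ext (fun m n h => ?_) hf
  obtain ⟨a, rfl⟩ := Int.exists_eq_neg_ofNat h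
  refine ⟨fun w => (w 0 ^ k) ^ a * (w 1 ^ k) ^ n, ContinuousOn.mul (by fun_prop)
    (tb_zpow_contDiffOn k 1 n 0 fun w hw => hw).continuousOn, fun w _ => ?_⟩
  simp [pw, tau]

theorem tb_ext_Ym (k : ℕ) {f : A} (hf : f ∈ Ym) :
    TbExt k {w | w 0 ≠ 0} (tau (0, 0) (0, 1)) f := by
  refine tb_ext (fun m n h => ?_) hf
  obtain ⟨a, rfl⟩ := Int.exists_eq_neg_ofNat h
  refine ⟨fun w => (w 0 ^ k) ^ m * (w 1 ^ k) ^ a, ContinuousOn.mul
    (tb_zpow_contDiffOn k 0 m 0 fun w hw => hw).continuousOn (by fun_prop), fun w _ => ?_⟩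
  simp [pw, tau]

theorem tb_compact (i j : Fin 2) (hij : ∀ l, l = i ∨ l = j) (r : ℝ) :
    IsCompact {w : Fin 2 → ℂ | ‖w i‖ ≤ 1 ∧ ‖w j‖ = r} := by
  refine Metric.isCompact_of_isClosed_isBounded ?_ ?_
  · exact (isClosed_le (continuous_apply i).norm continuous_const).inter
      (isClosed_eq (continuous_apply j).norm continuous_const)
  · refine (Metric.isBounded_closedBall (x := (0 : Fin 2 → ℂ)) (r := max 1 r)).subset ?_
    rintro w ⟨h1, h2⟩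
    rw [mem_closedBall_zero_iff, pi_norm_le_iff_of_nonneg (by positivity)]
    intro l
    rcases hij l with rfl | rfl
    · exact h1.trans (le_max_left _ _)
    · exact h2.le.trans (le_max_right _ _)

/-- the common core of the four bounds -/
theorem tb_bound {g : Transition 2} {H : MetricData 2} (hH : IsHermitianMetric g H) (β : Chart)
    (i j : Fin 2) (hij : ∀ l, l = i ∨ l = j) (t : ℝ) {k : ℕ} {T : (Fin 2 → ℂ) → Fin 2 → ℂ}
    {f₁ f₂ : A} (h₁ : TbExt k {w | w j ≠ 0} T f₁) (h₂ : TbExt k {w | w j ≠ 0} T f₂) :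
    ∃ C : ℝ, ∀ w ∈ torus, ‖T w i‖ ≤ 1 → ‖T w j‖ = Real.exp t →
      (dual (H β (T w)) (cov k (f₁, f₂) w) (cov k (f₁, f₂) w)).re ≤ C := by
  obtain ⟨a, ha, ha'⟩ := h₁
  obtain ⟨b, hb, hb'⟩ := h₂
  have hsub : {w : Fin 2 → ℂ | ‖w i‖ ≤ 1 ∧ ‖w j‖ = Real.exp t} ⊆ {w | w j ≠ 0} := by
    rintro w ⟨-, h⟩ h0
    rw [h0, norm_zero] at h
    exact (Real.exp_pos t).ne h
  have hz : ContinuousOn (fun w => (![a w, b w] : Fin 2 → ℂ))
      {w : Fin 2 → ℂ | ‖w i‖ ≤ 1 ∧ ‖w j‖ = Real.exp t} := by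
    refine continuousOn_pi.2 fun l => ?_
    fin_cases l
    · exact ha.mono hsub
    · exact hb.mono hsub
  have hc := Complex.continuous_re.comp_continuousOn
    (dual_continuousOn (M := H β) (fun i j => (hH.smooth β i j).continuous.continuousOn)
      (fun w _ => hH.posDef β w) hz hz)
  obtain ⟨C, hC⟩ := (tb_compact i j hij (Real.exp t)).bddAbove_image hc
  refine ⟨C, fun w hw h1 h2 => ?_⟩
  have := hC ⟨T w, ⟨h1, h2⟩, rfl⟩
  simpa only [Function.comp, ha' w hw, hb' w hw, cov] using this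

/-- transport to another chart -/
theorem tb_transport {g : Transition 2} {H : MetricData 2} (hH : IsHermitianMetric g H) (β : Chart)
    {w : Fin 2 → ℂ} (hw : w ∈ torus) (hdet : (g (0, 0) β w).det ≠ 0) {c : ℂ} {s : ℝ}
    (hc : ‖c‖ = Real.exp s) (ζ ζ' : Fin 2 → ℂ) (h : (g (0, 0) β w)ᵀ *ᵥ ζ = c • ζ') :
    Real.exp (-2 * s) * (dual (H (0, 0) w) ζ ζ).re = (dual (H β (tau (0, 0) β w)) ζ' ζ').re := by
  have h1 := dual_transform (hH.posDef (0, 0) w) hdet ζ ζ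
  rw [← hH.compat (0, 0) β w ⟨fun _ => hw.1, fun _ => hw.2⟩, h, dual_smul_smul,
    Complex.mul_conj, Complex.normSq_eq_norm_sq, hc] at h1
  rw [← h1, Complex.re_ofReal_mul, ← mul_assoc, ← Real.exp_nat_mul, ← Real.exp_add]
  simp

variable {k : ℕ} {H : MetricData 2}

theorem bound_x0 (hk : 1 ≤ k) (hH : IsHermitianMetric (pull k g0) H) {ξ : NN} (hξ : ξ ∈ RX0)
    (t : ℝ) : ∃ C : ℝ, ∀ s ≤ 0, ∀ θ φ : ℝ,
      (dual (H (0, 0) (tp s t θ φ)) (cov k ξ (tp s t θ φ)) (cov k ξ (tp s t θ φ))).re ≤ C := by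
  obtain ⟨C, hC⟩ := tb_bound hH (0, 0) 0 1 (by decide) t (tb_ext_Xp k hξ.1) (tb_ext_Xp k hξ.2)
  refine ⟨C, fun s hs θ φ => hC _ (tp_mem_torus s t θ φ) ?_ (norm_tp_one s t θ φ)⟩
  exact (norm_tp_zero s t θ φ).trans_le (Real.exp_le_one_iff.2 hs)

theorem bound_y0 (hk : 1 ≤ k) (hH : IsHermitianMetric (pull k g0) H) {ξ : NN} (hξ : ξ ∈ RY0)
    (s : ℝ) : ∃ C : ℝ, ∀ t ≤ 0, ∀ θ φ : ℝ,
      (dual (H (0, 0) (tp s t θ φ)) (cov k ξ (tp s t θ φ)) (cov k ξ (tp s t θ φ))).re ≤ C := by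
  obtain ⟨C, hC⟩ := tb_bound hH (0, 0) 1 0 (by decide) s (tb_ext_Yp k hξ.1) (tb_ext_Yp k hξ.2)
  refine ⟨C, fun t ht θ φ => hC _ (tp_mem_torus s t θ φ) ?_ (norm_tp_zero s t θ φ)⟩
  exact (norm_tp_one s t θ φ).trans_le (Real.exp_le_one_iff.2 ht)

theorem bound_x1 (hk : 1 ≤ k) (hH : IsHermitianMetric (pull k g0) H) {ξ : NN} (hξ : ξ ∈ RX1)
    (t : ℝ) : ∃ C : ℝ, ∀ s ≥ 0, ∀ θ φ : ℝ, Real.exp (-2 * s) *
      (dual (H (0, 0) (tp s t θ φ)) (cov k ξ (tp s t θ φ)) (cov k ξ (tp s t θ φ))).re ≤ C := by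
  rw [mem_RX1] at hξ
  obtain ⟨C, hC⟩ := tb_bound hH (1, 0) 0 1 (by decide) t (tb_ext_Xm k hξ.1) (tb_ext_Xm k hξ.2)
  refine ⟨C, fun s hs θ φ => ?_⟩
  have hw := tp_mem_torus s t θ φ
  have hn0 := norm_tp_zero s t θ φ
  have hn1 := norm_tp_one s t θ φ
  generalize tp s t θ φ = w at hw hn0 hn1
  have h0 : pw k w 0 ≠ 0 := pow_ne_zero _ hw.1
  have h1 : pw k w 1 ≠ 0 := pow_ne_zero _ hw.2
  have hw0 := hw.1
  rw [tb_transport hH (1, 0) hw ?_ hn0 _ (cov k (ξ.1, mon 3 0 * ξ.2) w) ?_]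
  · refine hC w hw ?_ ?_
    · simp only [tau, Matrix.cons_val_zero, zero_ne_one, if_false, norm_inv, hn0]
      exact inv_le_one_of_one_le₀ (Real.one_le_exp hs)
    · simpa [tau] using hn1
  · simp [pull, g0, off, lineTrans, Matrix.det_fin_two, hw0, zpow_ne_zero _ h0, h0]
  · funext l
    fin_cases l <;>
      simp [pull, g0, off, lineTrans, cov, Matrix.mulVec, dotProduct, Fin.sum_univ_two,
        evl_mul h0 h1, mul_assoc]

theorem tb_evl_PsiA {p : Fin 2 → ℂ} (h0 : p 0 ≠ 0) (h1 : p 1 ≠ 0) :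
    evl p PsiA = Psich (0, 0) om (p 0) (p 1) := by
  rw [← ev_apply p h0 h1, PsiA, map_Psih]
  simp [Psich, hc0, hc1]

theorem bound_y1 (hk : 1 ≤ k) (hH : IsHermitianMetric (pull k g0) H) {ξ : NN} (hξ : ξ ∈ RY1)
    (s : ℝ) : ∃ C : ℝ, ∀ t ≥ 0, ∀ θ φ : ℝ, Real.exp (-2 * t) *
      (dual (H (0, 0) (tp s t θ φ)) (cov k ξ (tp s t θ φ)) (cov k ξ (tp s t θ φ))).re ≤ C := by
  rw [mem_RY1] at hξ
  obtain ⟨C, hC⟩ := tb_bound hH (0, 1) 1 0 (by decide) s (tb_ext_Ym k hξ.1) (tb_ext_Ym k hξ.2)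
  refine ⟨C, fun t ht θ φ => ?_⟩
  have hw := tp_mem_torus s t θ φ
  have hn0 := norm_tp_zero s t θ φ
  have hn1 := norm_tp_one s t θ φ
  generalize tp s t θ φ = w at hw hn0 hn1
  have h0 : pw k w 0 ≠ 0 := pow_ne_zero _ hw.1
  have h1 : pw k w 1 ≠ 0 := pow_ne_zero _ hw.2
  have hw1 := hw.2
  rw [tb_transport hH (0, 1) hw ?_ hn1 _
    (cov k (mon 0 6 * ξ.1 + PsiA * mon 0 (-2) * ξ.2, mon 0 (-3) * ξ.2) w) ?_]
  · refine hC w hw ?_ ?_
    · simp only [tau, Matrix.cons_val_one, Matrix.cons_val_zero, zero_ne_one, if_false, norm_inv,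
        hn1]
      exact inv_le_one_of_one_le₀ (Real.one_le_exp ht)
    · simpa [tau] using hn0
  · simp [pull, g0, off, lineTrans, Matrix.det_fin_two, hw1, zpow_ne_zero _ h1, h1]
  · funext l
    fin_cases l <;>
      simp [pull, g0, off, lineTrans, cov, Matrix.mulVec, dotProduct, Fin.sum_univ_two,
        evl_mul h0 h1, mul_assoc, tb_evl_PsiA h0 h1, mul_add]

end Crest.Agent.R258

end
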