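import Crest.Agent.R258.FormBasic

/-!
# Row 258 — rigidity of a `Form 0` along the flat sections `e1`, `e2`
-/

set_option autoImplicit false

noncomputable section

namespace Crest.Agent.R258

open scoped ComplexConjugate

namespace Form

variable (T : Form 0)

theorem N_e1_const (s t t' : ℝ) : T.N s t e1 = T.N s t' e1 := by
  have key : ∀ t t', t ≤ t' → T.N s t e1 = T.N s t' e1 := fun t t' h => by
    have h1 := T.monoy0 s e1 e1_mem_RY0 h
    have h2 := T.monoy1 s e1 e1_mem_RY1 h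
    simp only [mul_zero, zero_mul, Real.exp_zero, one_mul] at h1 h2
    exact le_antisymm h1 h2
  rcases le_total t t' with h | h
  · exact key _ _ h
  · exact (key _ _ h).symm

theorem N_e2_const (s s' t : ℝ) : T.N s t e2 = T.N s' t e2 := by
  have key : ∀ s s', s ≤ s' → T.N s t e2 = T.N s' t e2 := fun s s' h => by
    have h1 := T.monox0 t e2 e2_mem_RX0 h
    have h2 := T.monox1 t e2 e2_mem_RX1 h
    simp only [mul_zero, zero_mul, Real.exp_zero, one_mul] at h1 h2
    exact le_antisymm h1 h2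
  rcases le_total s s' with h | h
  · exact key _ _ h
  · exact (key _ _ h).symm

theorem van_aux (σ τ : ℝ → ℝ) (R : Submodule ℂ NN) {e : NN} (he : e ∈ R)
    (hconst : ∀ r r', T.N (σ r) (τ r) e = T.N (σ r') (τ r') e)
    (hmono : ∀ ξ ∈ R, Monotone fun r => T.N (σ r) (τ r) ξ) {η η' : NN} (hη : η ∈ R) (hη' : η' ∈ R)
    (hN : ∀ r, T.N (σ r) (τ r) η' = Real.exp (2 * r) * T.N (σ r) (τ r) η) (r : ℝ) :
    T.B (σ r) (τ r) η' e = 0 := by
  have h1 : ∀ r', r' ≤ r → T.B (σ r') (τ r') η' e = T.B (σ r) (τ r) η' e := by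
    intro r' h
    have := eq_zero_of_quad (Δ := T.B (σ r) (τ r) η' e - T.B (σ r') (τ r') η' e)
      (K := T.N (σ r) (τ r) η' - T.N (σ r') (τ r') η') fun c => by
        have h2 := hmono _ (R.add_mem he (R.smul_mem c hη')) h
        simp only [T.N_add_smul, hconst r' r] at h2
        rw [mul_sub, Complex.sub_re]
        linarith
    exact (sub_eq_zero.1 this).symm
  have h2 : ∀ r', r' ≤ r → ‖T.B (σ r) (τ r) η' e‖ ^ 2 ≤
      T.N (σ r) (τ r) e * T.N (σ r) (τ r) η * Real.exp (2 * r') := by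
    intro r' h
    have h3 := T.cs (σ r') (τ r') η' e
    rw [h1 r' h, hN, hconst r' r] at h3
    have h4 : T.N (σ r') (τ r') η ≤ T.N (σ r) (τ r) η := hmono _ hη h
    have h5 := T.N_nonneg (σ r) (τ r) e
    have h6 := Real.exp_pos (2 * r')
    refine h3.trans ?_
    rw [mul_assoc, mul_comm (T.N (σ r) (τ r) η)]
    gcongr
  have h3 : Filter.Tendsto (fun r' : ℝ => T.N (σ r) (τ r) e * T.N (σ r) (τ r) η * Real.exp (2 * r'))
      Filter.atBot (nhds (T.N (σ r) (τ r) e * T.N (σ r) (τ r) η * 0)) :=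
    (Real.tendsto_exp_atBot.comp (Filter.tendsto_id.const_mul_atBot two_pos)).const_mul _
  have h4 := ge_of_tendsto h3 ((Filter.eventually_le_atBot r).mono h2)
  rw [mul_zero] at h4
  have h5 : ‖T.B (σ r) (τ r) η' e‖ ^ 2 = 0 := le_antisymm h4 (by positivity)
  simpa using h5

theorem vanY0 (s t : ℝ) {η : NN} (h : η ∈ RY0) : T.B s t (mon 0 1 • η) e1 = 0 :=
  T.van_aux (fun _ => s) id RY0 e1_mem_RY0 (fun r r' => T.N_e1_const s r r') (fun ξ hξ => T.monoy0 s ξ hξ) h
    (smul_mem_RY0 (mon_mem_Yp 0 zero_le_one) h) (fun r => by rw [T.N_mon]; simp) t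

theorem vanY1 (s t : ℝ) {η : NN} (h : η ∈ RY1) : T.B s t (mon 0 (-1) • η) e1 = 0 := by
  have := T.van_aux (fun _ => s) (fun r => -r) RY1 e1_mem_RY1 (fun r r' => T.N_e1_const s _ _)
    (fun ξ hξ r r' hr => by simpa [N] using T.monoy1 s ξ hξ (neg_le_neg hr)) h
    (smul_mem_RY1 (mon_mem_Ym 0 (show (-1 : ℤ) ≤ 0 by norm_num)) h) (fun r => by rw [T.N_mon]; simp) (-t)
  simpa using this

theorem vanX0 (s t : ℝ) {η : NN} (h : η ∈ RX0) : T.B s t (mon 1 0 • η) e2 = 0 :=
  T.van_aux id (fun _ => t) RX0 e2_mem_RX0 (fun r r' => T.N_e2_const r r' t) (fun ξ hξ => T.monox0 t ξ hξ) h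
    (smul_mem_RX0 (mon_mem_Xp 0 zero_le_one) h) (fun r => by rw [T.N_mon]; simp) s

theorem vanX1 (s t : ℝ) {η : NN} (h : η ∈ RX1) : T.B s t (mon (-1) 0 • η) e2 = 0 := by
  have := T.van_aux (fun r => -r) (fun _ => t) RX1 e2_mem_RX1 (fun r r' => T.N_e2_const _ _ t)
    (fun ξ hξ r r' hr => by simpa [N] using T.monox1 t ξ hξ (neg_le_neg hr)) h
    (smul_mem_RX1 (mon_mem_Xm 0 (show (-1 : ℤ) ≤ 0 by norm_num)) h) (fun r => by rw [T.N_mon]; simp) (-s)
  simpa using this

theorem affine_e2 (t : ℝ) (η : NN) : ∃ a b : ℂ, ∀ s : ℝ, T.B s t η e2 = a + b * s := by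
  have key : ∀ x y l m : ℝ, 0 ≤ l → 0 ≤ m → l + m = 1 →
      T.B (l * x + m * y) t η e2 = l * T.B x t η e2 + m * T.B y t η e2 := by
    intro x y l m hl hm hlm
    have := eq_zero_of_quad (Δ := l * T.B x t η e2 + m * T.B y t η e2 - T.B (l * x + m * y) t η e2)
      (K := l * T.N x t η + m * T.N y t η - T.N (l * x + m * y) t η) fun c => by
        have h2 : T.N (l * x + m * y) t (e2 + c • η) ≤ l * T.N x t (e2 + c • η) + m * T.N y t (e2 + c • η) :=
          (T.convx t (e2 + c • η)).2 (Set.mem_univ x) (Set.mem_univ y) hl hm hlm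
        simp only [T.N_add_smul, T.N_e2_const _ 0 t] at h2
        have e : (c * (l * T.B x t η e2 + m * T.B y t η e2 - T.B (l * x + m * y) t η e2)).re =
            l * (c * T.B x t η e2).re + m * (c * T.B y t η e2).re - (c * T.B (l * x + m * y) t η e2).re := by
          rw [← Complex.re_ofReal_mul, ← Complex.re_ofReal_mul, ← Complex.add_re, ← Complex.sub_re]
          congr 1; ring
        rw [e]
        have : T.N 0 t e2 = l * T.N 0 t e2 + m * T.N 0 t e2 := by rw [← add_mul, hlm, one_mul]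
        linarith
    exact (sub_eq_zero.1 this).symm
  refine ⟨T.B 0 t η e2, T.B 1 t η e2 - T.B 0 t η e2, fun s => ?_⟩
  rcases lt_or_ge s 0 with h0 | h0
  · have h1 : (1 - s) ≠ 0 := by linarith
    have h1' : (1 - (s : ℂ)) ≠ 0 := by exact_mod_cast h1
    have := key s 1 (1 / (1 - s)) (-s / (1 - s)) (by apply div_nonneg <;> linarith)
      (by apply div_nonneg <;> linarith) (by field_simp; ring)
    rw [show 1 / (1 - s) * s + -s / (1 - s) * 1 = 0 by ring] at this
    push_cast at this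
    field_simp at this
    linear_combination -this
  · rcases le_or_gt s 1 with h1 | h1
    · have := key 0 1 (1 - s) s (by linarith) h0 (by ring)
      rw [show (1 - s) * 0 + s * 1 = s by ring] at this
      rw [this]; push_cast; ring
    · have h2 : s ≠ 0 := by linarith
      have h2' : (s : ℂ) ≠ 0 := by exact_mod_cast h2
      have := key s 0 (1 / s) ((s - 1) / s) (by positivity) (by apply div_nonneg <;> linarith)
        (by field_simp; ring)
      rw [show 1 / s * s + (s - 1) / s * 0 = 1 by field_simp; ring] at this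
      push_cast at this
      field_simp at this
      linear_combination -this

theorem mon_e2_e1 (t : ℝ) (m n : ℤ) : ∃ a b : ℂ, ∀ s : ℝ,
    T.B s t (mon m n • e2) e1 = ((Real.exp (2 * m * s) : ℝ) : ℂ) * (a + b * s) := by
  obtain ⟨a, b, h⟩ := T.affine_e2 t (mon (-m) (-n) • e1)
  refine ⟨(Real.exp (2 * n * t) : ℝ) * conj a, (Real.exp (2 * n * t) : ℝ) * conj b, fun s => ?_⟩
  have e : e1 = mon m n • mon (-m) (-n) • e1 := by rw [← mul_smul, mon_mul_neg, one_smul]
  conv_lhs => rw [e]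
  rw [T.mul_mon, T.herm, h, Real.exp_add, Complex.ofReal_mul, map_add, map_mul, Complex.conj_ofReal]
  ring

end Form

end Crest.Agent.R258

end
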